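import Vale.Agent.P162.P2.Defs

namespace Vale.Agent.P162.P2

open Finset Vale.Agent.P162 Vale.Agent.P162.KL

/-- transport of matchings along an equivalence -/
def matCongr {S T : Type} [Fintype S] [DecidableEq S] [Fintype T] [DecidableEq T] (e : S ≃ T) :
    Mat S ≃ Mat T :=
  Equiv.subtypeEquiv e.permCongr (by
    intro σ
    constructor
    · rintro ⟨h1, h2⟩
      refine ⟨fun x => ?_, fun x hx => ?_⟩
      · simp [Equiv.permCongr_apply, h1]
      · apply h2 (e.symm x)
        rw [Equiv.permCongr_apply] at hx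
        exact (Equiv.eq_symm_apply e).2 hx
    · rintro ⟨h1, h2⟩
      refine ⟨fun x => ?_, fun x hx => ?_⟩
      · have := h1 (e x)
        simp only [Equiv.permCongr_apply, Equiv.symm_apply_apply] at this
        exact e.injective this
      · apply h2 (e x)
        rw [Equiv.permCongr_apply]
        simp [hx])

/-- the number of matchings depends on the size only (transport along `Fintype.equivFin`) -/
theorem card_Mat (S : Type) [Fintype S] [DecidableEq S] :
    (Fintype.card (Mat S) : ℝ) = mc (Fintype.card S) := by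
  unfold mc
  rw [Fintype.card_congr (matCongr (Fintype.equivFin S))]

theorem cycleType_mat {S : Type} [Fintype S] [DecidableEq S] (σ : Mat S) :
    σ.1.cycleType = Multiset.replicate (Fintype.card S / 2) 2 := by
  have hp : σ.1 ^ 2 = 1 := by
    ext x
    simp [pow_two, σ.2.1 x]
  have : Fact (Nat.Prime 2) := ⟨Nat.prime_two⟩
  have h1 := Equiv.Perm.cycleType_of_pow_prime_eq_one hp
  have h2 := Equiv.Perm.sum_cycleType σ.1
  have h3 : σ.1.support = Finset.univ := by
    ext x
    simp [Equiv.Perm.mem_support, σ.2.2 x]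
  rw [h3, h1, Multiset.sum_replicate, Finset.card_univ, smul_eq_mul] at h2
  rw [h1]
  congr 1
  omega

/-- any two matchings are conjugate (`Equiv.Perm.isConj_iff_cycleType_eq`,
`Equiv.Perm.cycleType_of_pow_prime_eq_one`, `Equiv.Perm.sum_cycleType`) -/
theorem mat_conj {S : Type} [Fintype S] [DecidableEq S] (σ σ' : Mat S) :
    ∃ π : Equiv.Perm S, ∀ a, σ'.1 (π a) = π (σ.1 a) := by
  have h : IsConj σ.1 σ'.1 := by
    rw [Equiv.Perm.isConj_iff_cycleType_eq, cycleType_mat, cycleType_mat]
  obtain ⟨c, hc⟩ := isConj_iff.1 h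
  refine ⟨c, fun a => ?_⟩
  rw [← hc]
  simp

end Vale.Agent.P162.P2
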