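import Vale.Agent.P162.P2.Fibre
import Vale.Agent.P162.P2.MatCard
import Vale.Agent.P162.KL.BitChan

namespace Vale.Agent.P162.P2

open Finset Vale.Agent.P162 Vale.Agent.P162.KL

/-- LINK to the interface of the TOP half (KL/Chan.lean).  `bitChan M h τ = Tr (Fin (2M)) (μ_h) τ`
with `μ_h = h⁻¹ ∘ flip ∘ h`, `flip` = the involution `i ↔ M + i` of the positions
(`b ↦ newBit M h b` is injective and its image is the set of colourings crossing `μ_h`);
all fibres of `h ↦ μ_h` have the same size (`h ↦ h * π` maps the fibre of `σ` onto the fibre of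
`π⁻¹ σ π`, and `mat_conj`); then `SDPI_of_fibres`.
(Proved here from `KL.SDPI_bitChan_of_trChan`, which is the same statement for `trChan`.) -/
theorem SDPI_bitChan (M : ℕ) (η : ℝ) (hη : 0 ≤ η) (h : TS M η) : SDPI (bitChan M) η := by
  have h1 := h (Fin (2 * M)) (by simp)
  have h2 : Tr (Fin (2 * M)) =
      (trChan (Fin (2 * M)) : {μ : Equiv.Perm (Fin (2 * M)) // IsMt μ} → _) := by
    funext σ τ
    unfold trChan Tr
    by_cases hc : ∀ x, τ (σ.1 x) = !τ x
    · simp only [if_pos hc]
    · simp only [if_neg hc]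
  rw [h2] at h1
  exact @SDPI_bitChan_of_trChan M _ η hη h1

end Vale.Agent.P162.P2
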