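import Vale.Agent.P162.P2.Defs

namespace Vale.Agent.P162.P2

open Finset Vale.Agent.P162 Vale.Agent.P162.KL

/-! ### local tools (self-contained: only `KL/Basic` and `KL/Chan` are used) -/

theorem sa_nonempty {A : Type*} [Fintype A] {p : A → ℝ} (hp : IsLaw p) : Nonempty A := by
  by_contra h
  rw [not_nonempty_iff] at h
  have := hp.2
  simp at this

theorem sa_unif_pos {A : Type*} [Fintype A] [Nonempty A] (a : A) : 0 < unif A a := by
  unfold unif
  have : 0 < (Fintype.card A : ℝ) := by exact_mod_cast Fintype.card_pos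
  positivity

theorem sa_push_nonneg {A B : Type*} [Fintype A] {K : A → B → ℝ} (hK : ∀ a b, 0 ≤ K a b)
    {f : A → ℝ} (hf : ∀ a, 0 ≤ f a) (b : B) : 0 ≤ push K f b :=
  Finset.sum_nonneg (fun a _ => mul_nonneg (hf a) (hK a b))

theorem sa_push_sum {A B : Type*} [Fintype A] [Fintype B] {K : A → B → ℝ} (hK : IsChan K)
    (f : A → ℝ) : ∑ b, push K f b = ∑ a, f a := by
  unfold push
  rw [Finset.sum_comm]
  apply Finset.sum_congr rfl
  intro a _
  rw [← Finset.mul_sum, (hK a).2, mul_one]

theorem sa_col_zero {A B : Type*} [Fintype A] [Nonempty A] {K : A → B → ℝ}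
    (hK : ∀ a b, 0 ≤ K a b) {b : B} (h : push K (unif A) b = 0) (a : A) : K a b = 0 := by
  unfold push at h
  have hz := (Finset.sum_eq_zero_iff_of_nonneg
    (fun a _ => mul_nonneg (sa_unif_pos a).le (hK a b))).1 h a (Finset.mem_univ a)
  rcases mul_eq_zero.1 hz with h0 | h0
  · exact absurd h0 (sa_unif_pos a).ne'
  · exact h0

/-- data processing inequality for a channel -/
theorem sa_kl_push_le {A B : Type*} [Fintype A] [Fintype B] (J : A → B → ℝ) (hJ : IsChan J)
    (p q : A → ℝ) (hp : ∀ a, 0 ≤ p a) (hq : ∀ a, 0 ≤ q a) (hac : ∀ a, q a = 0 → p a = 0) :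
    kl (push J p) (push J q) ≤ kl p q := by
  unfold kl push
  have h1 : ∀ b : B, (∑ a, p a * J a b) * Real.log ((∑ a, p a * J a b) / (∑ a, q a * J a b)) ≤
      ∑ a, J a b * (p a * Real.log (p a / q a)) := by
    intro b
    refine le_trans (log_sum Finset.univ (fun a => p a * J a b) (fun a => q a * J a b)
      (fun a _ => mul_nonneg (hp a) ((hJ a).1 b)) (fun a _ => mul_nonneg (hq a) ((hJ a).1 b))
      ?_) ?_
    · intro a _ h
      rcases mul_eq_zero.1 h with h0 | h0
      · rw [hac a h0, zero_mul]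
      · rw [h0, mul_zero]
    · apply le_of_eq
      apply Finset.sum_congr rfl
      intro a _
      by_cases h0 : J a b = 0
      · simp [h0]
      · rw [mul_div_mul_right _ _ h0]
        ring
  calc ∑ b, (∑ a, p a * J a b) * Real.log ((∑ a, p a * J a b) / (∑ a, q a * J a b))
      ≤ ∑ b, ∑ a, J a b * (p a * Real.log (p a / q a)) := Finset.sum_le_sum (fun b _ => h1 b)
    _ = ∑ a, p a * Real.log (p a / q a) := by
        rw [Finset.sum_comm]
        apply Finset.sum_congr rfl
        intro a _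
        rw [← Finset.sum_mul, (hJ a).2, one_mul]

/-- chain rule for a product reference weight -/
theorem sa_chain_prod {X Y : Type*} [Fintype X] [Fintype Y] (f : X × Y → ℝ) (a : X → ℝ)
    (b : Y → ℝ) (hf : ∀ z, 0 ≤ f z) (ha : ∀ x, a x = 0 → ∑ y, f (x, y) = 0)
    (hb : ∀ x y, b y = 0 → f (x, y) = 0) :
    ∑ z, f z * Real.log (f z / (a z.1 * b z.2)) =
      ∑ x, (∑ y, f (x, y)) * Real.log ((∑ y, f (x, y)) / a x) +
        ∑ x, ∑ y, f (x, y) * Real.log (f (x, y) / ((∑ y', f (x, y')) * b y)) := by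
  rw [Fintype.sum_prod_type, ← Finset.sum_add_distrib]
  apply Finset.sum_congr rfl
  intro x _
  rw [Finset.sum_mul, ← Finset.sum_add_distrib]
  apply Finset.sum_congr rfl
  intro y _
  rcases (hf (x, y)).eq_or_lt with h0 | hpos
  · simp [← h0]
  · have hF : 0 < ∑ y', f (x, y') :=
      lt_of_lt_of_le hpos (Finset.single_le_sum (f := fun y' => f (x, y'))
        (fun y' _ => hf (x, y')) (Finset.mem_univ y))
    have hax : a x ≠ 0 := fun h => hF.ne' (ha x h)
    have hby : b y ≠ 0 := fun h => hpos.ne' (hb x y h)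
    have e : f (x, y) / (a x * b y) =
        ((∑ y', f (x, y')) / a x) * (f (x, y) / ((∑ y', f (x, y')) * b y)) := by
      field_simp
    rw [← mul_add, ← Real.log_mul (div_ne_zero hF.ne' hax)
      (div_ne_zero hpos.ne' (mul_ne_zero hF.ne' hby)), ← e]

/-- superadditivity of the divergence with respect to a product reference -/
theorem sa_kl_superadd {X Y : Type*} [Fintype X] [Fintype Y] (r : X × Y → ℝ) (n1 : X → ℝ)
    (n2 : Y → ℝ) (hr : ∀ z, 0 ≤ r z) (hsum : ∑ z, r z = 1) (hn2 : ∀ y, 0 ≤ n2 y)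
    (hac : ∀ z, n1 z.1 * n2 z.2 = 0 → r z = 0) :
    kl (fun x => ∑ y, r (x, y)) n1 + kl (fun y => ∑ x, r (x, y)) n2 ≤
      kl r (fun z => n1 z.1 * n2 z.2) := by
  have hch := sa_chain_prod r n1 n2 hr
    (fun x hx => Finset.sum_eq_zero (fun y _ => hac (x, y) (by simp [hx])))
    (fun x y hy => hac (x, y) (by simp [hy]))
  unfold kl
  rw [hch]
  apply add_le_add le_rfl
  rw [Finset.sum_comm]
  apply Finset.sum_le_sum
  intro y _
  have h := log_sum Finset.univ (fun x => r (x, y)) (fun x => (∑ y', r (x, y')) * n2 y)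
    (fun x _ => hr _) (fun x _ => mul_nonneg (Finset.sum_nonneg (fun y' _ => hr _)) (hn2 y)) ?_
  · have e : ∑ x, (∑ y', r (x, y')) * n2 y = n2 y := by
      rw [← Finset.sum_mul, ← Fintype.sum_prod_type, hsum, one_mul]
    rw [e] at h
    exact h
  · intro x _ h0
    rcases mul_eq_zero.1 h0 with h1 | h1
    · exact (Finset.sum_eq_zero_iff_of_nonneg (fun y' _ => hr (x, y'))).1 h1 y (Finset.mem_univ y)
    · exact hac (x, y) (by simp [h1])

/-- SUPERADDITIVITY: the output `z` of the channel `KK` carries two copies `φ1 z`, `φ2 z` of the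
output of `K`, which are independent under the uniform input.  Then `2 D(K) ≤ D(KK)`.
(data processing for `z ↦ (φ1 z, φ2 z)`, then `kl Q' (n ⊗ n) ≥ kl q n + kl q n`.) -/
theorem superadd {A Z B : Type*} [Fintype A] [Fintype Z] [Fintype B] [DecidableEq B]
    (KK : A → Z → ℝ) (hKK : IsChan KK) (K : A → B → ℝ) (φ1 φ2 : Z → B)
    (h1 : ∀ a b, ∑ z ∈ univ.filter (fun z => φ1 z = b), KK a z = K a b)
    (h2 : ∀ a b, ∑ z ∈ univ.filter (fun z => φ2 z = b), KK a z = K a b)
    (hind : ∀ b1 b2, ∑ z ∈ univ.filter (fun z => φ1 z = b1 ∧ φ2 z = b2), push KK (unif A) z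
        = push K (unif A) b1 * push K (unif A) b2)
    (p : A → ℝ) (hp : IsLaw p) :
    2 * kl (push K p) (push K (unif A)) ≤ kl (push KK p) (push KK (unif A)) := by
  classical
  haveI := sa_nonempty hp
  have hKKnn : ∀ a z, 0 ≤ KK a z := fun a z => (hKK a).1 z
  have hKnn : ∀ a b, 0 ≤ K a b := by
    intro a b
    rw [← h1 a b]
    exact Finset.sum_nonneg (fun z _ => hKKnn a z)
  have hunn : ∀ a : A, 0 ≤ unif A a := fun a => (sa_unif_pos a).le
  -- the deterministic channel `z ↦ (φ1 z, φ2 z)`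
  let Φ : Z → B × B → ℝ := fun z b => if (φ1 z, φ2 z) = b then 1 else 0
  have hΦ : IsChan Φ := by
    intro z
    refine ⟨fun b => ?_, ?_⟩
    · show 0 ≤ (if (φ1 z, φ2 z) = b then (1 : ℝ) else 0)
      split_ifs <;> norm_num
    · show ∑ b, (if (φ1 z, φ2 z) = b then (1 : ℝ) else 0) = 1
      simp
  have hpush : ∀ (f : Z → ℝ) (b : B × B), push Φ f b
      = ∑ z ∈ univ.filter (fun z => φ1 z = b.1 ∧ φ2 z = b.2), f z := by
    intro f b
    unfold push
    rw [Finset.sum_filter]
    apply Finset.sum_congr rfl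
    intro z _
    show f z * (if (φ1 z, φ2 z) = b then (1 : ℝ) else 0) = _
    by_cases h : (φ1 z, φ2 z) = b
    · have h' : φ1 z = b.1 ∧ φ2 z = b.2 := by rw [← h]; exact ⟨rfl, rfl⟩
      rw [if_pos h, if_pos h', mul_one]
    · have h' : ¬ (φ1 z = b.1 ∧ φ2 z = b.2) := fun hh => h (Prod.ext hh.1 hh.2)
      rw [if_neg h, if_neg h', mul_zero]
  have hQnn : ∀ z, 0 ≤ push KK p z := sa_push_nonneg hKKnn hp.1
  have hRnn : ∀ z, 0 ≤ push KK (unif A) z := sa_push_nonneg hKKnn hunn
  have hac : ∀ z, push KK (unif A) z = 0 → push KK p z = 0 := by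
    intro z hz
    unfold push
    apply Finset.sum_eq_zero
    intro a _
    rw [sa_col_zero hKKnn hz a, mul_zero]
  have hdp := sa_kl_push_le Φ hΦ (push KK p) (push KK (unif A)) hQnn hRnn hac
  have hn : push Φ (push KK (unif A))
      = fun z : B × B => push K (unif A) z.1 * push K (unif A) z.2 := by
    funext b
    rw [hpush]
    exact hind b.1 b.2
  have hrnn : ∀ b, 0 ≤ push Φ (push KK p) b := sa_push_nonneg (fun z b => (hΦ z).1 b) hQnn
  have hrsum : ∑ b, push Φ (push KK p) b = 1 := by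
    rw [sa_push_sum hΦ, sa_push_sum hKK, hp.2]
  have hrac : ∀ z : B × B, push K (unif A) z.1 * push K (unif A) z.2 = 0 →
      push Φ (push KK p) z = 0 := by
    intro b hb
    have hb' : push Φ (push KK (unif A)) b = 0 := by rw [hn]; exact hb
    rw [hpush] at hb' ⊢
    have hz := (Finset.sum_eq_zero_iff_of_nonneg (fun z _ => hRnn z)).1 hb'
    exact Finset.sum_eq_zero (fun z hzm => hac z (hz z hzm))
  have hsup := sa_kl_superadd (push Φ (push KK p)) (push K (unif A)) (push K (unif A)) hrnn hrsum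
    (sa_push_nonneg hKnn hunn) hrac
  -- marginals
  have hfil : ∀ (φ : Z → B) (hφ : ∀ a b, ∑ z ∈ univ.filter (fun z => φ z = b), KK a z = K a b)
      (b : B), ∑ z ∈ univ.filter (fun z => φ z = b), push KK p z = push K p b := by
    intro φ hφ b
    unfold push
    rw [Finset.sum_comm]
    apply Finset.sum_congr rfl
    intro a _
    rw [← Finset.mul_sum, hφ]
  have hm1 : (fun b1 => ∑ b2, push Φ (push KK p) (b1, b2)) = push K p := by
    funext b1
    rw [← hfil φ1 h1 b1]
    have e : ∀ b2, push Φ (push KK p) (b1, b2)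
        = ∑ z ∈ (univ.filter (fun z => φ1 z = b1)).filter (fun z => φ2 z = b2), push KK p z := by
      intro b2
      rw [hpush, Finset.filter_filter]
    rw [Finset.sum_congr rfl (fun b2 _ => e b2)]
    exact Finset.sum_fiberwise _ φ2 _
  have hm2 : (fun b2 => ∑ b1, push Φ (push KK p) (b1, b2)) = push K p := by
    funext b2
    rw [← hfil φ2 h2 b2]
    have e : ∀ b1, push Φ (push KK p) (b1, b2)
        = ∑ z ∈ (univ.filter (fun z => φ2 z = b2)).filter (fun z => φ1 z = b1), push KK p z := by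
      intro b1
      rw [hpush, Finset.filter_filter]
      apply Finset.sum_congr _ (fun _ _ => rfl)
      ext z
      simp only [Finset.mem_filter, Finset.mem_univ, true_and]
      exact and_comm
    rw [Finset.sum_congr rfl (fun b1 _ => e b1)]
    exact Finset.sum_fiberwise _ φ1 _
  rw [hm1, hm2, ← hn] at hsup
  linarith

/-- data processing: every channel has SDPI constant `1` -/
theorem SDPI_one {A B : Type*} [Fintype A] [Fintype B] (K : A → B → ℝ) (hK : IsChan K) :
    SDPI K 1 := by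
  intro p hp
  haveI := sa_nonempty hp
  rw [one_mul]
  exact sa_kl_push_le K hK p (unif A) hp.1 (fun a => (sa_unif_pos a).le)
    (fun a h => absurd h (sa_unif_pos a).ne')

end Vale.Agent.P162.P2
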