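import Vale.Agent.P162.P2.CondZT
import Vale.Agent.P162.P2.Link
import Vale.Agent.P162.P2.Super
import Vale.Agent.P162.KL.Assemble
import Vale.Agent.P162.KL.Mono
import Vale.Agent.P162.Top.Final

/-!
# P162 : final wrap.  From the one-step statements STEP Z, STEP T and the bound `1/2` for the
transversal channel to the mixing time bound.
-/

namespace Vale.Agent.P162.P2

open Finset Vale.Agent.P162 Vale.Agent.P162.KL

theorem ZS_mono4 (M : ℕ) (e e' : ℝ) (h : ZS M e) (hle : e ≤ e') : ZS M e' :=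
  fun S _ _ hS => KL.SDPI_mono _ e e' (h S hS) hle

theorem TS_mono4 (M : ℕ) (e e' : ℝ) (h : TS M e) (hle : e ≤ e') : TS M e' :=
  fun S _ _ hS => KL.SDPI_mono _ e e' (h S hS) hle

theorem ZS_closed4 (M : ℕ) (e : ℝ) (h : ∀ e', e < e' → ZS M e') : ZS M e :=
  fun S _ _ hS => SDPI_closed _ e (fun e' he' => h e' he' S hS)

theorem TS_closed4 (M : ℕ) (e : ℝ) (h : ∀ e', e < e' → TS M e') : TS M e :=
  fun S _ _ hS => SDPI_closed _ e (fun e' he' => h e' he' S hS)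

theorem ZS_one4 (M : ℕ) : ZS M 1 :=
  fun S _ _ hS => SDPI_one _ (Wc_isChan M hS (wU (2 * M)) (wU_nonneg86 _) (sum_wU86 M))

/-- everything that is left of (P2) : STEP Z, STEP T and the constant `1/2` -/
theorem wrap4 (K : ℝ) (hK : 0 ≤ K) (M1 : ℕ) (hKM : K < M1)
    (stepZ : ∀ M : ℕ, M1 ≤ M → ∀ g : ℝ, 0 ≤ g →
      (∀ n : ℕ, 2 * M ≤ 5 * n → 5 * n ≤ 3 * M → ZS n g) →
        ZS M ((1 + K / M) * (g + K / M) / (1 - K / M + g)))
    (stepT : ∀ M : ℕ, M1 ≤ M → ∀ zt sg : ℝ, 0 ≤ zt → 0 ≤ sg → ZS M zt →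
      (∀ n : ℕ, 2 * M ≤ 5 * n → 5 * n ≤ 3 * M → TS n sg) →
        TS M ((20 / 19 * zt + sg + K / M) / 2))
    (trivT : ∀ M : ℕ, TS M (1 / 2)) :
    ∃ C : ℝ, ∀ k t : ℕ, C * ((k : ℝ) + 1) ^ (29 / 10 : ℝ) ≤ t →
      tvUnif (thorpPow (2 ^ k) t) ≤ 1 / 4 := by
  obtain ⟨j0, hj0⟩ := assemble ZS TS ZS_mono4 ZS_closed4 TS_mono4 TS_closed4 ZS_one4 trivT
    K hK M1 hKM stepZ stepT
  refine Top.top_final (fun M _ => SDPI_bitChan M (1 / 2) (by norm_num) (trivT M))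
    ⟨j0, fun j hj => SDPI_bitChan (2 ^ j) _ (by positivity) (hj0 j hj)⟩

end Vale.Agent.P162.P2
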