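import Vale.Agent.P162.P2.JoinMat

namespace Vale.Agent.P162.P2

open Finset Vale.Agent.P162 Vale.Agent.P162.KL

variable {S : Type} [Fintype S] [DecidableEq S]

theorem closed_count_le (σ σ' : Mat S) (k : ℕ) :
    (univ.filter (fun x : Finset S => x.card = k ∧ Cl σ.1 x)).card ≤
      (univ.filter (fun x : Finset S => x.card = k ∧ Cl σ'.1 x)).card := by
  obtain ⟨π, hπ⟩ := mat_conj σ σ'
  apply Finset.card_le_card_of_injOn (fun x => x.map π.toEmbedding)
  · intro x hx
    simp only [coe_filter, mem_univ, true_and, Set.mem_ofPred_eq] at hx ⊢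
    refine ⟨by rw [card_map]; exact hx.1, ?_⟩
    intro a ha
    rw [mem_map] at ha ⊢
    obtain ⟨b, hb, rfl⟩ := ha
    exact ⟨σ.1 b, hx.2 b hb, (hπ b).symm⟩
  · intro x _ y _ h
    exact Finset.map_injective _ h

theorem closed_count_symm (σ σ' : Mat S) (k : ℕ) :
    (univ.filter (fun x : Finset S => x.card = k ∧ Cl σ.1 x)).card =
      (univ.filter (fun x : Finset S => x.card = k ∧ Cl σ'.1 x)).card :=
  le_antisymm (closed_count_le σ σ' k) (closed_count_le σ' σ k)

theorem closed_count_ite (σ : Mat S) (k : ℕ) :
    ((univ.filter (fun x : Finset S => x.card = k ∧ Cl σ.1 x)).card : ℝ) =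
      ∑ x ∈ univ.filter (fun x : Finset S => x.card = k), (if Cl σ.1 x then (1 : ℝ) else 0) := by
  rw [← Finset.filter_filter, Finset.card_filter]
  push_cast
  rfl

theorem card_filter_card (k : ℕ) :
    (univ.filter (fun x : Finset S => x.card = k)).card = (Fintype.card S).choose k := by
  have : univ.filter (fun x : Finset S => x.card = k) = powersetCard k univ := by
    ext x
    simp [mem_powersetCard]
  rw [this, card_powersetCard, card_univ]

/-- SYMMETRY: the number of closed `k`-sets is the same for all matchings (`mat_conj`: `x ↦ x.map π`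
is a bijection between the closed sets of `σ` and of `σ'`); double counting with `card_closed`
and `card_Mat` gives its value. -/
theorem closed_count (σ : Mat S) (k : ℕ) :
    ((univ.filter (fun x : Finset S => x.card = k ∧ Cl σ.1 x)).card : ℝ) * mc (Fintype.card S) =
      ((Fintype.card S).choose k : ℝ) * (mc k * mc (Fintype.card S - k)) := by
  have h1 : ∑ σ' : Mat S, ((univ.filter (fun x : Finset S => x.card = k ∧ Cl σ'.1 x)).card : ℝ) =
      ((univ.filter (fun x : Finset S => x.card = k ∧ Cl σ.1 x)).card : ℝ) *
        mc (Fintype.card S) := by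
    rw [← card_Mat S]
    have : ∀ σ' ∈ (univ : Finset (Mat S)),
        ((univ.filter (fun x : Finset S => x.card = k ∧ Cl σ'.1 x)).card : ℝ) =
        ((univ.filter (fun x : Finset S => x.card = k ∧ Cl σ.1 x)).card : ℝ) := by
      intro σ' _
      rw [closed_count_symm σ' σ k]
    rw [Finset.sum_congr rfl this, Finset.sum_const, card_univ, nsmul_eq_mul, mul_comm]
  rw [← h1]
  simp only [closed_count_ite]
  rw [Finset.sum_comm]
  have h2 : ∀ x ∈ univ.filter (fun x : Finset S => x.card = k),
      ∑ σ' : Mat S, (if Cl σ'.1 x then (1 : ℝ) else 0) = mc k * mc (Fintype.card S - k) := by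
    intro x hx
    have hk : x.card = k := (mem_filter.1 hx).2
    rw [← hk, ← card_closed x, Finset.card_filter]
    push_cast
    rfl
  rw [Finset.sum_congr rfl h2, Finset.sum_const, card_filter_card, nsmul_eq_mul]

end Vale.Agent.P162.P2
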