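import Vale.Agent.P162.P2.Defs

namespace Vale.Agent.P162.P2

open Finset Vale.Agent.P162 Vale.Agent.P162.KL

/-- a fixed point free involution has full support and square one -/
theorem mat_sq_support {n : ℕ} (σ : Equiv.Perm (Fin n))
    (h : (∀ x, σ (σ x) = x) ∧ ∀ x, σ x ≠ x) : σ ^ 2 = 1 ∧ σ.support = Finset.univ := by
  constructor
  · ext x
    simp [pow_two, h.1 x]
  · ext x
    simp [Equiv.Perm.mem_support, h.2 x]

/-- fixed point free involutions are the permutations of cycle type `2^M` -/
theorem mat_iff_cycleType (M : ℕ) (σ : Equiv.Perm (Fin (2 * M))) :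
    ((∀ x, σ (σ x) = x) ∧ ∀ x, σ x ≠ x) ↔ σ.cycleType = Multiset.replicate M 2 := by
  constructor
  · intro h
    obtain ⟨h2, hs⟩ := mat_sq_support σ h
    have hall : ∀ k ∈ σ.cycleType, k = 2 := fun k hk =>
      le_antisymm (Nat.le_of_dvd zero_lt_two
        ((Equiv.Perm.dvd_of_mem_cycleType hk).trans (orderOf_dvd_of_pow_eq_one h2)))
        (Equiv.Perm.two_le_of_mem_cycleType hk)
    have hrep := Multiset.eq_replicate_card.2 hall
    have hsum := σ.sum_cycleType
    rw [hs, Finset.card_univ, Fintype.card_fin, hrep, Multiset.sum_replicate, smul_eq_mul] at hsum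
    have hc : Multiset.card σ.cycleType = M := by omega
    rw [hrep, hc]
  · intro h
    have hord : orderOf σ ∣ 2 := by
      rw [← Equiv.Perm.lcm_cycleType, h]
      exact Multiset.lcm_dvd.2 fun k hk => by rw [Multiset.eq_of_mem_replicate hk]
    have h2 : σ ^ 2 = 1 := orderOf_dvd_iff_pow_eq_one.1 hord
    have hsum := σ.sum_cycleType
    rw [h, Multiset.sum_replicate, smul_eq_mul] at hsum
    have hs : σ.support = Finset.univ := by
      apply Finset.eq_univ_of_card
      rw [← hsum, Fintype.card_fin]
      omega
    constructor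
    · intro x
      have := congrArg (fun τ : Equiv.Perm (Fin (2 * M)) => τ x) h2
      simpa [pow_two] using this
    · intro x
      have : x ∈ σ.support := by rw [hs]; exact Finset.mem_univ x
      exact Equiv.Perm.mem_support.1 this

/-- `(2M-1)!! = (2M)! / (2^M M!)` (`Equiv.Perm.card_of_cycleType` with `replicate M 2`) -/
theorem mc_formula (M : ℕ) :
    mc (2 * M) * (2 ^ M * (M.factorial : ℝ)) = ((2 * M).factorial : ℝ) := by
  have hcard : Fintype.card (Mat (Fin (2 * M)))
      = (Finset.univ.filter
          (fun g : Equiv.Perm (Fin (2 * M)) => g.cycleType = Multiset.replicate M 2)).card := by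
    rw [Fintype.card_subtype]
    congr 1
    ext σ
    simp only [Finset.mem_filter, Finset.mem_univ, true_and]
    exact mat_iff_cycleType M σ
  have h := Equiv.Perm.card_of_cycleType_mul_eq (α := Fin (2 * M)) (Multiset.replicate M 2)
  rw [if_pos (by
    refine ⟨by simp [Multiset.sum_replicate, mul_comm], fun a ha => ?_⟩
    rw [Multiset.eq_of_mem_replicate ha])] at h
  have hprod : ∏ n ∈ (Multiset.replicate M 2).toFinset, ((Multiset.replicate M 2).count n).factorial
      = M.factorial := by
    rcases Nat.eq_zero_or_pos M with rfl | hM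
    · simp
    · rw [Multiset.toFinset_replicate, if_neg (by omega), Finset.prod_singleton,
        Multiset.count_replicate_self]
  have hsub : Fintype.card (Fin (2 * M)) - (Multiset.replicate M 2).sum = 0 := by
    simp [Multiset.sum_replicate, mul_comm]
  rw [hprod, hsub, Multiset.prod_replicate, Fintype.card_fin, Nat.factorial_zero, one_mul,
    ← hcard] at h
  unfold mc
  exact_mod_cast h

theorem mc_pos (M : ℕ) : 0 < mc (2 * M) := by
  have h := mc_formula M
  have h1 : (0 : ℝ) < ((2 * M).factorial : ℝ) := by positivity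
  have h2 : (0 : ℝ) < 2 ^ M * (M.factorial : ℝ) := by positivity
  by_contra hc
  have : mc (2 * M) * (2 ^ M * (M.factorial : ℝ)) ≤ 0 :=
    mul_nonpos_of_nonpos_of_nonneg (not_lt.1 hc) h2.le
  linarith

/-- no perfect matching on an odd set -/
theorem mc_odd (M : ℕ) : mc (2 * M + 1) = 0 := by
  have hemp : IsEmpty (Mat (Fin (2 * M + 1))) := by
    refine ⟨fun σ => ?_⟩
    obtain ⟨h2, hs⟩ := mat_sq_support σ.1 σ.2
    have hd := Equiv.Perm.two_dvd_card_support h2
    rw [hs, Finset.card_univ, Fintype.card_fin] at hd
    omega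
  unfold mc
  rw [Fintype.card_eq_zero]
  simp

end Vale.Agent.P162.P2
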