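import Vale.Agent.P162.P2.JoinDefs
import Vale.Agent.P162.Comb.Split2

/-!
# P162 (P2) : counting facts in the vocabulary of `P2/Defs` and basic facts on the channel `Wc`
-/

set_option linter.unusedSectionVars false

namespace Vale.Agent.P162.P2

open Finset Vale.Agent.P162 Vale.Agent.P162.KL

variable {S : Type} [Fintype S] [DecidableEq S]

lemma cl_iff' {μ : Equiv.Perm S} (hμ : IsMat μ) (z : Finset S) : Cl μ z ↔ IsCl μ z := by
  constructor
  · intro h a
    exact ⟨fun ha => by have := h _ ha; rwa [hμ.1] at this, fun ha => h a ha⟩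
  · intro h a ha
    exact (h a).2 ha

lemma cl_iff (σ : Mat S) (z : Finset S) : Cl σ.1 z ↔ IsCl σ.1 z := cl_iff' σ.2 z

/-- sums over `Mat S` are sums over the permutations that are matchings -/
lemma sum_Mat (F : Equiv.Perm S → ℝ) :
    ∑ σ : Mat S, F σ.1 = ∑ μ ∈ univ.filter (fun μ : Equiv.Perm S => IsMat μ), F μ := by
  symm
  apply Finset.sum_subtype
  intro μ
  simp only [Finset.mem_filter, Finset.mem_univ, true_and]
  exact Iff.rfl

lemma card_Mat_eq : (Fintype.card (Mat S) : ℝ) = (dm (Fintype.card S) : ℝ) := by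
  rw [← card_mat (S := S), Fintype.card_subtype]
  rfl

lemma mc_eq_dm (n : ℕ) : mc n = (dm n : ℝ) := by
  unfold mc
  have := card_Mat_eq (S := Fin n)
  rw [Fintype.card_fin] at this
  convert this

lemma card_Mat_eq_mc : (Fintype.card (Mat S) : ℝ) = mc (Fintype.card S) := by
  rw [card_Mat_eq, mc_eq_dm]

lemma mc_pos' (M : ℕ) : 0 < mc (2 * M) := by
  rw [mc_eq_dm]; exact_mod_cast dm_pos M

lemma mc_pos_of_even {k : ℕ} (hk : Even k) : 0 < mc k := by
  obtain ⟨r, rfl⟩ := hk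
  rw [← two_mul]; exact mc_pos' r

/-- the number of matchings for which `x` is closed -/
lemma sum_Mat_cl (x : Finset S) :
    ∑ σ : Mat S, (if Cl σ.1 x then (1 : ℝ) else 0)
      = mc x.card * mc (Fintype.card S - x.card) := by
  rw [sum_Mat (fun μ => if Cl μ x then (1 : ℝ) else 0), ← Finset.sum_filter, Finset.filter_filter,
    Finset.sum_const, nsmul_eq_mul, mul_one, mc_eq_dm, mc_eq_dm, ← Nat.cast_mul, ← card_mat_cl x]
  congr 2
  ext μ
  simp only [Finset.mem_filter, Finset.mem_univ, true_and]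
  exact ⟨fun h => ⟨h.1, (cl_iff' h.1 x).1 h.2⟩, fun h => ⟨h.1, (cl_iff' h.1 x).2 h.2⟩⟩

/-- the number of matchings for which `x` and `y` are closed -/
lemma sum_Mat_cl2 (x y : Finset S) :
    ∑ σ : Mat S, (if Cl σ.1 x ∧ Cl σ.1 y then (1 : ℝ) else 0)
      = mc (y ∩ x).card * mc (x \ y).card
        * (mc (y \ x).card * mc (Fintype.card S - (x ∪ y).card)) := by
  rw [sum_Mat (fun μ => if Cl μ x ∧ Cl μ y then (1 : ℝ) else 0), ← Finset.sum_filter,
    Finset.filter_filter, Finset.sum_const, nsmul_eq_mul, mul_one, mc_eq_dm, mc_eq_dm, mc_eq_dm,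
    mc_eq_dm, ← Nat.cast_mul, ← Nat.cast_mul, ← Nat.cast_mul, ← card_mat_cl2 x y]
  congr 2
  ext μ
  simp only [Finset.mem_filter, Finset.mem_univ, true_and]
  exact ⟨fun h => ⟨h.1, (cl_iff' h.1 x).1 h.2.1, (cl_iff' h.1 y).1 h.2.2⟩,
    fun h => ⟨h.1, (cl_iff' h.1 x).2 h.2.1, (cl_iff' h.1 y).2 h.2.2⟩⟩

/-- sums of a function of the size over the closed (even) sets of a matching -/
lemma sum_Ev_cl (σ : Mat S) {M : ℕ} (hM : Fintype.card S = 2 * M) (f : ℕ → ℝ) :
    ∑ x : Ev S, (if Cl σ.1 x.1 then f x.1.card else 0)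
      = ∑ n ∈ Finset.range (M + 1), (M.choose n : ℝ) * f (2 * n) := by
  rw [← sum_cl_card (μ := σ.1) σ.2 hM f]
  have h1 : ∑ x : Ev S, (if Cl σ.1 x.1 then f x.1.card else 0)
      = ∑ y ∈ univ.filter (fun y : Finset S => Even y.card),
          (if Cl σ.1 y then f y.card else 0) := by
    symm
    apply Finset.sum_subtype (f := fun y : Finset S => if Cl σ.1 y then f y.card else 0)
    intro y
    simp
  rw [h1, ← Finset.sum_filter, Finset.filter_filter]
  apply Finset.sum_congr _ (fun _ _ => rfl)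
  ext y
  simp only [Finset.mem_filter, Finset.mem_univ, true_and]
  exact ⟨fun h => (cl_iff σ y).1 h.2,
    fun h => ⟨IsCl.even (μ := σ.1) σ.2 h, (cl_iff σ y).2 h⟩⟩

/-- `C(M,n) mc(2M) = C(2M,2n) mc(2n) mc(2M-2n)` -/
lemma choose_mul_mc {M n : ℕ} (hn : n ≤ M) :
    (M.choose n : ℝ) * mc (2 * M)
      = ((2 * M).choose (2 * n) : ℝ) * mc (2 * n) * mc (2 * M - 2 * n) := by
  rw [mc_eq_dm, mc_eq_dm, mc_eq_dm]
  exact_mod_cast choose_mul_dm hn

/-! ### the channel `Wc` -/

/-- row sums of `Wc` -/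
lemma sum_Wc (w : ℕ → ℝ) {M : ℕ} (hM : Fintype.card S = 2 * M) (σ : Mat S) :
    ∑ x : Ev S, Wc S w σ x
      = ∑ n ∈ Finset.range (M + 1), ((2 * M).choose (2 * n) : ℝ) * w (2 * n) := by
  unfold Wc
  rw [sum_Ev_cl σ hM (fun k => mc (Fintype.card S) * w k / (mc k * mc (Fintype.card S - k)))]
  apply Finset.sum_congr rfl
  intro n hn
  have hn' : n ≤ M := Nat.lt_succ_iff.mp (Finset.mem_range.mp hn)
  have h1 : 0 < mc (2 * n) := mc_pos' n
  have h2 : 0 < mc (2 * M - 2 * n) := by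
    rw [← Nat.mul_sub]; exact mc_pos' _
  rw [hM]
  have := choose_mul_mc hn'
  field_simp
  linear_combination (w (2 * n)) * this

/-- output law of `Wc` under the uniform matching -/
lemma push_Wc_unif (w : ℕ → ℝ) (hS : Even (Fintype.card S)) (x : Ev S) :
    push (Wc S w) (unif (Mat S)) x = w x.1.card := by
  unfold push unif Wc
  have h0 : 0 < mc (Fintype.card S) := mc_pos_of_even hS
  have h1 : 0 < mc x.1.card := mc_pos_of_even x.2
  have h2 : 0 < mc (Fintype.card S - x.1.card) :=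
    mc_pos_of_even ((Nat.even_sub (Finset.card_le_univ x.1)).2 ⟨fun _ => x.2, fun _ => hS⟩)
  have e : ∀ σ : Mat S, 1 / (Fintype.card (Mat S) : ℝ) *
      (if Cl σ.1 x.1 then
        mc (Fintype.card S) * w x.1.card / (mc x.1.card * mc (Fintype.card S - x.1.card)) else 0)
      = (w x.1.card / (mc x.1.card * mc (Fintype.card S - x.1.card)))
        * (if Cl σ.1 x.1 then (1 : ℝ) else 0) := by
    intro σ
    rw [card_Mat_eq_mc]
    split_ifs
    · field_simp
    · simp
  simp_rw [e]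
  rw [← Finset.mul_sum, sum_Mat_cl]
  field_simp

end Vale.Agent.P162.P2
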