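import Vale.Agent.P162.P2.WcDefs
import Vale.Agent.P162.P2.ClosedCount
import Vale.Agent.P162.P2.MatCount
import Vale.Agent.P162.P2.WcCount

namespace Vale.Agent.P162.P2

open Finset Vale.Agent.P162 Vale.Agent.P162.KL

variable {S : Type} [Fintype S] [DecidableEq S]

lemma mc_nonneg (k : ℕ) : 0 ≤ mc k := by unfold mc; positivity

theorem push_Wc (w : ℕ → ℝ) (p : Mat S → ℝ) (x : Ev S) :
    push (Wc S w) p x = w x.1.card * Fd S p x := by
  unfold push Wc Fd
  have : ∀ σ : Mat S, p σ * (if Cl σ.1 x.1 then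
      mc (Fintype.card S) * w x.1.card / (mc x.1.card * mc (Fintype.card S - x.1.card)) else 0)
      = (if Cl σ.1 x.1 then p σ else 0) *
        (mc (Fintype.card S) * w x.1.card / (mc x.1.card * mc (Fintype.card S - x.1.card))) := by
    intro σ
    split_ifs <;> ring
  simp_rw [this, ← Finset.sum_mul]
  ring

/-- `card_closed`, `card_Mat`, `mc_pos` -/
theorem Fd_unif (M : ℕ) (hS : Fintype.card S = 2 * M) (x : Ev S) :
    Fd S (unif (Mat S)) x = 1 := by
  have hE : Even (Fintype.card S) := by rw [hS]; exact even_two_mul M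
  have h0 : 0 < mc (Fintype.card S) := mc_pos_of_even hE
  have h1 : 0 < mc x.1.card := mc_pos_of_even x.2
  have h2 : 0 < mc (Fintype.card S - x.1.card) :=
    mc_pos_of_even ((Nat.even_sub (Finset.card_le_univ x.1)).2 ⟨fun _ => x.2, fun _ => hE⟩)
  unfold Fd unif
  have : ∀ σ : Mat S, (if Cl σ.1 x.1 then 1 / (Fintype.card (Mat S) : ℝ) else 0)
      = (1 / mc (Fintype.card S)) * (if Cl σ.1 x.1 then (1 : ℝ) else 0) := by
    intro σ
    rw [card_Mat_eq_mc]
    split_ifs <;> simp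
  simp_rw [this]
  rw [← Finset.mul_sum, sum_Mat_cl]
  field_simp

theorem Fd_nonneg (p : Mat S → ℝ) (hp : ∀ σ, 0 ≤ p σ) (x : Ev S) : 0 ≤ Fd S p x := by
  unfold Fd
  apply div_nonneg (mul_nonneg (mc_nonneg _) _) (mul_nonneg (mc_nonneg _) (mc_nonneg _))
  apply Finset.sum_nonneg
  intro σ _
  split_ifs
  · exact hp σ
  · exact le_refl _

/-- from `closed_count` -/
theorem Wc_class_sum (M : ℕ) (hS : Fintype.card S = 2 * M) (w : ℕ → ℝ) (σ : Mat S) (k : ℕ)
    (hk : Even k) :
    ∑ x ∈ univ.filter (fun x : Ev S => x.1.card = k), Wc S w σ x = ((2 * M).choose k : ℝ) * w k := by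
  obtain ⟨r, rfl⟩ := hk
  rw [← two_mul]
  rw [Finset.sum_filter]
  have e : ∀ x : Ev S, (if x.1.card = 2 * r then Wc S w σ x else 0)
      = if Cl σ.1 x.1 then (fun j => if j = 2 * r then
          mc (Fintype.card S) * w j / (mc j * mc (Fintype.card S - j)) else 0) x.1.card else 0 := by
    intro x
    unfold Wc
    by_cases h1 : x.1.card = 2 * r <;> by_cases h2 : Cl σ.1 x.1 <;> simp [h1, h2]
  simp_rw [e]
  rw [sum_Ev_cl σ hS (fun j => if j = 2 * r then
          mc (Fintype.card S) * w j / (mc j * mc (Fintype.card S - j)) else 0)]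
  have e2 : ∀ n, (M.choose n : ℝ) * (if 2 * n = 2 * r then
      mc (Fintype.card S) * w (2 * n) / (mc (2 * n) * mc (Fintype.card S - 2 * n)) else 0)
      = if n = r then (M.choose n : ℝ) *
        (mc (Fintype.card S) * w (2 * n) / (mc (2 * n) * mc (Fintype.card S - 2 * n))) else 0 := by
    intro n
    by_cases h : n = r
    · simp [h]
    · have : ¬ (2 * n = 2 * r) := by omega
      simp [h, this]
  simp_rw [e2]
  rw [Finset.sum_ite_eq' (Finset.range (M + 1)) r]
  split_ifs with hr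
  · have hr' : r ≤ M := Nat.lt_succ_iff.mp (Finset.mem_range.mp hr)
    have h1 : 0 < mc (2 * r) := mc_pos' r
    have h2 : 0 < mc (2 * M - 2 * r) := by
      rw [← Nat.mul_sub]; exact mc_pos' _
    rw [hS]
    have := choose_mul_mc hr'
    field_simp
    linear_combination (w (2 * r)) * this
  · have : M < r := by simpa using hr
    rw [Nat.choose_eq_zero_of_lt (by omega : 2 * M < 2 * r)]
    simp

theorem Wc_nonneg (w : ℕ → ℝ) (hw : ∀ k, 0 ≤ w k) (σ : Mat S) (x : Ev S) : 0 ≤ Wc S w σ x := by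
  unfold Wc
  split_ifs
  · exact div_nonneg (mul_nonneg (mc_nonneg _) (hw _)) (mul_nonneg (mc_nonneg _) (mc_nonneg _))
  · exact le_refl _

theorem Wc_isChan (M : ℕ) (hS : Fintype.card S = 2 * M) (w : ℕ → ℝ) (hw : ∀ k, 0 ≤ w k)
    (hsum : ∑ a ∈ range (M + 1), ((2 * M).choose (2 * a) : ℝ) * w (2 * a) = 1) :
    IsChan (Wc S w) := by
  intro σ
  exact ⟨fun x => Wc_nonneg w hw σ x, by rw [sum_Wc w hS σ, hsum]⟩

end Vale.Agent.P162.P2
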