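import Vale.Agent.P162.P2.WcDefs
import Vale.Agent.P162.P2.WcBasic
import Vale.Agent.P162.Comb.TwoTr

/-!
# P162 (P2) : exact independence of the two transversals of STEP T under the uniform matching
-/

set_option linter.unusedSectionVars false

namespace Vale.Agent.P162.P2

open Finset Vale.Agent.P162 Vale.Agent.P162.KL

variable {S : Type} [Fintype S] [DecidableEq S]

/-- the set on which two colourings agree -/
def agree (b1 b2 : S → Bool) : Finset S := univ.filter (fun a => b1 a = b2 a)

lemma flipOut_eq_iff (z : Finset S) (b1 b2 : S → Bool) :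
    flipOut z b1 = b2 ↔ z = agree b1 b2 := by
  constructor
  · intro h
    ext a
    have h1 := congrFun h a
    simp only [flipOut] at h1
    simp only [agree, mem_filter, mem_univ, true_and]
    by_cases ha : a ∈ z
    · simp only [ha, if_true] at h1
      simp [ha, h1]
    · simp only [ha, if_false] at h1
      simp only [ha, false_iff]
      intro h2
      rw [← h2] at h1
      cases hb : b1 a <;> simp [hb] at h1
  · rintro rfl
    funext a
    simp only [flipOut, agree, mem_filter, mem_univ, true_and]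
    by_cases h : b1 a = b2 a
    · simp [h]
    · simp only [h, if_false]
      cases hb : b1 a <;> cases hb2 : b2 a <;> simp_all

lemma cl_tr_iff (σ : Mat S) (b1 b2 : S → Bool) :
    (Cl σ.1 (agree b1 b2) ∧ ∀ a, b1 (σ.1 a) = !b1 a) ↔
      ((∀ a, b1 (σ.1 a) = !b1 a) ∧ ∀ a, b2 (σ.1 a) = !b2 a) := by
  constructor
  · rintro ⟨hcl, h1⟩
    refine ⟨h1, fun a => ?_⟩
    by_cases h : b1 a = b2 a
    · have h2 : σ.1 a ∈ agree b1 b2 := hcl a (by simp [agree, h])
      simp only [agree, mem_filter, mem_univ, true_and] at h2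
      rw [← h2, h1, h]
    · have h2 : σ.1 a ∉ agree b1 b2 := by
        intro h3
        have h4 := hcl _ h3
        rw [σ.2.1] at h4
        simp only [agree, mem_filter, mem_univ, true_and] at h4
        exact h h4
      simp only [agree, mem_filter, mem_univ, true_and] at h2
      have h3 := h1 a
      cases e1 : b1 a <;> cases e2 : b2 a <;> cases e3 : b1 (σ.1 a) <;> cases e4 : b2 (σ.1 a) <;>
        simp_all
  · rintro ⟨h1, h2⟩
    refine ⟨fun a ha => ?_, h1⟩
    simp only [agree, mem_filter, mem_univ, true_and] at ha ⊢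
    rw [h1, h2, ha]

lemma card_filter_Mat (P : Equiv.Perm S → Prop) [DecidablePred P] :
    (univ.filter (fun σ : Mat S => P σ.1)).card
      = (univ.filter (fun μ : Equiv.Perm S => IsMat μ ∧ P μ)).card := by
  rw [← Finset.card_map (Function.Embedding.subtype _)]
  congr 1
  ext μ
  simp only [Finset.mem_map, Finset.mem_filter, Finset.mem_univ, true_and,
    Function.Embedding.coe_subtype, Subtype.exists, exists_and_left, exists_prop,
    exists_eq_right_right]
  exact ⟨fun h => ⟨h.2, h.1⟩, fun h => ⟨h.2, h.1⟩⟩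

/-- value of the two-stage channel of STEP T under the uniform matching -/
theorem push_KT_unif (M : ℕ) (hS : Fintype.card S = 2 * M) (z : Ev S) (τ : S → Bool) :
    push (K12 (Wc S (wH M)) (KT2 S)) (unif (Mat S)) (z, τ)
      = wH M z.1.card / (mc z.1.card * mc (2 * M - z.1.card)) / 2 ^ M *
        ((univ.filter (fun σ : Mat S => Cl σ.1 z.1 ∧ ∀ a, τ (σ.1 a) = !τ a)).card : ℝ) := by
  have p0 : 0 < mc (2 * M) := mc_pos' M
  unfold push unif K12 KT2 Wc Tr
  rw [card_Mat_eq_mc, hS, Finset.card_filter, Nat.cast_sum, Finset.mul_sum]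
  apply Finset.sum_congr rfl
  intro σ _
  have hM : 2 * M / 2 = M := by omega
  rw [hM]
  dsimp only
  by_cases h1 : Cl σ.1 z.1
  · by_cases h2 : ∀ a, τ (σ.1 a) = !τ a
    · rw [if_pos h1, if_pos h2, if_pos (⟨h1, h2⟩ : _ ∧ _)]
      push_cast
      field_simp
    · have e : (if Cl σ.1 z.1 ∧ ∀ a, τ (σ.1 a) = !τ a then (1 : ℕ) else 0) = 0 :=
        if_neg (fun h => h2 h.2)
      rw [if_neg h2, e]
      simp
  · have e : (if Cl σ.1 z.1 ∧ ∀ a, τ (σ.1 a) = !τ a then (1 : ℕ) else 0) = 0 :=
      if_neg (fun h => h1 h.1)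
    rw [if_neg h1, e]
    simp

lemma mc_mul (a : ℕ) : mc (2 * a) * (2 ^ a * (a.factorial : ℝ)) = ((2 * a).factorial : ℝ) := by
  rw [mc_eq_dm, ← dm_formula a]
  push_cast
  ring

lemma arith_T (M a : ℕ) (ha : a ≤ M) :
    wH M (2 * a) / (mc (2 * a) * mc (2 * M - 2 * a)) / 2 ^ M *
        ((a.factorial : ℝ) * ((M - a).factorial : ℝ))
      = 1 / ((2 * M).choose M : ℝ) ^ 2 := by
  obtain ⟨b, rfl⟩ := Nat.exists_eq_add_of_le ha
  have e1 : 2 * (a + b) - 2 * a = 2 * b := by omega
  have e2 : a + b - a = b := by omega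
  have e3 : 2 * a / 2 = a := by omega
  rw [e1, e2]
  unfold wH pH
  rw [e3]
  have hA : ((a + b).choose a : ℝ) * a.factorial * b.factorial = (a + b).factorial := by
    have := Nat.choose_mul_factorial_mul_factorial (show a ≤ a + b by omega)
    rw [e2] at this
    exact_mod_cast this
  have hB : ((2 * (a + b)).choose (2 * a) : ℝ) * (2 * a).factorial * (2 * b).factorial
      = (2 * (a + b)).factorial := by
    have := Nat.choose_mul_factorial_mul_factorial (show 2 * a ≤ 2 * (a + b) by omega)
    rw [e1] at this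
    exact_mod_cast this
  have hC : ((2 * (a + b)).choose (a + b) : ℝ) * (a + b).factorial * (a + b).factorial
      = (2 * (a + b)).factorial := by
    have := Nat.choose_mul_factorial_mul_factorial (show a + b ≤ 2 * (a + b) by omega)
    have e4 : 2 * (a + b) - (a + b) = a + b := by omega
    rw [e4] at this
    exact_mod_cast this
  have h1 := mc_mul a
  have h2 := mc_mul b
  have pm1 : 0 < mc (2 * a) := mc_pos' a
  have pm2 : 0 < mc (2 * b) := mc_pos' b
  set cA : ℝ := ((a + b).choose a : ℝ)
  set cB : ℝ := ((2 * (a + b)).choose (2 * a) : ℝ)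
  set cC : ℝ := ((2 * (a + b)).choose (a + b) : ℝ)
  set fa : ℝ := (a.factorial : ℝ)
  set fb : ℝ := (b.factorial : ℝ)
  set m1 : ℝ := mc (2 * a)
  set m2 : ℝ := mc (2 * b)
  have pfa : 0 < fa := by positivity
  have pfb : 0 < fb := by positivity
  have pcA : 0 < cA := by
    have : 0 < (a + b).choose a := Nat.choose_pos (by omega)
    exact Nat.cast_pos.mpr this
  have pcB : 0 < cB := by
    have : 0 < (2 * (a + b)).choose (2 * a) := Nat.choose_pos (by omega)
    exact Nat.cast_pos.mpr this
  have pcC : 0 < cC := by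
    have : 0 < (2 * (a + b)).choose (a + b) := Nat.choose_pos (by omega)
    exact Nat.cast_pos.mpr this
  have key : cB * m1 * m2 * 2 ^ (a + b) = cC * cA ^ 2 * fa * fb := by
    have h3 : cB * (m1 * (2 ^ a * fa)) * (m2 * (2 ^ b * fb))
        = cC * (cA * fa * fb) * (cA * fa * fb) := by
      rw [h1, h2, hB, hA, hC]
    have h4 : (cB * m1 * m2 * 2 ^ (a + b)) * (fa * fb) = (cC * cA ^ 2 * fa * fb) * (fa * fb) := by
      rw [pow_add]
      linarith [h3]
    exact mul_right_cancel₀ (mul_pos pfa pfb).ne' h4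
  have e5 : cA ^ 2 / cC / cB / (m1 * m2) / 2 ^ (a + b) * (fa * fb)
      = cA ^ 2 * (fa * fb) / (cC * (cB * m1 * m2 * 2 ^ (a + b))) := by
    field_simp
  rw [e5, key]
  field_simp

lemma card_agree (M : ℕ) (hS : Fintype.card S = 2 * M) (b1 b2 : S → Bool)
    (h1 : (univ.filter (fun a => b1 a = true)).card = M)
    (h2 : (univ.filter (fun a => b2 a = true)).card = M) :
    (agree b1 b2).card = 2 * (univ.filter (fun x => b1 x = true ∧ b2 x = true)).card ∧
    (univ.filter (fun x => b1 x = true ∧ b2 x = false)).card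
      = M - (univ.filter (fun x => b1 x = true ∧ b2 x = true)).card ∧
    (univ.filter (fun x => b1 x = true ∧ b2 x = true)).card ≤ M := by
  set Y1 := univ.filter (fun a => b1 a = true) with hY1
  set Y2 := univ.filter (fun a => b2 a = true) with hY2
  have e1 : univ.filter (fun x => b1 x = true ∧ b2 x = true) = Y1 ∩ Y2 := by
    ext x; simp [hY1, hY2]
  have e2 : univ.filter (fun x => b1 x = true ∧ b2 x = false) = Y1 \ Y2 := by
    ext x; simp [hY1, hY2]
  have e3 : agree b1 b2 = (Y1 ∩ Y2) ∪ (Y1 ∪ Y2)ᶜ := by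
    ext x
    simp only [agree, hY1, hY2, mem_filter, mem_univ, true_and, mem_union, mem_inter, mem_compl]
    cases b1 x <;> cases b2 x <;> simp
  have c3 : (Y1 ∩ Y2).card + (Y1 \ Y2).card = Y1.card := Finset.card_inter_add_card_sdiff Y1 Y2
  have c4 := Finset.card_union_add_card_inter Y1 Y2
  have c5 := Finset.card_le_univ (Y1 ∪ Y2)
  rw [e1, e2, e3, card_union_of_disjoint, card_compl]
  · refine ⟨by omega, by omega, by omega⟩
  · rw [Finset.disjoint_left]
    intro x hx hx2
    simp only [mem_inter, mem_compl, mem_union] at hx hx2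
    tauto

/-- EXACT INDEPENDENCE (STEP T): under the uniform matching the transversals `τ` and
`flipOut z τ` are independent and uniform on balanced colourings -/
theorem ind_T (M : ℕ) (hS : Fintype.card S = 2 * M) (b1 b2 : S → Bool) :
    ∑ zt ∈ univ.filter (fun zt : Ev S × (S → Bool) => zt.2 = b1 ∧ flipOut zt.1.1 zt.2 = b2),
        push (K12 (Wc S (wH M)) (KT2 S)) (unif (Mat S)) zt
      = (if (univ.filter (fun a => b1 a = true)).card = M then 1 / ((2 * M).choose M : ℝ) else 0) *
        (if (univ.filter (fun a => b2 a = true)).card = M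
          then 1 / ((2 * M).choose M : ℝ) else 0) := by
  set N12 : ℕ := (univ.filter (fun μ : Equiv.Perm S =>
        IsMat μ ∧ (∀ x, b1 (μ x) = !b1 x) ∧ (∀ x, b2 (μ x) = !b2 x))).card with hN12
  have hterm : ∀ zt ∈ univ.filter (fun zt : Ev S × (S → Bool) =>
      zt.2 = b1 ∧ flipOut zt.1.1 zt.2 = b2),
      push (K12 (Wc S (wH M)) (KT2 S)) (unif (Mat S)) zt
        = wH M (agree b1 b2).card / (mc (agree b1 b2).card * mc (2 * M - (agree b1 b2).card))
            / 2 ^ M * (N12 : ℝ) := by
    rintro ⟨z, τ⟩ hzt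
    simp only [mem_filter, mem_univ, true_and] at hzt
    obtain ⟨rfl, h2⟩ := hzt
    have hz : z.1 = agree τ b2 := (flipOut_eq_iff _ _ _).1 h2
    rw [push_KT_unif M hS, hz]
    congr 2
    rw [hN12, ← card_filter_Mat (fun μ => (∀ x, τ (μ x) = !τ x) ∧ (∀ x, b2 (μ x) = !b2 x))]
    congr 1
    apply Finset.filter_congr
    intro σ _
    exact cl_tr_iff σ τ b2
  rw [Finset.sum_congr rfl hterm, Finset.sum_const, nsmul_eq_mul]
  by_cases hb : (univ.filter (fun a => b1 a = true)).card = M ∧
      (univ.filter (fun a => b2 a = true)).card = M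
  · obtain ⟨hb1, hb2⟩ := hb
    obtain ⟨c1, c2, c3⟩ := card_agree M hS b1 b2 hb1 hb2
    set a := (univ.filter (fun x => b1 x = true ∧ b2 x = true)).card with ha
    have hN : N12 = a.factorial * (M - a).factorial := by
      rw [hN12, card_mat_tr2_bool b1 b2 (by rw [hb1, hS]) (by rw [hb2, hS]), c2]
    have hcard : (univ.filter (fun zt : Ev S × (S → Bool) =>
        zt.2 = b1 ∧ flipOut zt.1.1 zt.2 = b2)).card = 1 := by
      rw [Finset.card_eq_one]
      refine ⟨(⟨agree b1 b2, by rw [c1]; exact even_two_mul a⟩, b1), ?_⟩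
      ext ⟨z, τ⟩
      simp only [mem_filter, mem_univ, true_and, mem_singleton, Prod.mk.injEq]
      constructor
      · rintro ⟨rfl, h2⟩
        exact ⟨Subtype.ext ((flipOut_eq_iff _ _ _).1 h2), rfl⟩
      · rintro ⟨rfl, rfl⟩
        exact ⟨rfl, (flipOut_eq_iff _ _ _).2 rfl⟩
    rw [hcard, if_pos hb1, if_pos hb2, c1, hN]
    push_cast
    rw [one_mul, arith_T M a c3]
    field_simp
  · have hN : N12 = 0 := by
      rw [hN12, Finset.card_eq_zero, Finset.filter_eq_empty_iff]
      rintro μ _ ⟨hm, t1, t2⟩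
      apply hb
      have k1 := ((isTr_filter_iff μ b1).2 t1).card hm
      have k2 := ((isTr_filter_iff μ b2).2 t2).card hm
      constructor <;> omega
    rw [hN]
    have : (if (univ.filter (fun a => b1 a = true)).card = M then 1 / ((2 * M).choose M : ℝ) else 0) *
        (if (univ.filter (fun a => b2 a = true)).card = M
          then 1 / ((2 * M).choose M : ℝ) else 0) = 0 := by
      by_cases k1 : (univ.filter (fun a => b1 a = true)).card = M
      · have k2 : ¬ (univ.filter (fun a => b2 a = true)).card = M := fun k2 => hb ⟨k1, k2⟩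
        rw [if_neg k2, mul_zero]
      · rw [if_neg k1, zero_mul]
    rw [this]
    simp

end Vale.Agent.P162.P2
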