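import Vale.Agent.P162.P2.Defs

namespace Vale.Agent.P162.P2

open Finset Vale.Agent.P162 Vale.Agent.P162.KL

/-- cancellation of a common factor inside the logarithm -/
lemma ts_term_cancel (P c k : ℝ) :
    (P * k) * Real.log ((P * k) / (c * k)) = P * k * Real.log (P / c) := by
  by_cases hk : k = 0
  · simp [hk]
  · rw [mul_div_mul_right _ _ hk]

/-- log-sum inequality with weights `p a * k a` against `c * k a` -/
lemma ts_ls_weight {A : Type*} [Fintype A] (p k : A → ℝ) (c : ℝ) (hp : ∀ a, 0 ≤ p a)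
    (hk : ∀ a, 0 ≤ k a) (hc : 0 < c) :
    (∑ a, p a * k a) * Real.log ((∑ a, p a * k a) / (c * ∑ a, k a)) ≤
      ∑ a, p a * k a * Real.log (p a / c) := by
  have h := log_sum Finset.univ (fun a => p a * k a) (fun a => c * k a)
    (fun a _ => mul_nonneg (hp a) (hk a)) (fun a _ => mul_nonneg hc.le (hk a))
    (fun a _ h0 => by
      have : k a = 0 := by
        rcases mul_eq_zero.1 h0 with h | h
        · exact absurd h hc.ne'
        · exact h
      simp [this])
  rw [← Finset.mul_sum] at h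
  refine h.trans (le_of_eq ?_)
  exact Finset.sum_congr rfl (fun a _ => ts_term_cancel _ _ _)

/-- total mass of the second stage -/
lemma ts_mass {A Y : Type*} [Fintype A] [Fintype Y] (w k : A → ℝ) (m : A → Y → ℝ)
    (hm1 : ∀ a, k a ≠ 0 → ∑ y, m a y = 1) :
    ∑ y, ∑ a, w a * (k a * m a y) = ∑ a, w a * k a := by
  rw [Finset.sum_comm]
  refine Finset.sum_congr rfl (fun a _ => ?_)
  by_cases hk : k a = 0
  · simp [hk]
  · simp_rw [← mul_assoc]
    rw [← Finset.mul_sum, hm1 a hk, mul_one]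

/-- second stage: data processing at a fixed first output -/
lemma ts_T_le_P {A Y : Type*} [Fintype A] [Fintype Y] (p k : A → ℝ) (m : A → Y → ℝ) (c : ℝ)
    (hp : ∀ a, 0 ≤ p a) (hk : ∀ a, 0 ≤ k a) (hm : ∀ a y, 0 ≤ m a y)
    (hm1 : ∀ a, k a ≠ 0 → ∑ y, m a y = 1) (hc : 0 < c) :
    ∑ y, (∑ a, p a * (k a * m a y)) *
        Real.log ((∑ a, p a * (k a * m a y)) / (c * ∑ a, k a * m a y)) ≤
      ∑ a, p a * k a * Real.log (p a / c) := by
  have h1 : ∀ y, (∑ a, p a * (k a * m a y)) *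
        Real.log ((∑ a, p a * (k a * m a y)) / (c * ∑ a, k a * m a y)) ≤
      ∑ a, p a * (k a * m a y) * Real.log (p a / c) := fun y =>
    ts_ls_weight p (fun a => k a * m a y) c hp (fun a => mul_nonneg (hk a) (hm a y)) hc
  refine (Finset.sum_le_sum (fun y _ => h1 y)).trans (le_of_eq ?_)
  have h2 := ts_mass (fun a => p a * Real.log (p a / c)) k m hm1
  calc ∑ y, ∑ a, p a * (k a * m a y) * Real.log (p a / c)
      = ∑ y, ∑ a, p a * Real.log (p a / c) * (k a * m a y) :=
        Finset.sum_congr rfl (fun y _ => Finset.sum_congr rfl (fun a _ => by ring))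
    _ = ∑ a, p a * Real.log (p a / c) * k a := h2
    _ = ∑ a, p a * k a * Real.log (p a / c) := Finset.sum_congr rfl (fun a _ => by ring)

/-- the conditional contraction at a fixed first output, rewritten -/
lemma ts_cond_rewrite {A Y : Type*} [Fintype A] [Fintype Y] (p k : A → ℝ) (m : A → Y → ℝ)
    (c g : ℝ) (hp : ∀ a, 0 ≤ p a) (hk : ∀ a, 0 ≤ k a) (hm : ∀ a y, 0 ≤ m a y)
    (hm1 : ∀ a, k a ≠ 0 → ∑ y, m a y = 1) (hc : 0 < c)
    (h : ∑ y, (∑ a, p a * k a * m a y) *
        Real.log ((∑ a, p a * k a * m a y) /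
          ((∑ a, p a * k a) * ∑ a, (k a / ∑ a', k a') * m a y)) ≤
      g * ∑ a, p a * k a * Real.log (p a * k a / ((∑ a, p a * k a) * (k a / ∑ a', k a')))) :
    (∑ y, (∑ a, p a * (k a * m a y)) *
        Real.log ((∑ a, p a * (k a * m a y)) / (c * ∑ a, k a * m a y)))
      - (∑ a, p a * k a) * Real.log ((∑ a, p a * k a) / (c * ∑ a, k a)) ≤
    g * ((∑ a, p a * k a * Real.log (p a / c))
      - (∑ a, p a * k a) * Real.log ((∑ a, p a * k a) / (c * ∑ a, k a))) := by
  obtain ⟨q, hq⟩ : ∃ q : ℝ, q = ∑ a, p a * k a := ⟨_, rfl⟩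
  obtain ⟨s, hs⟩ : ∃ s : ℝ, s = ∑ a, k a := ⟨_, rfl⟩
  rw [← hq, ← hs] at h ⊢
  have hpk : ∀ a, 0 ≤ p a * k a := fun a => mul_nonneg (hp a) (hk a)
  have hq_zero : q = 0 → ∀ a, p a * k a = 0 := by
    intro h0 a
    rw [hq] at h0
    exact (Finset.sum_eq_zero_iff_of_nonneg (fun a _ => hpk a)).1 h0 a (Finset.mem_univ a)
  have hs_zero : s = 0 → ∀ a, k a = 0 := by
    intro h0 a
    rw [hs] at h0
    exact (Finset.sum_eq_zero_iff_of_nonneg (fun a _ => hk a)).1 h0 a (Finset.mem_univ a)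
  have hL : ∀ y, (∑ a, p a * k a * m a y) *
        Real.log ((∑ a, p a * k a * m a y) / (q * ∑ a, (k a / s) * m a y)) =
      (∑ a, p a * (k a * m a y)) *
        Real.log ((∑ a, p a * (k a * m a y)) / (c * ∑ a, k a * m a y))
      - (∑ a, p a * (k a * m a y)) * Real.log (q / (c * s)) := by
    intro y
    have e1 : ∑ a, p a * k a * m a y = ∑ a, p a * (k a * m a y) :=
      Finset.sum_congr rfl (fun a _ => mul_assoc _ _ _)
    have e2 : ∑ a, (k a / s) * m a y = (∑ a, k a * m a y) / s := by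
      rw [Finset.sum_div]
      exact Finset.sum_congr rfl (fun a _ => by ring)
    rw [e1, e2]
    obtain ⟨Qy, hQy⟩ : ∃ Qy : ℝ, Qy = ∑ a, p a * (k a * m a y) := ⟨_, rfl⟩
    obtain ⟨r, hr⟩ : ∃ r : ℝ, r = ∑ a, k a * m a y := ⟨_, rfl⟩
    rw [← hQy, ← hr]
    by_cases hQ0 : Qy = 0
    · simp [hQ0]
    · have hq0 : q ≠ 0 := by
        intro h0
        apply hQ0
        rw [hQy]
        refine Finset.sum_eq_zero (fun a _ => ?_)
        rw [← mul_assoc, hq_zero h0 a, zero_mul]
      have hs0 : s ≠ 0 := by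
        intro h0
        apply hQ0
        rw [hQy]
        refine Finset.sum_eq_zero (fun a _ => ?_)
        rw [hs_zero h0 a, zero_mul, mul_zero]
      have hr0 : r ≠ 0 := by
        intro h0
        apply hQ0
        rw [hQy]
        rw [hr] at h0
        have hz := (Finset.sum_eq_zero_iff_of_nonneg
          (fun a _ => mul_nonneg (hk a) (hm a y))).1 h0
        refine Finset.sum_eq_zero (fun a _ => ?_)
        rw [hz a (Finset.mem_univ a), mul_zero]
      rw [Real.log_div hQ0 (mul_ne_zero hq0 (div_ne_zero hr0 hs0)),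
        Real.log_mul hq0 (div_ne_zero hr0 hs0), Real.log_div hr0 hs0,
        Real.log_div hQ0 (mul_ne_zero hc.ne' hr0), Real.log_mul hc.ne' hr0,
        Real.log_div hq0 (mul_ne_zero hc.ne' hs0), Real.log_mul hc.ne' hs0]
      ring
  have hR : ∀ a, p a * k a * Real.log (p a * k a / (q * (k a / s))) =
      p a * k a * Real.log (p a / c) - p a * k a * Real.log (q / (c * s)) := by
    intro a
    by_cases hf0 : p a * k a = 0
    · simp [hf0]
    · have hpa : p a ≠ 0 := left_ne_zero_of_mul hf0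
      have hka : k a ≠ 0 := right_ne_zero_of_mul hf0
      have hq0 : q ≠ 0 := fun h0 => hf0 (hq_zero h0 a)
      have hs0 : s ≠ 0 := fun h0 => hka (hs_zero h0 a)
      rw [Real.log_div hf0 (mul_ne_zero hq0 (div_ne_zero hka hs0)),
        Real.log_mul hpa hka, Real.log_mul hq0 (div_ne_zero hka hs0), Real.log_div hka hs0,
        Real.log_div hpa hc.ne', Real.log_div hq0 (mul_ne_zero hc.ne' hs0),
        Real.log_mul hc.ne' hs0]
      ring
  have hmass : ∑ y, ∑ a, p a * (k a * m a y) = q := by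
    rw [hq]
    exact ts_mass p k m hm1
  rw [Finset.sum_congr rfl (fun y _ => hL y), Finset.sum_congr rfl (fun a _ => hR a),
    Finset.sum_sub_distrib, Finset.sum_sub_distrib, ← Finset.sum_mul, ← Finset.sum_mul,
    hmass, ← hq] at h
  exact h

/-- TWO-STAGE CHAIN RULE + CONDITIONAL SDPI (board 298, the entropy part of STEP Z and STEP T).
With `Q = push (K12 K1 K2) p`, `R = push (K12 K1 K2) unif`, `q1 = push K1 p`, `n1 = push K1 unif`,
`I x = ∑ y, Q (x,y) log (Q (x,y) / R (x,y)) - q1 x log (q1 x / n1 x)`,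
`J x = ∑ a, p a K1 a x log (p a / unif a) - q1 x log (q1 x / n1 x)`:
`kl Q R = kl q1 n1 + ∑ I`, `∑ J = kl p unif - kl q1 n1`, `0 ≤ J x`, `I x ≤ J x` (log-sum),
`I x ≤ g J x` on the window (`CondS` with `f a = p a * K1 a x`), and
`∑ x ∉ Win, J x ≤ δ kl p unif` (log-sum, because `∑ x ∉ Win, q1 x = δ = ∑ x ∉ Win, n1 x`). -/
theorem two_stage {A X Y : Type*} [Fintype A] [Fintype X] [Fintype Y]
    (K1 : A → X → ℝ) (K2 : X → A → Y → ℝ) (hK1 : IsChan K1)
    (hK2nn : ∀ x a y, 0 ≤ K2 x a y) (hK2 : ∀ x a, K1 a x ≠ 0 → ∑ y, K2 x a y = 1)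
    (Win : X → Prop) [DecidablePred Win] (δ g : ℝ) (hg : 0 ≤ g)
    (hδ : ∀ a, ∑ x ∈ univ.filter (fun x => ¬ Win x), K1 a x = δ)
    (hc : ∀ x, Win x → CondS K1 K2 x g)
    (p : A → ℝ) (hp : IsLaw p) :
    kl (push (K12 K1 K2) p) (push (K12 K1 K2) (unif A)) ≤
      kl (push K1 p) (push K1 (unif A)) +
        g * (kl p (unif A) - kl (push K1 p) (push K1 (unif A))) + δ * kl p (unif A) := by
  obtain ⟨hp0, hp1⟩ := hp
  have hA : Nonempty A := by
    by_contra h
    rw [not_nonempty_iff] at h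
    simp at hp1
  obtain ⟨c, hcdef⟩ : ∃ c : ℝ, c = 1 / (Fintype.card A : ℝ) := ⟨_, rfl⟩
  have hcard : 0 < (Fintype.card A : ℝ) := by exact_mod_cast Fintype.card_pos
  have hcpos : 0 < c := by
    rw [hcdef]
    positivity
  have hK1nn : ∀ a x, 0 ≤ K1 a x := fun a x => (hK1 a).1 x
  have hK1s : ∀ a, ∑ x, K1 a x = 1 := fun a => (hK1 a).2
  obtain ⟨T, hT⟩ : ∃ T : X → ℝ, T = fun x => ∑ y, (∑ a, p a * (K1 a x * K2 x a y)) *
      Real.log ((∑ a, p a * (K1 a x * K2 x a y)) / (c * ∑ a, K1 a x * K2 x a y)) := ⟨_, rfl⟩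
  obtain ⟨L, hL⟩ : ∃ L : X → ℝ, L = fun x => (∑ a, p a * K1 a x) *
      Real.log ((∑ a, p a * K1 a x) / (c * ∑ a, K1 a x)) := ⟨_, rfl⟩
  obtain ⟨P, hP⟩ : ∃ P : X → ℝ, P = fun x => ∑ a, p a * K1 a x * Real.log (p a / c) := ⟨_, rfl⟩
  obtain ⟨D, hD⟩ : ∃ D : ℝ, D = ∑ a, p a * Real.log (p a / c) := ⟨_, rfl⟩
  have h1 : kl (push (K12 K1 K2) p) (push (K12 K1 K2) (unif A)) = ∑ x, T x := by
    unfold kl
    rw [Fintype.sum_prod_type, hT]
    refine Finset.sum_congr rfl (fun x _ => Finset.sum_congr rfl (fun y _ => ?_))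
    have e1 : push (K12 K1 K2) p (x, y) = ∑ a, p a * (K1 a x * K2 x a y) := rfl
    have e2 : push (K12 K1 K2) (unif A) (x, y) = c * ∑ a, K1 a x * K2 x a y := by
      rw [Finset.mul_sum, hcdef]
      rfl
    rw [e1, e2]
  have h2 : kl (push K1 p) (push K1 (unif A)) = ∑ x, L x := by
    unfold kl
    rw [hL]
    refine Finset.sum_congr rfl (fun x _ => ?_)
    have e1 : push K1 p x = ∑ a, p a * K1 a x := rfl
    have e2 : push K1 (unif A) x = c * ∑ a, K1 a x := by
      rw [Finset.mul_sum, hcdef]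
      rfl
    rw [e1, e2]
  have h3 : kl p (unif A) = D := by
    rw [hD, hcdef]
    rfl
  have hLP : ∀ x, L x ≤ P x := by
    intro x
    rw [hL, hP]
    exact ts_ls_weight p (fun a => K1 a x) c hp0 (fun a => hK1nn a x) hcpos
  have hTP : ∀ x, T x ≤ P x := by
    intro x
    rw [hT, hP]
    exact ts_T_le_P p (fun a => K1 a x) (fun a y => K2 x a y) c hp0 (fun a => hK1nn a x)
      (fun a y => hK2nn x a y) (fun a ha => hK2 x a ha) hcpos
  have hW : ∀ x, Win x → T x - L x ≤ g * (P x - L x) := by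
    intro x hx
    rw [hT, hL, hP]
    refine ts_cond_rewrite p (fun a => K1 a x) (fun a y => K2 x a y) c g hp0
      (fun a => hK1nn a x) (fun a y => hK2nn x a y) (fun a ha => hK2 x a ha) hcpos ?_
    exact hc x hx (fun a => p a * K1 a x) (fun a => mul_nonneg (hp0 a) (hK1nn a x))
      (fun a ha => by simp [ha])
  have hPsum : ∀ s : Finset X, ∑ x ∈ s, P x = ∑ a, p a * Real.log (p a / c) * ∑ x ∈ s, K1 a x := by
    intro s
    rw [hP, Finset.sum_comm]
    refine Finset.sum_congr rfl (fun a _ => ?_)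
    rw [Finset.mul_sum]
    exact Finset.sum_congr rfl (fun x _ => by ring)
  have hPs : ∑ x, P x = D := by
    rw [hPsum, hD]
    exact Finset.sum_congr rfl (fun a _ => by rw [hK1s a, mul_one])
  have hPo : ∑ x ∈ univ.filter (fun x => ¬ Win x), P x = δ * D := by
    rw [hPsum, hD, Finset.mul_sum]
    exact Finset.sum_congr rfl (fun a _ => by rw [hδ a]; ring)
  have hLo : 0 ≤ ∑ x ∈ univ.filter (fun x => ¬ Win x), L x := by
    have h := log_sum (univ.filter (fun x => ¬ Win x)) (fun x => ∑ a, p a * K1 a x)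
      (fun x => c * ∑ a, K1 a x)
      (fun x _ => Finset.sum_nonneg (fun a _ => mul_nonneg (hp0 a) (hK1nn a x)))
      (fun x _ => mul_nonneg hcpos.le (Finset.sum_nonneg (fun a _ => hK1nn a x)))
      (fun x _ h0 => by
        have hs0 : ∑ a, K1 a x = 0 := by
          rcases mul_eq_zero.1 h0 with h | h
          · exact absurd h hcpos.ne'
          · exact h
        have hz := (Finset.sum_eq_zero_iff_of_nonneg (fun a _ => hK1nn a x)).1 hs0
        exact Finset.sum_eq_zero (fun a ha => by rw [hz a ha, mul_zero]))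
    have e1 : ∑ x ∈ univ.filter (fun x => ¬ Win x), ∑ a, p a * K1 a x = δ := by
      rw [Finset.sum_comm]
      calc ∑ a, ∑ x ∈ univ.filter (fun x => ¬ Win x), p a * K1 a x
          = ∑ a, p a * δ := Finset.sum_congr rfl (fun a _ => by rw [← Finset.mul_sum, hδ a])
        _ = δ := by rw [← Finset.sum_mul, hp1, one_mul]
    have e2 : ∑ x ∈ univ.filter (fun x => ¬ Win x), c * ∑ a, K1 a x = δ := by
      rw [← Finset.mul_sum, Finset.sum_comm]
      calc c * ∑ a, ∑ x ∈ univ.filter (fun x => ¬ Win x), K1 a x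
          = c * ∑ _a : A, δ := by rw [Finset.sum_congr rfl (fun a _ => hδ a)]
        _ = δ := by
          rw [Finset.sum_const, Finset.card_univ, nsmul_eq_mul, hcdef]
          field_simp
    rw [e1, e2] at h
    have h0 : δ * Real.log (δ / δ) = 0 := by
      by_cases hd : δ = 0
      · simp [hd]
      · rw [div_self hd, Real.log_one, mul_zero]
    rw [h0] at h
    rw [hL]
    exact h
  have hsplit : ∀ F : X → ℝ, ∑ x, F x = ∑ x ∈ univ.filter (fun x => Win x), F x
      + ∑ x ∈ univ.filter (fun x => ¬ Win x), F x := fun F =>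
    (Finset.sum_filter_add_sum_filter_not univ (fun x => Win x) F).symm
  have hTW : ∑ x ∈ univ.filter (fun x => Win x), T x ≤
      ∑ x ∈ univ.filter (fun x => Win x), L x + g * (∑ x ∈ univ.filter (fun x => Win x), P x
        - ∑ x ∈ univ.filter (fun x => Win x), L x) := by
    rw [← Finset.sum_sub_distrib, Finset.mul_sum, ← Finset.sum_add_distrib]
    refine Finset.sum_le_sum (fun x hx => ?_)
    have := hW x (Finset.mem_filter.1 hx).2
    linarith
  have hTN : ∑ x ∈ univ.filter (fun x => ¬ Win x), T x ≤ δ * D := by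
    rw [← hPo]
    exact Finset.sum_le_sum (fun x _ => hTP x)
  have hgN : 0 ≤ g * (∑ x ∈ univ.filter (fun x => ¬ Win x), P x
      - ∑ x ∈ univ.filter (fun x => ¬ Win x), L x) :=
    mul_nonneg hg (sub_nonneg.2 (Finset.sum_le_sum (fun x _ => hLP x)))
  rw [h1, h2, h3, ← hPs, hsplit T, hsplit L, hsplit P]
  rw [← hPs, hsplit P] at hTN
  nlinarith [hTW, hTN, hgN, hLo]

end Vale.Agent.P162.P2
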