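import Vale.Agent.P162.P2.WcCount

/-!
# P162 (P2) : the channel `Wc S w` has an input independent size law
-/

namespace Vale.Agent.P162.P2

open Finset Vale.Agent.P162 Vale.Agent.P162.KL

section

variable {S : Type} [Fintype S] [DecidableEq S]

theorem mat_isMat (σ : Mat S) : IsMat σ.1 := σ.2

theorem cl_iff_isCl (σ : Mat S) (z : Finset S) : Cl σ.1 z ↔ IsCl σ.1 z := by
  constructor
  · intro h x
    constructor
    · intro hx
      have := h _ hx
      rwa [σ.2.1] at this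
    · intro hx
      exact h _ hx
  · intro h a ha
    exact (h a).2 ha

theorem cl_even (σ : Mat S) {z : Finset S} (h : Cl σ.1 z) : Even z.card :=
  IsCl.even (mat_isMat σ) ((cl_iff_isCl σ z).1 h)

/-- sums over `Ev S` of something supported on the closed sets -/
theorem sum_Ev_cl_set (σ : Mat S) (f : Finset S → ℝ) :
    ∑ x : Ev S, (if Cl σ.1 x.1 then f x.1 else 0) =
      ∑ y ∈ univ.filter (fun y : Finset S => IsCl σ.1 y), f y := by
  have h1 : ∑ x : Ev S, (if Cl σ.1 x.1 then f x.1 else 0) =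
      ∑ x ∈ (univ : Finset (Finset S)).filter (fun x => Even x.card),
        (if Cl σ.1 x then f x else 0) := by
    rw [Finset.sum_subtype (p := fun x : Finset S => Even x.card)
      (f := fun x => if Cl σ.1 x then f x else 0)]
    intro x
    simp
  rw [h1, ← Finset.sum_filter, Finset.filter_filter]
  apply Finset.sum_congr _ (fun _ _ => rfl)
  ext y
  simp only [Finset.mem_filter, Finset.mem_univ, true_and]
  constructor
  · rintro ⟨_, h⟩
    exact (cl_iff_isCl σ y).1 h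
  · intro h
    exact ⟨IsCl.even (mat_isMat σ) h, (cl_iff_isCl σ y).2 h⟩

/-- **Input independent size law.** -/
theorem Wc_sum {M : ℕ} (hM : Fintype.card S = 2 * M) (w : ℕ → ℝ) (σ : Mat S) (F : ℕ → ℝ) :
    ∑ x : Ev S, Wc S w σ x * F x.1.card =
      ∑ n ∈ Finset.range (M + 1), ((2 * M).choose (2 * n) : ℝ) * w (2 * n) * F (2 * n) := by
  obtain ⟨g, hg⟩ : ∃ g : ℕ → ℝ, g = fun k : ℕ => mc (2 * M) * w k / (mc k * mc (2 * M - k)) * F k :=
    ⟨_, rfl⟩
  have h1 : ∀ x : Ev S, Wc S w σ x * F x.1.card = if Cl σ.1 x.1 then g x.1.card else 0 := by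
    intro x
    unfold Wc
    rw [hM, hg]
    split_ifs <;> simp
  rw [Finset.sum_congr rfl (fun x _ => h1 x), sum_Ev_cl_set σ (fun y => g y.card),
    sum_cl_card (mat_isMat σ) hM g]
  apply Finset.sum_congr rfl
  intro n hn
  have hn' : n ≤ M := Nat.lt_succ_iff.1 (Finset.mem_range.1 hn)
  have e := choose_mul_mc hn'
  have p1 : 0 < mc (2 * n) := mc_pos' n
  have p2 : 0 < mc (2 * M - 2 * n) := by
    have : 2 * M - 2 * n = 2 * (M - n) := by omega
    rw [this]
    exact mc_pos' _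
  rw [hg]
  simp only
  field_simp
  linear_combination (w (2 * n) * F (2 * n)) * e

/-- total mass of the outputs whose size satisfies `P` -/
theorem Wc_sum_filter {M : ℕ} (hM : Fintype.card S = 2 * M) (w : ℕ → ℝ) (σ : Mat S)
    (P : ℕ → Prop) [DecidablePred P] :
    ∑ x ∈ univ.filter (fun x : Ev S => P x.1.card), Wc S w σ x =
      ∑ n ∈ (Finset.range (M + 1)).filter (fun n => P (2 * n)),
        ((2 * M).choose (2 * n) : ℝ) * w (2 * n) := by
  have h := Wc_sum hM w σ (fun k => if P k then 1 else 0)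
  simp only [mul_ite, mul_one, mul_zero] at h
  rw [Finset.sum_filter, Finset.sum_filter]
  exact h

theorem Wc_nonneg' (w : ℕ → ℝ) (hw : ∀ k, 0 ≤ w k) (σ : Mat S) (x : Ev S) : 0 ≤ Wc S w σ x := by
  unfold Wc
  have hmc : ∀ n, 0 ≤ mc n := fun n => by unfold mc; positivity
  split_ifs
  · exact div_nonneg (mul_nonneg (hmc _) (hw _)) (mul_nonneg (hmc _) (hmc _))
  · exact le_refl _

theorem Wc_isChan' {M : ℕ} (hM : Fintype.card S = 2 * M) (w : ℕ → ℝ) (hw : ∀ k, 0 ≤ w k)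
    (hsum : ∑ a ∈ range (M + 1), ((2 * M).choose (2 * a) : ℝ) * w (2 * a) = 1) :
    IsChan (Wc S w) := by
  intro σ
  refine ⟨Wc_nonneg' w hw σ, ?_⟩
  have h := Wc_sum hM w σ (fun _ => 1)
  simp only [mul_one] at h
  rw [h, hsum]

end

/-! ### the three size weights -/

theorem choose_mul_wU {M : ℕ} (hM : 1 ≤ M) (n : ℕ) :
    ((2 * M).choose (2 * n) : ℝ) * wU (2 * M) (2 * n) = pu M n := by
  unfold wU evc pu
  rw [if_neg (by omega)]
  ring

theorem choose_mul_wH {M n : ℕ} (hn : n ≤ M) :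
    ((2 * M).choose (2 * n) : ℝ) * wH M (2 * n) = pH M n := by
  unfold wH
  have h : (0 : ℝ) < ((2 * M).choose (2 * n) : ℝ) := by
    exact_mod_cast Nat.choose_pos (by omega)
  have e : 2 * n / 2 = n := by omega
  rw [e]
  field_simp

theorem wU_nonneg (N k : ℕ) : 0 ≤ wU N k := by
  unfold wU evc
  split_ifs <;> positivity

theorem wH_nonneg (M k : ℕ) : 0 ≤ wH M k := by
  unfold wH
  exact div_nonneg (pH_nonneg _ _) (by positivity)

theorem sum_choose_wU {M : ℕ} (hM : 1 ≤ M) :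
    ∑ a ∈ range (M + 1), ((2 * M).choose (2 * a) : ℝ) * wU (2 * M) (2 * a) = 1 := by
  rw [Finset.sum_congr rfl (fun a _ => choose_mul_wU hM a)]
  exact sum_pu hM

theorem sum_choose_wH (M : ℕ) :
    ∑ a ∈ range (M + 1), ((2 * M).choose (2 * a) : ℝ) * wH M (2 * a) = 1 := by
  rw [Finset.sum_congr rfl
    (fun a ha => choose_mul_wH (Nat.lt_succ_iff.1 (Finset.mem_range.1 ha)))]
  exact sum_pH M

/-- on the window `[2M/5, 3M/5]` the hypergeometric weight is at most `20/19` times the uniform -/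
theorem wH_le_wU {M a : ℕ} (hM : 1 ≤ M) (h1 : 2 * M ≤ 5 * a) (h2 : 5 * a ≤ 3 * M) :
    wH M (2 * a) ≤ 20 / 19 * wU (2 * M) (2 * a) := by
  have ha : a ≤ M := by omega
  have h : (0 : ℝ) < ((2 * M).choose (2 * a) : ℝ) := by
    exact_mod_cast Nat.choose_pos (by omega)
  have key := pH_le_pu_two_fifths hM h1 h2
  rw [← choose_mul_wH ha, ← choose_mul_wU hM a] at key
  have : ((2 * M).choose (2 * a) : ℝ) * wH M (2 * a) ≤
      ((2 * M).choose (2 * a) : ℝ) * (20 / 19 * wU (2 * M) (2 * a)) := by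
    calc _ ≤ _ := key
      _ = _ := by ring
  exact le_of_mul_le_mul_left this h

/-! ### tails outside the window `2M ≤ 5n ≤ 3M` -/

theorem window_subset (M : ℕ) :
    (range (M + 1)).filter (fun n : ℕ => ¬ (2 * M ≤ 5 * n ∧ 5 * n ≤ 3 * M)) ⊆
      (range (M + 1)).filter
        (fun a : ℕ => (1 / 10 : ℝ) * (M : ℝ) < |(a : ℝ) - (M : ℝ) / 2|) := by
  intro n hn
  rw [Finset.mem_filter] at hn ⊢
  refine ⟨hn.1, ?_⟩
  have h := hn.2
  rw [not_and_or, not_le, not_le] at h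
  rcases h with h | h
  · have h' : (5 : ℝ) * n < 2 * M := by exact_mod_cast h
    rw [lt_abs]
    right
    linarith
  · have h' : (3 : ℝ) * M < 5 * n := by exact_mod_cast h
    rw [lt_abs]
    left
    linarith

theorem pu_window_tail {M : ℕ} (hM : 2 ≤ M) :
    ∑ n ∈ (range (M + 1)).filter (fun n : ℕ => ¬ (2 * M ≤ 5 * n ∧ 5 * n ≤ 3 * M)), pu M n
      ≤ (25 / 2) / (M : ℝ) := by
  have hM0 : (0 : ℝ) < M := by exact_mod_cast (by omega : 0 < M)
  refine le_trans (Finset.sum_le_sum_of_subset_of_nonneg (window_subset M)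
    (fun a _ _ => pu_nonneg M a)) ?_
  refine le_trans (pu_tail hM (dl := 1 / 10) (by norm_num)) (le_of_eq ?_)
  field_simp
  norm_num

theorem pH_window_tail {M : ℕ} (hM : 2 ≤ M) :
    ∑ n ∈ (range (M + 1)).filter (fun n : ℕ => ¬ (2 * M ≤ 5 * n ∧ 5 * n ≤ 3 * M)), pH M n
      ≤ 25 / (M : ℝ) := by
  have hM0 : (0 : ℝ) < M := by exact_mod_cast (by omega : 0 < M)
  refine le_trans (Finset.sum_le_sum_of_subset_of_nonneg (window_subset M)
    (fun a _ _ => pH_nonneg M a)) ?_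
  refine le_trans (pH_tail hM (dl := 1 / 10) (by norm_num)) (le_of_eq ?_)
  field_simp
  norm_num

theorem wNu_nonneg (N k : ℕ) : 0 ≤ wNu N k := by
  unfold wNu
  split_ifs <;> positivity

/-- `wNu ≤ 2 wU` -/
theorem wNu_le {M : ℕ} (hM : 1 ≤ M) (k : ℕ) : wNu (2 * M) k ≤ 2 * wU (2 * M) k := by
  unfold wNu wU evc
  have hne : ¬ (2 * M = 0) := by omega
  rw [if_neg hne]
  obtain ⟨L, rfl⟩ : ∃ L, M = L + 1 := ⟨M - 1, by omega⟩
  have e : 2 * (L + 1) - 1 = 2 * L + 1 := by omega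
  have e2 : (2 : ℝ) ^ (2 * (L + 1)) = 2 * 2 ^ (2 * L + 1) := by
    rw [show 2 * (L + 1) = (2 * L + 1) + 1 by ring, pow_succ]; ring
  rw [e, e2]
  have hT : (0 : ℝ) < 2 ^ (2 * L + 1) := by positivity
  set T : ℝ := 2 ^ (2 * L + 1) with hTdef
  split_ifs
  · rw [div_le_iff₀ (by positivity)]
    field_simp
    nlinarith
  · rw [div_le_iff₀ (by positivity)]
    field_simp
    nlinarith

/-- the size weights of `wNu` sum to one -/
theorem sum_choose_wNu {M : ℕ} (hM : 1 ≤ M) :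
    ∑ a ∈ range (M + 1), ((2 * M).choose (2 * a) : ℝ) * wNu (2 * M) (2 * a) = 1 := by
  have hT : (0 : ℝ) < (2 : ℝ) ^ (2 * M) := by positivity
  set T : ℝ := (2 : ℝ) ^ (2 * M) with hTdef
  have hsum : ∑ a ∈ range (M + 1), ((2 * M).choose (2 * a) : ℝ) = T / 2 := by
    have h := sum_pu hM
    unfold pu at h
    rw [← Finset.sum_div] at h
    have hp : (0 : ℝ) < 2 ^ (2 * M - 1) := by positivity
    rw [div_eq_one_iff_eq hp.ne'] at h
    rw [h, hTdef]
    obtain ⟨L, rfl⟩ : ∃ L, M = L + 1 := ⟨M - 1, by omega⟩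
    rw [show 2 * (L + 1) - 1 = 2 * L + 1 by omega, show 2 * (L + 1) = (2 * L + 1) + 1 by ring,
      pow_succ]
    ring
  have hterm : ∀ a ∈ range (M + 1), ((2 * M).choose (2 * a) : ℝ) * wNu (2 * M) (2 * a) =
      (((2 * M).choose (2 * a) : ℝ) * (T / 4) + (if a = 0 then T / 4 else 0) +
        (if a = M then T / 4 else 0)) / (T * T / 8 + T / 2) := by
    intro a _
    unfold wNu
    by_cases h0 : a = 0
    · subst h0
      have hM' : (0 : ℕ) ≠ M := by omega
      simp [hM']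
      ring
    · by_cases h1 : a = M
      · subst h1
        simp [h0]
        ring
      · have c1 : ¬ (2 * a = 0 ∨ 2 * a = 2 * M) := by omega
        rw [if_neg c1, if_neg h0, if_neg h1]
        ring
  rw [Finset.sum_congr rfl hterm, ← Finset.sum_div, Finset.sum_add_distrib,
    Finset.sum_add_distrib, ← Finset.sum_mul, hsum, Finset.sum_ite_eq' , Finset.sum_ite_eq']
  simp only [Finset.mem_range]
  rw [if_pos (by omega), if_pos (by omega)]
  rw [div_eq_one_iff_eq (by positivity)]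
  ring

theorem wNu_window_tail {M : ℕ} (hM : 2 ≤ M) :
    ∑ n ∈ (range (M + 1)).filter (fun n : ℕ => ¬ (2 * M ≤ 5 * n ∧ 5 * n ≤ 3 * M)),
      ((2 * M).choose (2 * n) : ℝ) * wNu (2 * M) (2 * n) ≤ 25 / (M : ℝ) := by
  have h1 : ∑ n ∈ (range (M + 1)).filter (fun n : ℕ => ¬ (2 * M ≤ 5 * n ∧ 5 * n ≤ 3 * M)),
      ((2 * M).choose (2 * n) : ℝ) * wNu (2 * M) (2 * n) ≤
      ∑ n ∈ (range (M + 1)).filter (fun n : ℕ => ¬ (2 * M ≤ 5 * n ∧ 5 * n ≤ 3 * M)),
        2 * pu M n := by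
    apply Finset.sum_le_sum
    intro n _
    rw [← choose_mul_wU (by omega) n]
    have := wNu_le (M := M) (by omega) (2 * n)
    have hc : (0 : ℝ) ≤ ((2 * M).choose (2 * n) : ℝ) := by positivity
    nlinarith
  refine le_trans h1 ?_
  rw [← Finset.mul_sum]
  have := pu_window_tail hM
  calc _ ≤ 2 * ((25 / 2) / (M : ℝ)) := by linarith
    _ = _ := by ring

end Vale.Agent.P162.P2
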