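import Vale.Agent.P162.P2.WcBasic
import Vale.Agent.P162.P2.Super

namespace Vale.Agent.P162.P2

open Finset Vale.Agent.P162 Vale.Agent.P162.KL

variable {S : Type} [Fintype S] [DecidableEq S]

/-- the divergence of the output of `Wc S w` is the `w`-weighted sum of the `Ek` -/
theorem kl_Wc (M : ℕ) (hS : Fintype.card S = 2 * M) (w : ℕ → ℝ) (p : Mat S → ℝ) :
    kl (push (Wc S w) p) (push (Wc S w) (unif (Mat S))) =
      ∑ a ∈ range (M + 1), w (2 * a) * Ek S p (2 * a) := by
  have h1 : ∀ x : Ev S,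
      push (Wc S w) p x * Real.log (push (Wc S w) p x / push (Wc S w) (unif (Mat S)) x)
      = w x.1.card * (Fd S p x * Real.log (Fd S p x)) := by
    intro x
    rw [push_Wc, push_Wc, Fd_unif M hS, mul_one]
    by_cases hw : w x.1.card = 0
    · rw [hw]; simp
    · rw [mul_div_cancel_left₀ _ hw]; ring
  unfold kl
  rw [Finset.sum_congr rfl (fun x _ => h1 x)]
  have hmaps : ∀ x ∈ (univ : Finset (Ev S)), x.1.card / 2 ∈ range (M + 1) := by
    intro x _
    have := Finset.card_le_univ x.1
    rw [hS] at this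
    rw [Finset.mem_range]; omega
  rw [← Finset.sum_fiberwise_of_maps_to hmaps]
  refine Finset.sum_congr rfl fun a _ => ?_
  unfold Ek
  rw [Finset.mul_sum]
  have hfil : univ.filter (fun x : Ev S => x.1.card / 2 = a)
      = univ.filter (fun x : Ev S => x.1.card = 2 * a) := by
    apply Finset.filter_congr
    intro x _
    obtain ⟨c, hc⟩ := x.2
    constructor <;> intro h <;> omega
  rw [hfil]
  refine Finset.sum_congr rfl fun x hx => ?_
  rw [(Finset.mem_filter.mp hx).2]

/-- the densities of one size class sum to the number of sets of that size -/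
theorem sum_Fd (M : ℕ) (hS : Fintype.card S = 2 * M) (p : Mat S → ℝ) (hp : IsLaw p) (k : ℕ)
    (hk : Even k) :
    ∑ x ∈ univ.filter (fun x : Ev S => x.1.card = k), Fd S p x = ((2 * M).choose k : ℝ) := by
  have h1 : ∀ x : Ev S, Fd S p x = ∑ σ, p σ * Wc S (fun _ => 1) σ x := by
    intro x
    have := push_Wc (fun _ => (1 : ℝ)) p x
    rw [one_mul] at this
    rw [← this]
    rfl
  rw [Finset.sum_congr rfl (fun x _ => h1 x), Finset.sum_comm]
  have h2 : ∀ σ : Mat S, ∑ x ∈ univ.filter (fun x : Ev S => x.1.card = k),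
      p σ * Wc S (fun _ => 1) σ x = p σ * ((2 * M).choose k : ℝ) := by
    intro σ
    rw [← Finset.mul_sum, Wc_class_sum M hS (fun _ => 1) σ k hk, mul_one]
  rw [Finset.sum_congr rfl (fun σ _ => h2 σ), ← Finset.sum_mul, hp.2, one_mul]

/-- Jensen / log-sum: `∑_{|x| = k} Fd = C(2M,k)` = number of terms -/
theorem Ek_nonneg (M : ℕ) (hS : Fintype.card S = 2 * M) (p : Mat S → ℝ) (hp : IsLaw p) (k : ℕ) :
    0 ≤ Ek S p k := by
  by_cases hk : Even k
  · have hne : Nonempty (Mat S) := Tz.IsLaw.nonempty hp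
    have hF := sum_Fd M hS p hp k hk
    have hU := sum_Fd M hS (unif (Mat S)) Tz.unif_isLaw k hk
    have hU' : ∑ x ∈ univ.filter (fun x : Ev S => x.1.card = k), (1 : ℝ)
        = ((2 * M).choose k : ℝ) := by
      rw [← hU]
      exact Finset.sum_congr rfl (fun x _ => (Fd_unif M hS x).symm)
    have h := KL.log_sum (univ.filter (fun x : Ev S => x.1.card = k)) (Fd S p) (fun _ => (1 : ℝ))
      (fun x _ => Fd_nonneg p hp.1 x) (fun _ _ => zero_le_one)
      (fun _ _ h => absurd h one_ne_zero)
    rw [hF, hU'] at h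
    have h0 : ((2 * M).choose k : ℝ) * Real.log (((2 * M).choose k : ℝ) / ((2 * M).choose k : ℝ))
        = 0 := by
      by_cases hc : ((2 * M).choose k : ℝ) = 0
      · rw [hc]; simp
      · rw [div_self hc]; simp
    rw [h0] at h
    unfold Ek
    refine le_trans h (le_of_eq ?_)
    refine Finset.sum_congr rfl fun x _ => ?_
    rw [div_one]
  · unfold Ek
    have hemp : univ.filter (fun x : Ev S => x.1.card = k) = ∅ := by
      apply Finset.filter_eq_empty_iff.mpr
      intro x _ h
      exact hk (h ▸ x.2)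
    rw [hemp, Finset.sum_empty]

/-- data processing for the channel `Wc S w` with `w` concentrated on size `2a` -/
theorem Ek_le (M : ℕ) (hS : Fintype.card S = 2 * M) (p : Mat S → ℝ) (hp : IsLaw p) (a : ℕ)
    (ha : a ≤ M) :
    Ek S p (2 * a) ≤ ((2 * M).choose (2 * a) : ℝ) * kl p (unif (Mat S)) := by
  obtain ⟨C, hC⟩ : ∃ C : ℝ, C = ((2 * M).choose (2 * a) : ℝ) := ⟨_, rfl⟩
  have hCpos : 0 < C := by
    rw [hC]
    have : 0 < (2 * M).choose (2 * a) := Nat.choose_pos (by omega)
    exact_mod_cast this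
  obtain ⟨w, hw⟩ : ∃ w : ℕ → ℝ, w = fun k => if k = 2 * a then 1 / C else 0 := ⟨_, rfl⟩
  have hwa : w (2 * a) = 1 / C := by rw [hw]; simp
  have hwne : ∀ b, b ≠ a → w (2 * b) = 0 := by
    intro b hb
    rw [hw]
    have : 2 * b ≠ 2 * a := by omega
    simp [this]
  have hw0 : ∀ k, 0 ≤ w k := by
    intro k
    rw [hw]
    show 0 ≤ (if k = 2 * a then 1 / C else 0)
    split_ifs
    · positivity
    · exact le_rfl
  have hamem : a ∈ range (M + 1) := by rw [Finset.mem_range]; omega
  have hsum : ∑ b ∈ range (M + 1), ((2 * M).choose (2 * b) : ℝ) * w (2 * b) = 1 := by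
    rw [Finset.sum_eq_single a (fun b _ hb => by rw [hwne b hb, mul_zero])
      (fun h => absurd hamem h), hwa, ← hC]
    field_simp
  have hchan := Wc_isChan M hS w hw0 hsum
  have h1 := SDPI_one (Wc S w) hchan p hp
  rw [kl_Wc M hS w p, one_mul,
    Finset.sum_eq_single a (fun b _ hb => by rw [hwne b hb, zero_mul])
      (fun h => absurd hamem h), hwa] at h1
  rw [← hC]
  have h2 : 1 / C * Ek S p (2 * a) = Ek S p (2 * a) / C := by ring
  rw [h2, div_le_iff₀ hCpos] at h1
  linarith

theorem mc_zero : mc 0 = 1 := by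
  have h := mc_formula 0
  simpa using h

private lemma self_div_log (t : ℝ) : (t / t) * Real.log (t / t) = 0 := by
  by_cases h : t = 0
  · simp [h]
  · rw [div_self h]; simp

/-- the trivial outputs carry no information -/
theorem Ek_zero (p : Mat S → ℝ) (hp : IsLaw p) : Ek S p 0 = 0 := by
  unfold Ek
  apply Finset.sum_eq_zero
  intro x hx
  have hx0 : x.1.card = 0 := (Finset.mem_filter.mp hx).2
  have hxe : x.1 = ∅ := Finset.card_eq_zero.mp hx0
  have hF : Fd S p x = mc (Fintype.card S) / mc (Fintype.card S) := by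
    unfold Fd
    have h1 : (∑ σ : Mat S, if Cl σ.1 x.1 then p σ else 0) = 1 := by
      rw [← hp.2]
      refine Finset.sum_congr rfl fun σ _ => ?_
      rw [if_pos]
      intro a ha
      rw [hxe] at ha
      exact absurd ha (Finset.notMem_empty a)
    rw [h1, hx0, mc_zero, Nat.sub_zero, mul_one, one_mul]
  rw [hF]
  exact self_div_log _

theorem Ek_top (M : ℕ) (hS : Fintype.card S = 2 * M) (p : Mat S → ℝ) (hp : IsLaw p) :
    Ek S p (2 * M) = 0 := by
  unfold Ek
  apply Finset.sum_eq_zero
  intro x hx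
  have hx0 : x.1.card = Fintype.card S := by rw [hS]; exact (Finset.mem_filter.mp hx).2
  have hxe : x.1 = univ := (Finset.card_eq_iff_eq_univ x.1).mp hx0
  have hF : Fd S p x = mc (Fintype.card S) / mc (Fintype.card S) := by
    unfold Fd
    have h1 : (∑ σ : Mat S, if Cl σ.1 x.1 then p σ else 0) = 1 := by
      rw [← hp.2]
      refine Finset.sum_congr rfl fun σ _ => ?_
      rw [if_pos]
      intro a _
      rw [hxe]
      exact Finset.mem_univ _
    rw [h1, hx0, Nat.sub_self, mc_zero, mul_one]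
  rw [hF]
  exact self_div_log _

end Vale.Agent.P162.P2
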