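import Vale.Agent.P162.P2.Defs

namespace Vale.Agent.P162.P2

open Finset Vale.Agent.P162 Vale.Agent.P162.KL

/-- `CondS` at `x` from an SDPI of the channel `K'` that `K2 x` induces on the fibre
(`iA` parametrises the fibre `{a | K1 a x ≠ 0}`, on which `K1 · x` is constant; `iY` parametrises
the possible second outputs).  Use `SDPI_scaled` with `f ∘ iA`. -/
theorem condS_of_embed {A X Y A' Y' : Type*} [Fintype A] [Fintype Y] [Fintype A'] [Fintype Y']
    (K1 : A → X → ℝ) (K2 : X → A → Y → ℝ) (K' : A' → Y' → ℝ) (η : ℝ) (hS : SDPI K' η)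
    (iA : A' → A) (hiA : Function.Injective iA) (iY : Y' → Y) (hiY : Function.Injective iY)
    (x : X) (c : ℝ) (hc : 0 < c)
    (h1 : ∀ a', K1 (iA a') x = c) (h0 : ∀ a, a ∉ Set.range iA → K1 a x = 0)
    (hK : ∀ a' y', K2 x (iA a') (iY y') = K' a' y')
    (hK0 : ∀ a' y, y ∉ Set.range iY → K2 x (iA a') y = 0) :
    CondS K1 K2 x η := by
  intro f hf hf0
  -- `f` vanishes off the range of `iA`
  have hfr : ∀ a, a ∉ Set.range iA → f a = 0 := fun a ha => hf0 a (h0 a ha)
  -- reduction of sums over `A`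
  have sumA : ∀ g : A → ℝ, (∀ a, a ∉ Set.range iA → g a = 0) →
      ∑ a, g a = ∑ a', g (iA a') := by
    intro g hg
    exact (Fintype.sum_of_injective iA hiA (fun a' => g (iA a')) g hg (fun _ => rfl)).symm
  have sumY : ∀ g : Y → ℝ, (∀ y, y ∉ Set.range iY → g y = 0) →
      ∑ y, g y = ∑ y', g (iY y') := by
    intro g hg
    exact (Fintype.sum_of_injective iY hiY (fun y' => g (iY y')) g hg (fun _ => rfl)).symm
  set f' : A' → ℝ := fun a' => f (iA a') with hf'
  have hm : ∑ a, f a = ∑ a', f' a' := sumA f hfr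
  have hZ : ∑ a, K1 a x = (Fintype.card A' : ℝ) * c := by
    rw [sumA (fun a => K1 a x) h0]
    simp [h1, Finset.card_univ]
  have hun : ∀ a', K1 (iA a') x / ∑ a, K1 a x = unif A' a' := by
    intro a'
    rw [hZ, h1]
    unfold unif
    have hcard : (Fintype.card A' : ℝ) ≠ 0 := by
      haveI : Nonempty A' := ⟨a'⟩
      exact_mod_cast Fintype.card_ne_zero
    field_simp
  -- numerators
  have hnum : ∀ y, ∑ a, f a * K2 x a y = ∑ a', f' a' * K2 x (iA a') y := by
    intro y
    exact sumA (fun a => f a * K2 x a y) (fun a ha => by simp [hfr a ha])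
  have hnum1 : ∀ y', ∑ a, f a * K2 x a (iY y') = push K' f' y' := by
    intro y'
    rw [hnum]
    unfold push
    exact Finset.sum_congr rfl (fun a' _ => by rw [hK])
  have hnum0 : ∀ y, y ∉ Set.range iY → ∑ a, f a * K2 x a y = 0 := by
    intro y hy
    rw [hnum]
    exact Finset.sum_eq_zero (fun a' _ => by rw [hK0 a' y hy, mul_zero])
  have hden : ∀ y', ∑ a, (K1 a x / ∑ a', K1 a' x) * K2 x a (iY y') = push K' (unif A') y' := by
    intro y'
    rw [sumA (fun a => (K1 a x / ∑ a', K1 a' x) * K2 x a (iY y'))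
      (fun a ha => by simp [h0 a ha])]
    unfold push
    exact Finset.sum_congr rfl (fun a' _ => by rw [hun, hK])
  -- left side
  have hL : ∑ y, (∑ a, f a * K2 x a y) *
        Real.log ((∑ a, f a * K2 x a y) /
          ((∑ a, f a) * ∑ a, (K1 a x / ∑ a', K1 a' x) * K2 x a y)) =
      ∑ y', push K' f' y' *
        Real.log (push K' f' y' / ((∑ a', f' a') * push K' (unif A') y')) := by
    rw [sumY _ (fun y hy => by rw [hnum0 y hy, zero_mul])]
    exact Finset.sum_congr rfl (fun y' _ => by rw [hnum1, hden, hm])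
  have hR : ∑ a, f a * Real.log (f a / ((∑ a, f a) * (K1 a x / ∑ a', K1 a' x))) =
      ∑ a', f' a' * Real.log (f' a' / ((∑ a', f' a') * unif A' a')) := by
    rw [sumA _ (fun a ha => by rw [hfr a ha, zero_mul])]
    exact Finset.sum_congr rfl (fun a' _ => by rw [hun, hm])
  rw [hL, hR]
  exact Tz.SDPI_scaled hS f' (fun a' => hf _)

end Vale.Agent.P162.P2
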