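import Vale.Agent.P162.P2.JoinMat

namespace Vale.Agent.P162.P2

open Finset Vale.Agent.P162 Vale.Agent.P162.KL

variable {S : Type} [Fintype S] [DecidableEq S]

theorem mem_joinSet (x : Finset S) (y1 : Finset {a // a ∈ x}) (y2 : Finset {a // a ∉ x}) (a : S) :
    a ∈ joinSet x y1 y2 ↔ (∃ h : a ∈ x, (⟨a, h⟩ : {a // a ∈ x}) ∈ y1) ∨
      (∃ h : a ∉ x, (⟨a, h⟩ : {a // a ∉ x}) ∈ y2) := by
  unfold joinSet
  simp only [Finset.mem_union, Finset.mem_map, Function.Embedding.coe_subtype]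
  constructor
  · rintro (⟨b, hb, rfl⟩ | ⟨b, hb, rfl⟩)
    · exact Or.inl ⟨b.2, hb⟩
    · exact Or.inr ⟨b.2, hb⟩
  · rintro (⟨h, hb⟩ | ⟨h, hb⟩)
    · exact Or.inl ⟨⟨a, h⟩, hb, rfl⟩
    · exact Or.inr ⟨⟨a, h⟩, hb, rfl⟩

theorem coe_mem_joinSet_left (x : Finset S) (y1 : Finset {a // a ∈ x}) (y2 : Finset {a // a ∉ x})
    (b : {a // a ∈ x}) : (b : S) ∈ joinSet x y1 y2 ↔ b ∈ y1 := by
  rw [mem_joinSet]
  constructor
  · rintro (⟨_, hb⟩ | ⟨h, _⟩)
    · exact hb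
    · exact absurd b.2 h
  · intro hb
    exact Or.inl ⟨b.2, hb⟩

theorem coe_mem_joinSet_right (x : Finset S) (y1 : Finset {a // a ∈ x}) (y2 : Finset {a // a ∉ x})
    (b : {a // a ∉ x}) : (b : S) ∈ joinSet x y1 y2 ↔ b ∈ y2 := by
  rw [mem_joinSet]
  constructor
  · rintro (⟨h, _⟩ | ⟨_, hb⟩)
    · exact absurd h b.2
    · exact hb
  · intro hb
    exact Or.inr ⟨b.2, hb⟩

theorem inter_joinSet (x : Finset S) (y1 : Finset {a // a ∈ x}) (y2 : Finset {a // a ∉ x}) :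
    x ∩ joinSet x y1 y2 = y1.map (Function.Embedding.subtype (· ∈ x)) := by
  ext a
  rw [Finset.mem_inter, mem_joinSet, Finset.mem_map]
  constructor
  · rintro ⟨hx, (⟨h, hb⟩ | ⟨h, _⟩)⟩
    · exact ⟨⟨a, h⟩, hb, rfl⟩
    · exact absurd hx h
  · rintro ⟨b, hb, rfl⟩
    exact ⟨b.2, Or.inl ⟨b.2, hb⟩⟩

theorem sdiff_joinSet (x : Finset S) (y1 : Finset {a // a ∈ x}) (y2 : Finset {a // a ∉ x}) :
    joinSet x y1 y2 \ x = y2.map (Function.Embedding.subtype (· ∉ x)) := by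
  ext a
  rw [Finset.mem_sdiff, mem_joinSet, Finset.mem_map]
  constructor
  · rintro ⟨(⟨h, _⟩ | ⟨h, hb⟩), hx⟩
    · exact absurd h hx
    · exact ⟨⟨a, h⟩, hb, rfl⟩
  · rintro ⟨b, hb, rfl⟩
    exact ⟨Or.inr ⟨b.2, hb⟩, b.2⟩

theorem card_inter_joinSet (x : Finset S) (y1 : Finset {a // a ∈ x}) (y2 : Finset {a // a ∉ x}) :
    (x ∩ joinSet x y1 y2).card = y1.card := by
  rw [inter_joinSet, Finset.card_map]

theorem card_sdiff_joinSet (x : Finset S) (y1 : Finset {a // a ∈ x}) (y2 : Finset {a // a ∉ x}) :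
    (joinSet x y1 y2 \ x).card = y2.card := by
  rw [sdiff_joinSet, Finset.card_map]

theorem joinEv_injective (x : Finset S) : Function.Injective (joinEv x) := by
  rintro ⟨⟨y1, h1⟩, ⟨y2, h2⟩⟩ ⟨⟨z1, k1⟩, ⟨z2, k2⟩⟩ h
  have hs : joinSet x y1 y2 = joinSet x z1 z2 := congrArg Subtype.val h
  have e1 : y1 = z1 := by
    ext b
    rw [← coe_mem_joinSet_left x y1 y2 b, hs, coe_mem_joinSet_left]
  have e2 : y2 = z2 := by
    ext b
    rw [← coe_mem_joinSet_right x y1 y2 b, hs, coe_mem_joinSet_right]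
  subst e1
  subst e2
  rfl

theorem joinSet_subtype (x y : Finset S) :
    joinSet x (y.subtype (· ∈ x)) (y.subtype (· ∉ x)) = y := by
  ext a
  rw [mem_joinSet]
  simp only [Finset.mem_subtype]
  constructor
  · rintro (⟨_, h⟩ | ⟨_, h⟩) <;> exact h
  · intro h
    by_cases hx : a ∈ x
    · exact Or.inl ⟨hx, h⟩
    · exact Or.inr ⟨hx, h⟩

theorem joinEv_range (x : Finset S) (y : Ev S) (h : Even (x ∩ y.1).card) :
    ∃ y', joinEv x y' = y := by
  have hj := joinSet_subtype x y.1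
  have c1 : (y.1.subtype (· ∈ x)).card = (x ∩ y.1).card := by
    conv_rhs => rw [← hj]
    rw [card_inter_joinSet]
  have ctot := card_joinSet x (y.1.subtype (· ∈ x)) (y.1.subtype (· ∉ x))
  rw [hj] at ctot
  have e1 : Even (y.1.subtype (· ∈ x)).card := by rw [c1]; exact h
  have e2 : Even (y.1.subtype (· ∉ x)).card := by
    have hy := y.2
    rw [ctot] at hy
    exact (Nat.even_add.1 hy).1 e1
  exact ⟨(⟨_, e1⟩, ⟨_, e2⟩), Subtype.ext hj⟩

theorem even_inter_joinEv (x : Finset S) (y : Ev {a // a ∈ x} × Ev {a // a ∉ x}) :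
    Even (x ∩ (joinEv x y).1).card := by
  show Even (x ∩ joinSet x y.1.1 y.2.1).card
  rw [card_inter_joinSet]
  exact y.1.2

/-- closedness of the two parts of a glued set under a glued matching -/
theorem cl_join_iff (x : Finset S) (σ : Mat {a // a ∈ x} × Mat {a // a ∉ x})
    (y1 : Finset {a // a ∈ x}) (y2 : Finset {a // a ∉ x}) :
    (Cl (joinMat x σ).1 (x ∩ joinSet x y1 y2) ∧ Cl (joinMat x σ).1 (joinSet x y1 y2 \ x)) ↔
      (Cl σ.1.1 y1 ∧ Cl σ.2.1 y2) := by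
  rw [inter_joinSet, sdiff_joinSet]
  constructor
  · rintro ⟨h1, h2⟩
    constructor
    · intro b hb
      have := h1 (b : S) (Finset.mem_map.2 ⟨b, hb, rfl⟩)
      rw [joinMat_apply_mem x σ b b.2] at this
      obtain ⟨c, hc, hce⟩ := Finset.mem_map.1 this
      have : c = σ.1.1 ⟨b, b.2⟩ := Subtype.ext hce
      rw [this] at hc
      exact hc
    · intro b hb
      have := h2 (b : S) (Finset.mem_map.2 ⟨b, hb, rfl⟩)
      rw [joinMat_apply_not_mem x σ b b.2] at this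
      obtain ⟨c, hc, hce⟩ := Finset.mem_map.1 this
      have : c = σ.2.1 ⟨b, b.2⟩ := Subtype.ext hce
      rw [this] at hc
      exact hc
  · rintro ⟨h1, h2⟩
    constructor
    · intro a ha
      obtain ⟨b, hb, rfl⟩ := Finset.mem_map.1 ha
      have e : (joinMat x σ).1 ((Function.Embedding.subtype (· ∈ x)) b) = (σ.1.1 b : S) :=
        joinMat_apply_mem x σ b b.2
      rw [e]
      exact Finset.mem_map.2 ⟨σ.1.1 b, h1 b hb, rfl⟩
    · intro a ha
      obtain ⟨b, hb, rfl⟩ := Finset.mem_map.1 ha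
      have e : (joinMat x σ).1 ((Function.Embedding.subtype (· ∉ x)) b) = (σ.2.1 b : S) :=
        joinMat_apply_not_mem x σ b b.2
      rw [e]
      exact Finset.mem_map.2 ⟨σ.2.1 b, h2 b hb, rfl⟩

end Vale.Agent.P162.P2
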