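import Vale.Agent.P162.P2.Cross
import Vale.Agent.P162.P2.MatCard
import Vale.Agent.P162.P2.MatCount
import Vale.Agent.P162.Comb.Mat

namespace Vale.Agent.P162.P2

open Finset Vale.Agent.P162 Vale.Agent.P162.KL

variable {S : Type} [Fintype S] [DecidableEq S]

/-- a matching of `2M` points has `2^M` transversals.  (Either directly, or: the number is the same
for all matchings by `mat_conj`; double counting with `cross_count`, `card_Mat`, `mc_formula`:
`mc (2M) * c = C(2M,M) * M!`.) -/
theorem trans_count (M : ℕ) (hS : Fintype.card S = 2 * M) (σ : Mat S) :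
    (univ.filter (fun τ : S → Bool => ∀ a, τ (σ.1 a) = !τ a)).card = 2 ^ M := by
  have hm : IsMat σ.1 := σ.2
  have h := card_tr hm
  have hM : Fintype.card S / 2 = M := by omega
  rw [hM] at h
  rw [← h]
  apply Finset.card_nbij' (fun τ => univ.filter (fun a => τ a = true))
    (fun y => fun a => decide (a ∈ y))
  · intro τ hτ
    have hτ' : ∀ a, τ (σ.1 a) = !τ a := by simpa using hτ
    simp only [coe_filter, mem_univ, true_and, Set.mem_ofPred_eq]
    intro x
    simp only [mem_filter, mem_univ, true_and, hτ' x]
    cases τ x <;> simp
  · intro y hy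
    have hy' : IsTr σ.1 y := by simpa using hy
    simp only [coe_filter, mem_univ, true_and, Set.mem_ofPred_eq]
    intro a
    have := hy' a
    by_cases h1 : a ∈ y <;> simp [h1] <;> tauto
  · intro τ _
    funext a
    simp
  · intro y _
    ext a
    simp

theorem Tr_isChan (M : ℕ) (hS : Fintype.card S = 2 * M) : IsChan (Tr S) := by
  intro σ
  constructor
  · intro τ
    unfold Tr
    split_ifs
    · positivity
    · exact le_refl _
  · unfold Tr
    rw [← Finset.sum_filter, Finset.sum_const, trans_count M hS σ]
    have hM : Fintype.card S / 2 = M := by omega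
    rw [hM, nsmul_eq_mul]
    push_cast
    field_simp

/-- output law of `Tr` for the uniform matching: uniform on balanced colourings -/
theorem push_Tr_unif (M : ℕ) (hS : Fintype.card S = 2 * M) (τ : S → Bool) :
    push (Tr S) (unif (Mat S)) τ =
      if (univ.filter (fun a => τ a = true)).card = M then 1 / ((2 * M).choose M : ℝ) else 0 := by
  have hM : Fintype.card S / 2 = M := by omega
  have hc := cross_count M hS τ
  have hcard : (Fintype.card (Mat S) : ℝ) = mc (2 * M) := by rw [card_Mat, hS]
  have hf := mc_formula M
  have hpos := mc_pos M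
  have h1 : push (Tr S) (unif (Mat S)) τ =
      ((univ.filter (fun σ : Mat S => ∀ a, τ (σ.1 a) = !τ a)).card : ℝ) *
        (1 / mc (2 * M) * (1 / 2 ^ M)) := by
    unfold push unif Tr
    rw [hcard, hM]
    simp only [mul_ite, mul_zero]
    rw [← Finset.sum_filter, Finset.sum_const, nsmul_eq_mul]
  rw [h1, hc]
  split_ifs with hb
  · have hch : ((2 * M).choose M : ℝ) * (M.factorial : ℝ) * (M.factorial : ℝ)
        = ((2 * M).factorial : ℝ) := by
      have := Nat.choose_mul_factorial_mul_factorial (show M ≤ 2 * M by omega)
      have h2 : 2 * M - M = M := by omega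
      rw [h2] at this
      exact_mod_cast this
    have hMf : (0 : ℝ) < (M.factorial : ℝ) := by positivity
    have hchp : (0 : ℝ) < ((2 * M).choose M : ℝ) := by
      have := Nat.choose_pos (show M ≤ 2 * M by omega)
      exact_mod_cast this
    have h2p : (0 : ℝ) < (2 : ℝ) ^ M := by positivity
    rw [← hf] at hch
    field_simp
    nlinarith [hch]
  · simp

end Vale.Agent.P162.P2
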