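import Vale.Agent.P162.P2.WcBasic
import Vale.Agent.P162.P2.JoinSet
import Vale.Agent.P162.P2.Embed
import Vale.Agent.P162.P2.TrChan
import Vale.Agent.P162.KL.Prod

/-!
# P162 (P2) : the conditional SDPI of the second stages of STEP Z and STEP T
Given the first closed set `x` the matching is a pair (matching of `x`, matching of the complement)
and the second stage is a product channel.
-/

namespace Vale.Agent.P162.P2

open Finset Vale.Agent.P162 Vale.Agent.P162.KL

variable {S : Type} [Fintype S] [DecidableEq S]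

theorem card_in86 (x : Finset S) : Fintype.card {a // a ∈ x} = x.card := Fintype.card_coe x

theorem card_out86 (x : Finset S) : Fintype.card {a // a ∉ x} = Fintype.card S - x.card := by
  rw [Fintype.card_subtype_compl, Fintype.card_coe]

theorem wU_nonneg86 (N k : ℕ) : 0 ≤ wU N k := by
  unfold wU evc
  split_ifs <;> positivity

theorem sum_wU86 (n : ℕ) :
    ∑ a ∈ range (n + 1), ((2 * n).choose (2 * a) : ℝ) * wU (2 * n) (2 * a) = 1 := by
  unfold wU evc
  rw [← Finset.sum_mul]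
  rcases Nat.eq_zero_or_pos n with h | h
  · subst h
    simp
  · rw [sum_choose_even h, if_neg (by omega)]
    field_simp

/-- the value of `Wc S w` at `(σ, x)` when `x` is closed -/
noncomputable def cW86 (S : Type) [Fintype S] [DecidableEq S] (w : ℕ → ℝ) (x : Ev S) : ℝ :=
  mc (Fintype.card S) * w x.1.card / (mc x.1.card * mc (Fintype.card S - x.1.card))

theorem cW_pos86 (M : ℕ) (hS : Fintype.card S = 2 * M) (w : ℕ → ℝ) (x : Ev S)
    (hw : 0 < w x.1.card) : 0 < cW86 S w x := by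
  obtain ⟨n, hn⟩ := x.2
  have hle : x.1.card ≤ Fintype.card S := Finset.card_le_univ x.1
  have e1 : x.1.card = 2 * n := by omega
  have e2 : Fintype.card S - x.1.card = 2 * (M - n) := by omega
  unfold cW86
  have p1 := mc_pos M
  have p2 := mc_pos n
  have p3 := mc_pos (M - n)
  rw [e2, hS]
  rw [e1] at hw ⊢
  positivity

theorem Wc_join86 (w : ℕ → ℝ) (x : Ev S) (σ : Mat {a // a ∈ x.1} × Mat {a // a ∉ x.1}) :
    Wc S w (joinMat x.1 σ) x = cW86 S w x := by
  unfold Wc cW86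
  rw [if_pos (joinMat_cl x.1 σ)]

theorem Wc_not_range86 (w : ℕ → ℝ) (x : Ev S) (σ : Mat S) (h : σ ∉ Set.range (joinMat x.1)) :
    Wc S w σ x = 0 := by
  unfold Wc
  rw [if_neg]
  intro hc
  exact h (joinMat_range x.1 σ hc)

theorem condS_Z (M : ℕ) (hS : Fintype.card S = 2 * M) (w : ℕ → ℝ) (x : Ev S)
    (hw : 0 < w x.1.card) (η : ℝ) (h1 : ZS (x.1.card / 2) η) (h2 : ZS (M - x.1.card / 2) η) :
    CondS (Wc S w) (KZ2 S) x η := by
  have hle : x.1.card ≤ Fintype.card S := Finset.card_le_univ x.1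
  have e1 : 2 * (x.1.card / 2) = x.1.card := Nat.two_mul_div_two_of_even x.2
  have e2 : 2 * (M - x.1.card / 2) = Fintype.card S - x.1.card := by omega
  have c1 : Fintype.card {a // a ∈ x.1} = 2 * (x.1.card / 2) := by rw [card_in86, e1]
  have c2 : Fintype.card {a // a ∉ x.1} = 2 * (M - x.1.card / 2) := by rw [card_out86, e2]
  have s1 := h1 {a // a ∈ x.1} c1
  have s2 := h2 {a // a ∉ x.1} c2
  have i1 := Wc_isChan (S := {a // a ∈ x.1}) _ c1 (wU (2 * (x.1.card / 2))) (wU_nonneg86 _)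
    (sum_wU86 _)
  have i2 := Wc_isChan (S := {a // a ∉ x.1}) _ c2 (wU (2 * (M - x.1.card / 2))) (wU_nonneg86 _)
    (sum_wU86 _)
  have sp := KL.SDPI_prod _ _ i1 i2 η s1 s2
  refine condS_of_embed (Wc S w) (KZ2 S) _ η sp (joinMat x.1) (joinMat_injective x.1)
    (joinEv x.1) (joinEv_injective x.1) x (cW86 S w x) (cW_pos86 M hS w x hw) (Wc_join86 w x)
    (Wc_not_range86 w x) ?_ ?_
  · intro σ y
    have k1 : (x.1 ∩ (joinEv x.1 y).1).card = y.1.1.card := card_inter_joinSet x.1 y.1.1 y.2.1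
    have k2 : ((joinEv x.1 y).1 \ x.1).card = y.2.1.card := card_sdiff_joinSet x.1 y.1.1 y.2.1
    have k3 := cl_join_iff x.1 σ y.1.1 y.2.1
    have k4 : Even (x.1 ∩ (joinEv x.1 y).1).card := even_inter_joinEv x.1 y
    unfold KZ2 Wc
    simp only [k1, k2, card_in86, card_out86, e1, e2, wU]
    by_cases g1 : Cl σ.1.1 y.1.1
    · by_cases g2 : Cl σ.2.1 y.2.1
      · rw [if_pos g1, if_pos g2, if_pos]
        exact ⟨by rw [← k1]; exact k4, k3.2 ⟨g1, g2⟩⟩
      · rw [if_neg g2, mul_zero, if_neg]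
        rintro ⟨_, g3⟩
        exact g2 (k3.1 g3).2
    · rw [if_neg g1, zero_mul, if_neg]
      rintro ⟨_, g3⟩
      exact g1 (k3.1 g3).1
  · intro σ y hy
    unfold KZ2
    rw [if_neg]
    rintro ⟨g, _⟩
    exact hy (joinEv_range x.1 y g)

theorem joinCol_mem86 (x : Finset S) (τ : ({a // a ∈ x} → Bool) × ({a // a ∉ x} → Bool)) (a : S)
    (h : a ∈ x) : joinCol x τ a = τ.1 ⟨a, h⟩ := by
  unfold joinCol
  rw [dif_pos h]

theorem joinCol_not_mem86 (x : Finset S) (τ : ({a // a ∈ x} → Bool) × ({a // a ∉ x} → Bool)) (a : S)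
    (h : a ∉ x) : joinCol x τ a = τ.2 ⟨a, h⟩ := by
  unfold joinCol
  rw [dif_neg h]

theorem joinCol_injective86 (x : Finset S) : Function.Injective (joinCol x) := by
  intro τ τ' h
  apply Prod.ext
  · funext a
    have := congrFun h a.1
    rwa [joinCol_mem86 x τ a.1 a.2, joinCol_mem86 x τ' a.1 a.2] at this
  · funext a
    have := congrFun h a.1
    rwa [joinCol_not_mem86 x τ a.1 a.2, joinCol_not_mem86 x τ' a.1 a.2] at this

theorem joinCol_surjective86 (x : Finset S) : Function.Surjective (joinCol x) := by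
  intro τ
  refine ⟨splitCol x τ, ?_⟩
  funext a
  by_cases h : a ∈ x
  · rw [joinCol_mem86 x _ a h]; rfl
  · rw [joinCol_not_mem86 x _ a h]; rfl

theorem tr_join_iff86 (x : Finset S) (σ : Mat {a // a ∈ x} × Mat {a // a ∉ x})
    (τ : ({a // a ∈ x} → Bool) × ({a // a ∉ x} → Bool)) :
    (∀ a, joinCol x τ ((joinMat x σ).1 a) = !joinCol x τ a) ↔
      ((∀ a, τ.1 (σ.1.1 a) = !τ.1 a) ∧ ∀ a, τ.2 (σ.2.1 a) = !τ.2 a) := by
  constructor
  · intro h
    constructor
    · intro a
      have := h a.1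
      rw [joinMat_apply_mem x σ a.1 a.2, joinCol_mem86 x τ _ (σ.1.1 ⟨a.1, a.2⟩).2,
        joinCol_mem86 x τ a.1 a.2] at this
      exact this
    · intro a
      have := h a.1
      rw [joinMat_apply_not_mem x σ a.1 a.2, joinCol_not_mem86 x τ _ (σ.2.1 ⟨a.1, a.2⟩).2,
        joinCol_not_mem86 x τ a.1 a.2] at this
      exact this
  · rintro ⟨g1, g2⟩ a
    by_cases h : a ∈ x
    · rw [joinMat_apply_mem x σ a h, joinCol_mem86 x τ _ (σ.1.1 ⟨a, h⟩).2, joinCol_mem86 x τ a h]
      exact g1 ⟨a, h⟩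
    · rw [joinMat_apply_not_mem x σ a h, joinCol_not_mem86 x τ _ (σ.2.1 ⟨a, h⟩).2,
        joinCol_not_mem86 x τ a h]
      exact g2 ⟨a, h⟩

theorem condS_T (M : ℕ) (hS : Fintype.card S = 2 * M) (w : ℕ → ℝ) (x : Ev S)
    (hw : 0 < w x.1.card) (η : ℝ) (h1 : TS (x.1.card / 2) η) (h2 : TS (M - x.1.card / 2) η) :
    CondS (Wc S w) (KT2 S) x η := by
  have hle : x.1.card ≤ Fintype.card S := Finset.card_le_univ x.1
  have e1 : 2 * (x.1.card / 2) = x.1.card := Nat.two_mul_div_two_of_even x.2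
  have e2 : 2 * (M - x.1.card / 2) = Fintype.card S - x.1.card := by omega
  have c1 : Fintype.card {a // a ∈ x.1} = 2 * (x.1.card / 2) := by rw [card_in86, e1]
  have c2 : Fintype.card {a // a ∉ x.1} = 2 * (M - x.1.card / 2) := by rw [card_out86, e2]
  have s1 := h1 {a // a ∈ x.1} c1
  have s2 := h2 {a // a ∉ x.1} c2
  have i1 := Tr_isChan (S := {a // a ∈ x.1}) _ c1
  have i2 := Tr_isChan (S := {a // a ∉ x.1}) _ c2
  have sp := KL.SDPI_prod _ _ i1 i2 η s1 s2
  refine condS_of_embed (Wc S w) (KT2 S) _ η sp (joinMat x.1) (joinMat_injective x.1)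
    (joinCol x.1) (joinCol_injective86 x.1) x (cW86 S w x) (cW_pos86 M hS w x hw) (Wc_join86 w x)
    (Wc_not_range86 w x) ?_ ?_
  · intro σ τ
    have k3 := tr_join_iff86 x.1 σ τ
    have d1 : Fintype.card {a // a ∈ x.1} / 2 = x.1.card / 2 := by rw [card_in86]
    have d2 : Fintype.card {a // a ∉ x.1} / 2 = M - x.1.card / 2 := by rw [c2]; omega
    have d3 : Fintype.card S / 2 = x.1.card / 2 + (M - x.1.card / 2) := by omega
    unfold KT2 Tr
    rw [d1, d2, d3]
    by_cases g1 : ∀ a, τ.1 (σ.1.1 a) = !τ.1 a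
    · by_cases g2 : ∀ a, τ.2 (σ.2.1 a) = !τ.2 a
      · rw [if_pos g1, if_pos g2, if_pos (k3.2 ⟨g1, g2⟩), pow_add]
        field_simp
      · rw [if_neg g2, mul_zero, if_neg]
        intro g3
        exact g2 (k3.1 g3).2
    · rw [if_neg g1, zero_mul, if_neg]
      intro g3
      exact g1 (k3.1 g3).1
  · intro σ τ hτ
    exact absurd (joinCol_surjective86 x.1 τ) hτ

end Vale.Agent.P162.P2
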