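import Vale.Agent.P162.P2.Defs
import Vale.Agent.P162.Comb.MatCount

namespace Vale.Agent.P162.P2

open Finset Vale.Agent.P162 Vale.Agent.P162.KL

variable {S : Type} [Fintype S] [DecidableEq S]

private lemma cross_isTr (μ : Equiv.Perm S) (τ : S → Bool) :
    IsTr μ (univ.filter (fun a => τ a = true)) ↔ ∀ a, τ (μ a) = !τ a := by
  unfold IsTr
  simp only [mem_filter, mem_univ, true_and]
  constructor
  · intro h a
    have := h a
    cases h1 : τ a <;> cases h2 : τ (μ a) <;> simp_all
  · intro h a
    rw [h a]
    cases τ a <;> simp

private lemma cross_card_eq (σ : Equiv.Perm S) (τ : S → Bool) (h : ∀ a, τ (σ a) = !τ a) :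
    (univ.filter (fun a => τ a = true)).card = (univ.filter (fun a => τ a = false)).card := by
  apply Finset.card_bij (fun a _ => σ a)
  · intro a ha
    simp only [mem_filter, mem_univ, true_and] at ha ⊢
    rw [h a, ha]; rfl
  · intro a _ b _ hab
    exact σ.injective hab
  · intro b hb
    simp only [mem_filter, mem_univ, true_and] at hb
    refine ⟨σ.symm b, ?_, by simp⟩
    simp only [mem_filter, mem_univ, true_and]
    have h2 := h (σ.symm b)
    rw [Equiv.apply_symm_apply, hb] at h2
    revert h2
    cases τ (σ.symm b) <;> simp

/-- matchings crossing a colouring `τ` = bijections between the two colour classes: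
`M!` of them if `τ` is balanced, none otherwise -/
theorem cross_count (M : ℕ) (hS : Fintype.card S = 2 * M) (τ : S → Bool) :
    ((univ.filter (fun σ : Mat S => ∀ a, τ (σ.1 a) = !τ a)).card : ℝ) =
      if (univ.filter (fun a => τ a = true)).card = M then (M.factorial : ℝ) else 0 := by
  have hsum : (univ.filter (fun a => τ a = true)).card
      + (univ.filter (fun a => τ a = false)).card = 2 * M := by
    rw [← hS, ← Finset.card_univ (α := S)]
    have h0 := Finset.card_filter_add_card_filter_not (s := (univ : Finset S))
      (fun a => τ a = true)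
    simpa using h0
  split_ifs with hM
  · have h1 := card_mat_tr (univ.filter (fun a => τ a = true)) (by rw [hM, hS])
    rw [hM] at h1
    rw [← h1]
    norm_cast
    apply Finset.card_bij (fun σ _ => σ.1)
    · intro σ hσ
      simp only [mem_filter, mem_univ, true_and] at hσ ⊢
      exact ⟨σ.2, (cross_isTr σ.1 τ).2 hσ⟩
    · intro a _ b _ hab
      exact Subtype.ext hab
    · intro μ hμ
      simp only [mem_filter, mem_univ, true_and] at hμ
      exact ⟨⟨μ, hμ.1⟩, by
        simp only [mem_filter, mem_univ, true_and]
        exact (cross_isTr μ τ).1 hμ.2, rfl⟩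
  · have hE : univ.filter (fun σ : Mat S => ∀ a, τ (σ.1 a) = !τ a) = ∅ := by
      rw [Finset.filter_eq_empty_iff]
      intro σ _ hσ
      have := cross_card_eq σ.1 τ hσ
      omega
    rw [hE]
    simp

end Vale.Agent.P162.P2
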