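import Vale.Agent.P162.KL.Tensor
import Vale.Agent.P162.KL.PairLaw
import Vale.Agent.P162.KL.SizeLaws

/-!
# P162 (P2) : matchings, closed sets, the channels of board 298.  Definitions only.
-/

namespace Vale.Agent.P162.P2

open Finset Vale.Agent.P162 Vale.Agent.P162.KL

/-- perfect matchings of `S` = fixed point free involutions -/
abbrev Mat (S : Type) [Fintype S] [DecidableEq S] :=
  {σ : Equiv.Perm S // (∀ x, σ (σ x) = x) ∧ ∀ x, σ x ≠ x}

/-- number of perfect matchings of an `n`-set -/
noncomputable def mc (n : ℕ) : ℝ := (Fintype.card (Mat (Fin n)) : ℝ)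

/-- number of even subsets of an `n`-set -/
noncomputable def evc (n : ℕ) : ℝ := if n = 0 then 1 else 2 ^ (n - 1)

section

variable {S : Type} [Fintype S] [DecidableEq S]

/-- `z` is closed under `σ` (a union of edges when `σ` is a matching) -/
abbrev Cl (σ : Equiv.Perm S) (z : Finset S) : Prop := ∀ a ∈ z, σ a ∈ z

end

section

variable (S : Type) [Fintype S] [DecidableEq S]

/-- the reverse-defined channel matching -> closed even set, with output law `x ↦ w |x|`:
given the output `x` the matching is uniform on matchings(x) x matchings(x^c) -/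
noncomputable def Wc (w : ℕ → ℝ) (σ : Mat S) (x : Ev S) : ℝ :=
  if Cl σ.1 x.1 then
    mc (Fintype.card S) * w x.1.card / (mc x.1.card * mc (Fintype.card S - x.1.card))
  else 0

/-- the channel matching -> uniform transversal (as a colouring) -/
noncomputable def Tr (σ : Mat S) (τ : S → Bool) : ℝ :=
  if ∀ a, τ (σ.1 a) = !τ a then 1 / 2 ^ (Fintype.card S / 2) else 0

end

/-- size weight of the uniform law on even subsets of an `N`-set -/
noncomputable def wU (N : ℕ) (_k : ℕ) : ℝ := 1 / evc N

/-- size weight of `nuw` (PairLaw) -/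
noncomputable def wNu (N : ℕ) (k : ℕ) : ℝ :=
  (if k = 0 ∨ k = N then (2 : ℝ) ^ N / 2 else (2 : ℝ) ^ N / 4) /
    ((2 : ℝ) ^ N * (2 : ℝ) ^ N / 8 + (2 : ℝ) ^ N / 2)

/-- size weight of the hypergeometric law: `|x| = 2a` has total mass `pH M a` -/
noncomputable def wH (M : ℕ) (k : ℕ) : ℝ := pH M (k / 2) / ((2 * M).choose k : ℝ)

/-- SDPI with constant `η` for matching -> uniform even closed set, all sets of size `2M` -/
def ZS (M : ℕ) (η : ℝ) : Prop :=
  ∀ (S : Type) [Fintype S] [DecidableEq S], Fintype.card S = 2 * M → SDPI (Wc S (wU (2 * M))) η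

/-- SDPI with constant `η` for matching -> transversal, all sets of size `2M` -/
def TS (M : ℕ) (η : ℝ) : Prop :=
  ∀ (S : Type) [Fintype S] [DecidableEq S], Fintype.card S = 2 * M → SDPI (Tr S) η

/-- composition of a channel with a second stage that may depend on the first output -/
noncomputable def K12 {A X Y : Type*} (K1 : A → X → ℝ) (K2 : X → A → Y → ℝ) :
    A → X × Y → ℝ := fun a xy => K1 a xy.1 * K2 xy.1 a xy.2

/-- conditional SDPI at the first output `x` (homogeneous form, on the fibre `K1 a x ≠ 0`) -/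
def CondS {A X Y : Type*} [Fintype A] [Fintype Y] (K1 : A → X → ℝ) (K2 : X → A → Y → ℝ) (x : X)
    (η : ℝ) : Prop :=
  ∀ f : A → ℝ, (∀ a, 0 ≤ f a) → (∀ a, K1 a x = 0 → f a = 0) →
    ∑ y, (∑ a, f a * K2 x a y) *
        Real.log ((∑ a, f a * K2 x a y) /
          ((∑ a, f a) * ∑ a, (K1 a x / ∑ a', K1 a' x) * K2 x a y)) ≤
      η * ∑ a, f a * Real.log (f a / ((∑ a, f a) * (K1 a x / ∑ a', K1 a' x)))

end Vale.Agent.P162.P2
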