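import Vale.Agent.P162.P2.Defs

namespace Vale.Agent.P162.P2

open Finset Vale.Agent.P162 Vale.Agent.P162.KL

/-- an SDPI passes to inputs `a` that act only through `g a`, when all fibres of `g` have the same
size (so that `g` maps the uniform law to the uniform law); data processing for `g`. -/
theorem SDPI_of_fibres {A A' B : Type*} [Fintype A] [Fintype A'] [Fintype B] [DecidableEq A']
    (g : A → A') (c : ℕ) (hc : ∀ a', (univ.filter (fun a => g a = a')).card = c)
    (K' : A' → B → ℝ) (η : ℝ) (hη : 0 ≤ η) (h : SDPI K' η) : SDPI (fun a => K' (g a)) η := by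
  intro p hp
  have hne : Nonempty A := by
    by_contra hcon
    rw [not_nonempty_iff] at hcon
    have := hp.2
    simp at this
  obtain ⟨a0⟩ := hne
  have hne' : Nonempty A' := ⟨g a0⟩
  have hne : Nonempty A := ⟨a0⟩
  have unif_pos : ∀ a : A, 0 < unif A a := by
    intro a
    unfold unif
    have : 0 < (Fintype.card A : ℝ) := by exact_mod_cast Fintype.card_pos
    positivity
  have hcpos : 0 < c := by
    rw [← hc (g a0)]
    exact Finset.card_pos.mpr ⟨a0, by simp⟩
  have hcard : (Fintype.card A : ℝ) = c * Fintype.card A' := by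
    have h1 : Fintype.card A = ∑ a' : A', (univ.filter (fun a => g a = a')).card := by
      rw [← Finset.card_univ]
      exact Finset.card_eq_sum_card_fiberwise (fun a _ => Finset.mem_univ _)
    simp only [hc, Finset.sum_const, Finset.card_univ, smul_eq_mul] at h1
    rw [h1]
    push_cast
    ring
  have hpush : ∀ (q : A → ℝ), push (fun a => K' (g a)) q =
      push K' (fun a' => ∑ a ∈ univ.filter (fun a => g a = a'), q a) := by
    intro q
    funext b
    unfold push
    rw [← Finset.sum_fiberwise Finset.univ g]
    refine Finset.sum_congr rfl fun a' _ => ?_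
    rw [Finset.sum_mul]
    refine Finset.sum_congr rfl fun a ha => ?_
    simp only [(Finset.mem_filter.1 ha).2]
  have hu : ∀ a', ∑ a ∈ univ.filter (fun a => g a = a'), unif A a = unif A' a' := by
    intro a'
    unfold unif
    rw [Finset.sum_const, hc, nsmul_eq_mul, hcard]
    have h1 : (c : ℝ) ≠ 0 := by exact_mod_cast hcpos.ne'
    have h2 : (Fintype.card A' : ℝ) ≠ 0 := by exact_mod_cast Fintype.card_ne_zero
    field_simp
  set p' : A' → ℝ := fun a' => ∑ a ∈ univ.filter (fun a => g a = a'), p a with hp'def
  have hp' : IsLaw p' := by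
    refine ⟨fun a' => Finset.sum_nonneg fun a _ => hp.1 a, ?_⟩
    rw [hp'def, Finset.sum_fiberwise Finset.univ g p]
    exact hp.2
  have hdpi : kl p' (unif A') ≤ kl p (unif A) := by
    unfold kl
    rw [← Finset.sum_fiberwise Finset.univ g (fun a => p a * Real.log (p a / unif A a))]
    refine Finset.sum_le_sum fun a' _ => ?_
    have := log_sum (univ.filter (fun a => g a = a')) p (unif A) (fun a _ => hp.1 a)
      (fun a _ => (unif_pos a).le) (fun a _ h0 => absurd h0 (unif_pos a).ne')
    rw [hu a'] at this
    exact this
  rw [hpush p, hpush (unif A)]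
  have hu' : (fun a' => ∑ a ∈ univ.filter (fun a => g a = a'), unif A a) = unif A' := funext hu
  rw [hu']
  exact (h p' hp').trans (mul_le_mul_of_nonneg_left hdpi hη)

end Vale.Agent.P162.P2
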