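import Vale.Agent.P162.P2.WcKl
import Vale.Agent.P162.P2.WcChan

/-! # P162 (P2) STEP T, part B: hypergeometric size law against the uniform one -/

namespace Vale.Agent.P162.P2

open Finset Vale.Agent.P162 Vale.Agent.P162.KL

variable {S : Type} [Fintype S] [DecidableEq S]

/-- `kl_Wc` for `wH` and `wU`.  On the window `wH ≤ κ wU` and `Ek ≥ 0` (`Ek_nonneg`); off the
window `Ek (2a) ≤ C(2M,2a) * kl p unif` (`Ek_le`); the window part of the `wU` sum is at most the
whole sum (`Ek_nonneg`, `wU_nonneg`). -/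
theorem kl_wH_le (M : ℕ) (hS : Fintype.card S = 2 * M) (W : ℕ → Prop) [DecidablePred W]
    (κ δ : ℝ) (hκ : 0 ≤ κ)
    (hW : ∀ n, n ≤ M → W n → wH M (2 * n) ≤ κ * wU (2 * M) (2 * n))
    (hδ : ∑ n ∈ (range (M + 1)).filter (fun n : ℕ => ¬ W n),
      ((2 * M).choose (2 * n) : ℝ) * wH M (2 * n) ≤ δ)
    (p : Mat S → ℝ) (hp : IsLaw p) :
    kl (push (Wc S (wH M)) p) (push (Wc S (wH M)) (unif (Mat S))) ≤
      κ * kl (push (Wc S (wU (2 * M))) p) (push (Wc S (wU (2 * M))) (unif (Mat S))) +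
        δ * kl p (unif (Mat S)) := by
  have hD : 0 ≤ kl p (unif (Mat S)) := Tz.kl_unif_nonneg hp
  rw [kl_Wc M hS (wH M) p, kl_Wc M hS (wU (2 * M)) p]
  rw [← Finset.sum_filter_add_sum_filter_not (range (M + 1)) W]
  have h1 : ∑ a ∈ (range (M + 1)).filter W, wH M (2 * a) * Ek S p (2 * a) ≤
      κ * ∑ a ∈ range (M + 1), wU (2 * M) (2 * a) * Ek S p (2 * a) := by
    calc ∑ a ∈ (range (M + 1)).filter W, wH M (2 * a) * Ek S p (2 * a)
        ≤ ∑ a ∈ (range (M + 1)).filter W, κ * (wU (2 * M) (2 * a) * Ek S p (2 * a)) := by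
          refine Finset.sum_le_sum fun a ha => ?_
          have ha' := Finset.mem_filter.1 ha
          have h := hW a (Nat.lt_succ_iff.1 (Finset.mem_range.1 ha'.1)) ha'.2
          have hE := Ek_nonneg M hS p hp (2 * a)
          have h3 := mul_le_mul_of_nonneg_right h hE
          linarith
      _ ≤ ∑ a ∈ range (M + 1), κ * (wU (2 * M) (2 * a) * Ek S p (2 * a)) := by
          refine Finset.sum_le_sum_of_subset_of_nonneg (Finset.filter_subset _ _) fun a _ _ => ?_
          exact mul_nonneg hκ (mul_nonneg (wU_nonneg _ _) (Ek_nonneg M hS p hp _))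
      _ = κ * ∑ a ∈ range (M + 1), wU (2 * M) (2 * a) * Ek S p (2 * a) := by
          rw [Finset.mul_sum]
  have h2 : ∑ a ∈ (range (M + 1)).filter (fun a => ¬ W a), wH M (2 * a) * Ek S p (2 * a) ≤
      δ * kl p (unif (Mat S)) := by
    calc ∑ a ∈ (range (M + 1)).filter (fun a => ¬ W a), wH M (2 * a) * Ek S p (2 * a)
        ≤ ∑ a ∈ (range (M + 1)).filter (fun a => ¬ W a),
            (((2 * M).choose (2 * a) : ℝ) * wH M (2 * a)) * kl p (unif (Mat S)) := by
          refine Finset.sum_le_sum fun a ha => ?_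
          have ha' := Finset.mem_filter.1 ha
          have h := Ek_le M hS p hp a (Nat.lt_succ_iff.1 (Finset.mem_range.1 ha'.1))
          have hw := wH_nonneg M (2 * a)
          have h3 := mul_le_mul_of_nonneg_left h hw
          linarith
      _ = (∑ a ∈ (range (M + 1)).filter (fun a => ¬ W a),
            ((2 * M).choose (2 * a) : ℝ) * wH M (2 * a)) * kl p (unif (Mat S)) := by
          rw [Finset.sum_mul]
      _ ≤ δ * kl p (unif (Mat S)) := mul_le_mul_of_nonneg_right hδ hD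
  linarith

/-- `kl_Wc`, `wH_nonneg`, `Ek_nonneg` -/
theorem kl_wH_nonneg (M : ℕ) (hS : Fintype.card S = 2 * M) (p : Mat S → ℝ) (hp : IsLaw p) :
    0 ≤ kl (push (Wc S (wH M)) p) (push (Wc S (wH M)) (unif (Mat S))) := by
  rw [kl_Wc M hS (wH M) p]
  exact Finset.sum_nonneg fun a _ => mul_nonneg (wH_nonneg M _) (Ek_nonneg M hS p hp _)

end Vale.Agent.P162.P2
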