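import Vale.Agent.P162.P2.CondZT
import Vale.Agent.P162.P2.TwoStage
import Vale.Agent.P162.P2.WcChan

/-! # P162 (P2) STEP T, part C: the two-stage bound -/

namespace Vale.Agent.P162.P2

open Finset Vale.Agent.P162 Vale.Agent.P162.KL

variable {S : Type} [Fintype S] [DecidableEq S]

theorem wH_pos {M k : ℕ} (hk : k ≤ 2 * M) : 0 < wH M k := by
  unfold wH
  have h1 : 0 < pH M (k / 2) := pH_pos (by omega)
  have h2 : (0 : ℝ) < ((2 * M).choose k : ℝ) := by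
    exact_mod_cast Nat.choose_pos hk
  exact div_pos h1 h2

/-- `two_stage` with `K1 = Wc S (wH M)`, `K2 = KT2 S`, `Win x := W (|x|/2)`,
`δ0 = ∑ n ∉ W, C(2M,2n) wH (2n)` (`Wc_sum_filter`), `δ0 ≤ δ`, `condS_T` (with `wH_pos`),
`Tr_isChan`, `Wc_isChan'` + `sum_choose_wH`; `0 ≤ kl p unif` by `kl_nonneg`. -/
theorem T_two_stage (M : ℕ) (hS : Fintype.card S = 2 * M)
    (W : ℕ → Prop) [DecidablePred W] (sg δ : ℝ) (hsg : 0 ≤ sg)
    (hT : ∀ n, n ≤ M → W n → TS n sg ∧ TS (M - n) sg)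
    (hδ : ∑ n ∈ (range (M + 1)).filter (fun n : ℕ => ¬ W n),
      ((2 * M).choose (2 * n) : ℝ) * wH M (2 * n) ≤ δ)
    (p : Mat S → ℝ) (hp : IsLaw p) :
    kl (push (K12 (Wc S (wH M)) (KT2 S)) p)
        (push (K12 (Wc S (wH M)) (KT2 S)) (unif (Mat S))) ≤
      kl (push (Wc S (wH M)) p) (push (Wc S (wH M)) (unif (Mat S))) +
        sg * (kl p (unif (Mat S)) -
          kl (push (Wc S (wH M)) p) (push (Wc S (wH M)) (unif (Mat S)))) +
        δ * kl p (unif (Mat S)) := by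
  have hK1 : IsChan (Wc S (wH M)) := Wc_isChan' hS _ (wH_nonneg M) (sum_choose_wH M)
  have hTr := Tr_isChan M hS
  have hδ0 : ∀ σ : Mat S,
      ∑ x ∈ univ.filter (fun x : Ev S => ¬ W (x.1.card / 2)), Wc S (wH M) σ x
      = ∑ n ∈ (range (M + 1)).filter (fun n : ℕ => ¬ W n),
        ((2 * M).choose (2 * n) : ℝ) * wH M (2 * n) := by
    intro σ
    rw [Wc_sum_filter hS (wH M) σ (fun k => ¬ W (k / 2))]
    apply Finset.sum_congr _ (fun _ _ => rfl)
    apply Finset.filter_congr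
    intro n _
    have : 2 * n / 2 = n := by omega
    rw [this]
  have hK2nn : ∀ (x : Ev S) (σ : Mat S) (τ : S → Bool), 0 ≤ KT2 S x σ τ :=
    fun x σ τ => (hTr σ).1 τ
  have hK2 : ∀ (x : Ev S) (σ : Mat S), Wc S (wH M) σ x ≠ 0 → ∑ y, KT2 S x σ y = 1 :=
    fun x σ _ => (hTr σ).2
  have hc : ∀ x : Ev S, W (x.1.card / 2) → CondS (Wc S (wH M)) (KT2 S) x sg := by
    intro x hx
    have hle : x.1.card ≤ 2 * M := hS ▸ Finset.card_le_univ x.1
    obtain ⟨t1, t2⟩ := hT (x.1.card / 2) (by omega) hx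
    exact condS_T M hS _ x (wH_pos hle) sg t1 t2
  have h2 := two_stage (Wc S (wH M)) (KT2 S) hK1 hK2nn hK2 (fun x : Ev S => W (x.1.card / 2)) _
    sg hsg hδ0 hc p hp
  have hD : 0 ≤ kl p (unif (Mat S)) := Tz.kl_unif_nonneg hp
  refine h2.trans ?_
  have h3 := mul_le_mul_of_nonneg_right hδ hD
  linarith

end Vale.Agent.P162.P2
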