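import Vale.Agent.P162.P2.StepT
import Vale.Agent.P162.P2.StepTB
import Vale.Agent.P162.P2.StepTC

/-! # P162 (P2) STEP T -/

namespace Vale.Agent.P162.P2

open Finset Vale.Agent.P162 Vale.Agent.P162.KL

/-- STEP T of board 298 for a GENERAL window `W` on the half sizes. -/
theorem stepT_gen (M : ℕ) (W : ℕ → Prop) [DecidablePred W] (κ zt sg δ : ℝ) (hκ : 0 ≤ κ)
    (hsg : 0 ≤ sg) (hZ : ZS M zt)
    (hT : ∀ n, n ≤ M → W n → TS n sg ∧ TS (M - n) sg)
    (hW : ∀ n, n ≤ M → W n → wH M (2 * n) ≤ κ * wU (2 * M) (2 * n))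
    (hδ : ∑ n ∈ (range (M + 1)).filter (fun n : ℕ => ¬ W n),
      ((2 * M).choose (2 * n) : ℝ) * wH M (2 * n) ≤ δ) :
    TS M ((κ * zt + sg + 2 * δ) / 2) := by
  intro S _ _ hS p hp
  have h1 := two_T M hS p hp
  have h2 := T_two_stage M hS W sg δ hsg hT hδ p hp
  have h3 := kl_wH_le M hS W κ δ hκ hW hδ p hp
  have h4 := kl_wH_nonneg M hS p hp
  have h5 := hZ S hS p hp
  have h6 : κ * kl (push (Wc S (wU (2 * M))) p) (push (Wc S (wU (2 * M))) (unif (Mat S))) ≤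
      κ * (zt * kl p (unif (Mat S))) := mul_le_mul_of_nonneg_left h5 hκ
  have h7 : 0 ≤ sg * kl (push (Wc S (wH M)) p) (push (Wc S (wH M)) (unif (Mat S))) :=
    mul_nonneg hsg h4
  nlinarith [h1, h2, h3, h6, h7]

/-- STEP T of board 298 in the shape of `KL.assemble` (`K = 50`). -/
theorem stepT50 (M : ℕ) (hM : 2 ≤ M) (zt sg : ℝ) (hsg : 0 ≤ sg) (hZ : ZS M zt)
    (hT : ∀ n, 2 * M ≤ 5 * n → 5 * n ≤ 3 * M → TS n sg) :
    TS M ((20 / 19 * zt + sg + 50 / (M : ℝ)) / 2) := by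
  have h := stepT_gen M (fun n => 2 * M ≤ 5 * n ∧ 5 * n ≤ 3 * M) (20 / 19) zt sg (25 / (M : ℝ))
    (by norm_num) hsg hZ
    (fun n hn hw => ⟨hT n hw.1 hw.2, hT (M - n) (by omega) (by omega)⟩)
    (fun n _ hw => wH_le_wU (by omega) hw.1 hw.2)
    (by
      have h0 := pH_window_tail hM
      refine le_trans (le_of_eq ?_) h0
      refine Finset.sum_congr rfl fun n hn => ?_
      exact choose_mul_wH (by
        have := Finset.mem_range.1 (Finset.mem_filter.1 hn).1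
        omega))
  have e : (20 / 19 * zt + sg + 2 * (25 / (M : ℝ))) / 2 = (20 / 19 * zt + sg + 50 / (M : ℝ)) / 2 := by
    ring
  rw [e] at h
  exact h

end Vale.Agent.P162.P2
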