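import Vale.Agent.P162.P2.StepZ
import Vale.Agent.P162.P2.StepTFin
import Vale.Agent.P162.P2.Wrap4
import Vale.Agent.P162.Top.Wrap

/-! # P162 (P2): STEP Z + STEP T + scalar recursion + TOP = the mixing time bound -/

namespace Vale.Agent.P162.P2

open Finset Vale.Agent.P162 Vale.Agent.P162.KL

theorem const50 (M : ℕ) (hM : 51 ≤ M) (g : ℝ) (hg : 0 ≤ g) :
    (1 + 32 / (M : ℝ)) * (g + 32 / (M : ℝ)) / (1 - 32 / (M : ℝ) + g) ≤
      (1 + 50 / (M : ℝ)) * (g + 50 / (M : ℝ)) / (1 - 50 / (M : ℝ) + g) := by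
  have hMR : (51 : ℝ) ≤ M := by exact_mod_cast hM
  have hM0 : (0 : ℝ) < M := by linarith
  have h1 : 32 / (M : ℝ) ≤ 50 / (M : ℝ) := by
    apply div_le_div_of_nonneg_right (by norm_num) hM0.le
  have h2 : 50 / (M : ℝ) < 1 := by
    rw [div_lt_one hM0]; linarith
  have h3 : 0 ≤ 32 / (M : ℝ) := by positivity
  apply div_le_div₀
  · have : 0 ≤ 50 / (M : ℝ) := by positivity
    positivity
  · apply mul_le_mul (by linarith) (by linarith) (by linarith) (by linarith)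
  · linarith
  · linarith

theorem stepZ50 (M : ℕ) (hM : 51 ≤ M) (g : ℝ) (hg : 0 ≤ g)
    (hZ : ∀ n, 2 * M ≤ 5 * n → 5 * n ≤ 3 * M → ZS n g) :
    ZS M ((1 + 50 / (M : ℝ)) * (g + 50 / (M : ℝ)) / (1 - 50 / (M : ℝ) + g)) :=
  ZS_mono4 M _ _ (stepZ M (by omega) g hg hZ) (const50 M hM g hg)

/-- (B) of the interface of TOP -/
theorem sdpi_B : ∃ j0 : ℕ, ∀ j : ℕ, j0 ≤ j →
    SDPI (bitChan (2 ^ j)) ((17 / 10) / ((j : ℝ) + 1)) := by
  obtain ⟨j0, hj0⟩ := assemble ZS TS ZS_mono4 ZS_closed4 TS_mono4 TS_closed4 ZS_one4 trivT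
    50 (by norm_num) 51 (by norm_num)
    (fun M hM g hg h => stepZ50 M hM g hg h)
    (fun M hM zt sg _ hsg hZ hT => stepT50 M (by omega) zt sg hsg hZ hT)
  exact ⟨j0, fun j hj => SDPI_bitChan (2 ^ j) _ (by positivity) (hj0 j hj)⟩

/-- the Thorp shuffle of `2^(k+1)` cards mixes in `O((k+1)^(29/10))` steps -/
theorem thorp_mixing : ∃ C : ℝ, 0 < C ∧ ∀ k t : ℕ, C * ((k : ℝ) + 1) ^ (29 / 10 : ℝ) ≤ t →
    tvUnif (thorpPow (2 ^ k) t) ≤ 1 / 4 :=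
  Top.top_final_pos (fun M _ => SDPI_bitChan M (1 / 2) (by norm_num) (trivT M)) sdpi_B

end Vale.Agent.P162.P2
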