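import Vale.Agent.P162.P2.StepT
import Vale.Agent.P162.KL.Mono

/-!
# P162 (P2) : STEP T, final form (the hypothesis `stepT` of `wrap4` / `assemble`), `K = 50`
-/

namespace Vale.Agent.P162.P2

open Finset Vale.Agent.P162 Vale.Agent.P162.KL

theorem wH_pos4 {M k : ℕ} (hk : k ≤ 2 * M) : 0 < wH M k := by
  unfold wH
  have h1 : 0 < pH M (k / 2) := pH_pos (by omega)
  have h2 : (0 : ℝ) < ((2 * M).choose k : ℝ) := by exact_mod_cast Nat.choose_pos hk
  positivity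

/-- the divergence of the hypergeometric closed set against the one of the uniform closed set -/
theorem klH_le4 {S : Type} [Fintype S] [DecidableEq S] (M : ℕ) (hM : 1 ≤ M)
    (hS : Fintype.card S = 2 * M) (p : Mat S → ℝ) (hp : IsLaw p) :
    kl (push (Wc S (wH M)) p) (push (Wc S (wH M)) (unif (Mat S))) ≤
      20 / 19 * kl (push (Wc S (wU (2 * M))) p) (push (Wc S (wU (2 * M))) (unif (Mat S))) +
      (∑ n ∈ (range (M + 1)).filter (fun n : ℕ => ¬ (2 * M ≤ 5 * n ∧ 5 * n ≤ 3 * M)), pH M n) *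
        kl p (unif (Mat S)) := by
  rw [kl_Wc M hS, kl_Wc M hS, Finset.mul_sum, Finset.sum_mul, Finset.sum_filter,
    ← Finset.sum_add_distrib]
  apply Finset.sum_le_sum
  intro a ha
  have ha' : a ≤ M := Nat.lt_succ_iff.1 (Finset.mem_range.1 ha)
  have hE := Ek_nonneg M hS p hp (2 * a)
  have hD := KL.kl_unif_nonneg p hp
  by_cases hw : 2 * M ≤ 5 * a ∧ 5 * a ≤ 3 * M
  · rw [if_neg (not_not.2 hw), add_zero]
    have := wH_le_wU hM hw.1 hw.2
    calc wH M (2 * a) * Ek S p (2 * a) ≤ (20 / 19 * wU (2 * M) (2 * a)) * Ek S p (2 * a) :=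
          mul_le_mul_of_nonneg_right this hE
      _ = _ := by ring
  · rw [if_pos hw]
    have h1 := Ek_le M hS p hp a ha'
    have h2 : 0 ≤ 20 / 19 * (wU (2 * M) (2 * a) * Ek S p (2 * a)) :=
      mul_nonneg (by norm_num) (mul_nonneg (wU_nonneg _ _) hE)
    have h3 : wH M (2 * a) * Ek S p (2 * a) ≤ pH M a * kl p (unif (Mat S)) := by
      rw [← choose_mul_wH ha']
      calc wH M (2 * a) * Ek S p (2 * a)
          ≤ wH M (2 * a) * (((2 * M).choose (2 * a) : ℝ) * kl p (unif (Mat S))) :=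
            mul_le_mul_of_nonneg_left h1 (wH_nonneg _ _)
        _ = _ := by ring
    linarith

theorem klH_nonneg4 {S : Type} [Fintype S] [DecidableEq S] (M : ℕ)
    (hS : Fintype.card S = 2 * M) (p : Mat S → ℝ) (hp : IsLaw p) :
    0 ≤ kl (push (Wc S (wH M)) p) (push (Wc S (wH M)) (unif (Mat S))) := by
  rw [kl_Wc M hS]
  exact Finset.sum_nonneg fun a _ => mul_nonneg (wH_nonneg _ _) (Ek_nonneg M hS p hp _)

theorem stepT4 (M : ℕ) (hM : 2 ≤ M) (zt sg : ℝ) (_hzt : 0 ≤ zt) (hsg : 0 ≤ sg) (hZ : ZS M zt)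
    (hwin : ∀ n : ℕ, 2 * M ≤ 5 * n → 5 * n ≤ 3 * M → TS n sg) :
    TS M ((20 / 19 * zt + sg + 50 / (M : ℝ)) / 2) := by
  intro S _ _ hS p hp
  have hM0 : (0 : ℝ) < M := by exact_mod_cast (by omega : 0 < M)
  have hδ : ∀ σ : Mat S, ∑ x ∈ univ.filter (fun x : Ev S =>
      ¬ (2 * M ≤ 5 * (x.1.card / 2) ∧ 5 * (x.1.card / 2) ≤ 3 * M)), Wc S (wH M) σ x
      = ∑ n ∈ (range (M + 1)).filter (fun n : ℕ => ¬ (2 * M ≤ 5 * n ∧ 5 * n ≤ 3 * M)),
        pH M n := by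
    intro σ
    rw [Wc_sum_filter hS (wH M) σ
      (fun k => ¬ (2 * M ≤ 5 * (k / 2) ∧ 5 * (k / 2) ≤ 3 * M))]
    have e : (range (M + 1)).filter
        (fun n : ℕ => ¬ (2 * M ≤ 5 * (2 * n / 2) ∧ 5 * (2 * n / 2) ≤ 3 * M))
        = (range (M + 1)).filter (fun n : ℕ => ¬ (2 * M ≤ 5 * n ∧ 5 * n ≤ 3 * M)) := by
      apply Finset.filter_congr
      intro n _
      have : 2 * n / 2 = n := by omega
      rw [this]
    rw [e]
    apply Finset.sum_congr rfl
    intro n hn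
    exact choose_mul_wH (Nat.lt_succ_iff.1 (Finset.mem_range.1 (Finset.mem_filter.1 hn).1))
  have hTr := Tr_isChan (S := S) M hS
  have hc : ∀ x : Ev S, (2 * M ≤ 5 * (x.1.card / 2) ∧ 5 * (x.1.card / 2) ≤ 3 * M) →
      CondS (Wc S (wH M)) (KT2 S) x sg := by
    intro x hx
    have hle : x.1.card ≤ 2 * M := by rw [← hS]; exact Finset.card_le_univ _
    exact condS_T M hS _ x (wH_pos4 hle) sg (hwin _ hx.1 hx.2) (hwin _ (by omega) (by omega))
  have h2 := two_stage (Wc S (wH M)) (KT2 S) (WcH_isChan M hS) (fun _ σ τ => (hTr σ).1 τ)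
    (fun _ σ _ => (hTr σ).2)
    (fun x : Ev S => 2 * M ≤ 5 * (x.1.card / 2) ∧ 5 * (x.1.card / 2) ≤ 3 * M) _ sg hsg hδ hc p hp
  have h1 := two_T M hS p hp
  have h3 := klH_le4 M (by omega) hS p hp
  have h4 := klH_nonneg4 M hS p hp
  have h5 := hZ S hS p hp
  have hD := KL.kl_unif_nonneg p hp
  have h6 := pH_window_tail (M := M) hM
  have h7 : (∑ n ∈ (range (M + 1)).filter (fun n : ℕ => ¬ (2 * M ≤ 5 * n ∧ 5 * n ≤ 3 * M)),
      pH M n) * kl p (unif (Mat S)) ≤ 25 / (M : ℝ) * kl p (unif (Mat S)) :=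
    mul_le_mul_of_nonneg_right h6 hD
  have h8 : 0 ≤ sg * kl (push (Wc S (wH M)) p) (push (Wc S (wH M)) (unif (Mat S))) :=
    mul_nonneg hsg h4
  have e : (20 / 19 * zt + sg + 50 / (M : ℝ)) / 2 * kl p (unif (Mat S))
      = (20 / 19 * (zt * kl p (unif (Mat S))) + sg * kl p (unif (Mat S))
        + 2 * (25 / (M : ℝ) * kl p (unif (Mat S)))) / 2 := by ring
  rw [e]
  have h2' : kl (push (KKT S M) p) (push (KKT S M) (unif (Mat S))) ≤ _ := h2
  nlinarith

end Vale.Agent.P162.P2
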