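import Vale.Agent.P162.P2.StepZB
import Vale.Agent.P162.P2.TwoStage
import Vale.Agent.P162.P2.WcChan
import Vale.Agent.P162.KL.Mono

/-!
# P162 (P2) : STEP Z, final form (the hypothesis `stepZ` of `wrap4` / `assemble`), `K = 32`
-/

namespace Vale.Agent.P162.P2

open Finset Vale.Agent.P162 Vale.Agent.P162.KL

theorem stepZ_arith4 (A B D g δ κ c : ℝ) (hg : 0 ≤ g) (hD : 0 ≤ D) (hκ1 : κ < 1)
    (hδ : δ ≤ κ) (hc0 : 0 ≤ c) (hc : c ≤ κ)
    (h1 : (1 - κ / 2) * (2 * A) ≤ B) (h2 : B ≤ A + g * (D - A) + δ * D) :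
    (1 + c) * A ≤ (1 + κ) * (g + κ) / (1 - κ + g) * D := by
  have hκ0 : 0 ≤ κ := hc0.trans hc
  have hden : 0 < 1 - κ + g := by linarith
  have h3 : A * (1 - κ + g) ≤ (g + κ) * D := by nlinarith
  have h4 : A ≤ (g + κ) * D / (1 - κ + g) := by rwa [le_div_iff₀ hden]
  have h5 : 0 ≤ (g + κ) * D / (1 - κ + g) := by positivity
  calc (1 + c) * A ≤ (1 + c) * ((g + κ) * D / (1 - κ + g)) :=
        mul_le_mul_of_nonneg_left h4 (by linarith)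
    _ ≤ (1 + κ) * ((g + κ) * D / (1 - κ + g)) := mul_le_mul_of_nonneg_right (by linarith) h5
    _ = (1 + κ) * (g + κ) / (1 - κ + g) * D := by ring

theorem stepZ4 (M : ℕ) (hM : 33 ≤ M) (g : ℝ) (hg : 0 ≤ g)
    (hwin : ∀ n : ℕ, 2 * M ≤ 5 * n → 5 * n ≤ 3 * M → ZS n g) :
    ZS M ((1 + 32 / (M : ℝ)) * (g + 32 / (M : ℝ)) / (1 - 32 / (M : ℝ) + g)) := by
  intro S _ _ hS p hp
  have hMR : (33 : ℝ) ≤ M := by exact_mod_cast hM
  have hM0 : (0 : ℝ) < M := by linarith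
  have hK1 : IsChan (Wc S (wNu (2 * M))) :=
    Wc_isChan M hS _ (wNu_nonneg _) (sum_choose_wNu (by omega))
  have hδ : ∀ σ : Mat S, ∑ x ∈ univ.filter (fun x : Ev S =>
      ¬ (2 * M ≤ 5 * (x.1.card / 2) ∧ 5 * (x.1.card / 2) ≤ 3 * M)), Wc S (wNu (2 * M)) σ x
      = ∑ n ∈ (range (M + 1)).filter (fun n : ℕ => ¬ (2 * M ≤ 5 * n ∧ 5 * n ≤ 3 * M)),
        ((2 * M).choose (2 * n) : ℝ) * wNu (2 * M) (2 * n) := by
    intro σ
    rw [Wc_sum_filter hS (wNu (2 * M)) σ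
      (fun k => ¬ (2 * M ≤ 5 * (k / 2) ∧ 5 * (k / 2) ≤ 3 * M))]
    apply Finset.sum_congr _ (fun _ _ => rfl)
    apply Finset.filter_congr
    intro n _
    have : 2 * n / 2 = n := by omega
    rw [this]
  have hK2 : ∀ (x : Ev S) (σ : Mat S), Wc S (wNu (2 * M)) σ x ≠ 0 → ∑ y, KZ2 S x σ y = 1 := by
    intro x σ h
    apply KZ2_sum M hS x σ
    by_contra hc
    apply h
    unfold Wc
    rw [if_neg hc]
  have hc : ∀ x : Ev S, (2 * M ≤ 5 * (x.1.card / 2) ∧ 5 * (x.1.card / 2) ≤ 3 * M) →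
      CondS (Wc S (wNu (2 * M))) (KZ2 S) x g := by
    intro x hx
    exact condS_Z M hS _ x (wNu_pos _ _) g (hwin _ hx.1 hx.2)
      (hwin _ (by omega) (by omega))
  have h2 := two_stage (Wc S (wNu (2 * M))) (KZ2 S) hK1 KZ2_nonneg hK2
    (fun x : Ev S => 2 * M ≤ 5 * (x.1.card / 2) ∧ 5 * (x.1.card / 2) ≤ 3 * M) _ g hg hδ hc p hp
  have h1 := pair_BL_ineq M (by omega) hS p hp
  have h3 := kl_wU_wNu M hS p hp
  have hD := KL.kl_unif_nonneg p hp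
  have hδ25 := wNu_window_tail (M := M) (by omega)
  rw [h3]
  have hpow : (M : ℝ) ≤ (2 : ℝ) ^ (2 * M) := by
    have : M < 2 ^ (2 * M) := lt_of_le_of_lt (by omega) (Nat.lt_two_pow_self (n := 2 * M))
    exact_mod_cast this.le
  refine stepZ_arith4 _ _ _ g _ (32 / (M : ℝ)) (4 / (2 : ℝ) ^ (2 * M)) hg hD ?_ ?_ (by positivity)
    ?_ ?_ h2
  · rw [div_lt_one hM0]; linarith
  · refine hδ25.trans ?_
    gcongr
    norm_num
  · calc 4 / (2 : ℝ) ^ (2 * M) ≤ 4 / (M : ℝ) := by gcongr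
      _ ≤ 32 / (M : ℝ) := by gcongr; norm_num
  · have e : 1 - 32 / (M : ℝ) / 2 = 1 - 16 / (M : ℝ) := by ring
    rw [e]
    exact h1

end Vale.Agent.P162.P2
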