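import Vale.Agent.P162.P2.Wrap4
import Vale.Agent.P162.P2.StepZC4
import Vale.Agent.P162.P2.StepTC4

/-!
# P162 : the mixing time bound `t_mix(2^(k+1)) = O(k^(29/10))` for the Thorp shuffle
-/

namespace Vale.Agent.P162.P2

open Finset Vale.Agent.P162 Vale.Agent.P162.KL

theorem const_mono4 (M g : ℝ) (hM : 51 ≤ M) (hg : 0 ≤ g) :
    (1 + 32 / M) * (g + 32 / M) / (1 - 32 / M + g) ≤
      (1 + 50 / M) * (g + 50 / M) / (1 - 50 / M + g) := by
  have hM0 : 0 < M := by linarith
  have h1 : 32 / M ≤ 50 / M := by gcongr; norm_num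
  have h2 : 50 / M < 1 := by rw [div_lt_one hM0]; linarith
  have h3 : 0 ≤ 32 / M := by positivity
  have hd1 : 0 < 1 - 50 / M + g := by linarith
  have hd2 : 1 - 50 / M + g ≤ 1 - 32 / M + g := by linarith
  calc (1 + 32 / M) * (g + 32 / M) / (1 - 32 / M + g)
      ≤ (1 + 50 / M) * (g + 50 / M) / (1 - 32 / M + g) := by
        apply div_le_div_of_nonneg_right _ (by linarith)
        apply mul_le_mul (by linarith) (by linarith) (by linarith) (by linarith)
    _ ≤ (1 + 50 / M) * (g + 50 / M) / (1 - 50 / M + g) := by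
        apply div_le_div_of_nonneg_left _ hd1 hd2
        apply mul_nonneg (by linarith) (by linarith)

/-- **Upper bound for the Thorp shuffle.** -/
theorem thorp_upper4 :
    ∃ C : ℝ, ∀ k t : ℕ, C * ((k : ℝ) + 1) ^ (29 / 10 : ℝ) ≤ t →
      tvUnif (thorpPow (2 ^ k) t) ≤ 1 / 4 := by
  refine wrap4 50 (by norm_num) 51 (by norm_num) ?_ ?_ trivT
  · intro M hM g hg hwin
    have hMR : (51 : ℝ) ≤ M := by exact_mod_cast hM
    exact ZS_mono4 M _ _ (stepZ4 M (by omega) g hg hwin) (const_mono4 M g hMR hg)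
  · intro M hM zt sg hzt hsg hZ hwin
    exact stepT4 M (by omega) zt sg hzt hsg hZ hwin

end Vale.Agent.P162.P2
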