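import Vale.Agent.P162.P2.IndT
import Vale.Agent.P162.P2.CondZT
import Vale.Agent.P162.P2.WcKl
import Vale.Agent.P162.P2.WcChan
import Vale.Agent.P162.P2.TwoStage

/-!
# P162 (P2) : STEP T (board 298) : the transversal channel.  `trivT` and `stepT`.
-/

set_option linter.unusedSectionVars false

namespace Vale.Agent.P162.P2

open Finset Vale.Agent.P162 Vale.Agent.P162.KL

variable {S : Type} [Fintype S] [DecidableEq S]

/-- the two-stage channel of STEP T -/
noncomputable abbrev KKT (S : Type) [Fintype S] [DecidableEq S] (M : ℕ) :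
    Mat S → Ev S × (S → Bool) → ℝ := K12 (Wc S (wH M)) (KT2 S)

theorem WcH_isChan (M : ℕ) (hS : Fintype.card S = 2 * M) : IsChan (Wc S (wH M)) :=
  Wc_isChan M hS (wH M) (wH_nonneg M) (sum_choose_wH M)

theorem KKT_isChan (M : ℕ) (hS : Fintype.card S = 2 * M) : IsChan (KKT S M) := by
  intro σ
  have h1 := WcH_isChan (S := S) M hS σ
  have h2 := Tr_isChan (S := S) M hS σ
  refine ⟨fun zt => mul_nonneg (h1.1 _) (h2.1 _), ?_⟩
  rw [Fintype.sum_prod_type]
  simp only [KKT, K12, KT2]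
  simp_rw [← Finset.mul_sum, h2.2, mul_one]
  exact h1.2

lemma flipOut_flipOut (z : Finset S) (τ : S → Bool) : flipOut z (flipOut z τ) = τ := by
  funext a
  simp only [flipOut]
  by_cases h : a ∈ z <;> simp [h]

/-- flipping a transversal outside a closed set gives a transversal -/
lemma tr_flipOut (σ : Mat S) (z : Finset S) (hz : Cl σ.1 z) (τ : S → Bool) :
    (∀ a, flipOut z τ (σ.1 a) = !flipOut z τ a) ↔ ∀ a, τ (σ.1 a) = !τ a := by
  have hz' := (cl_iff σ z).1 hz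
  constructor
  · intro h a
    have := h a
    simp only [flipOut] at this
    by_cases ha : a ∈ z
    · have h2 : σ.1 a ∈ z := (hz' a).2 ha
      simpa [ha, h2] using this
    · have h2 : σ.1 a ∉ z := fun hh => ha ((hz' a).1 hh)
      simpa [ha, h2] using this
  · intro h a
    simp only [flipOut]
    by_cases ha : a ∈ z
    · have h2 : σ.1 a ∈ z := (hz' a).2 ha
      simp [ha, h2, h a]
    · have h2 : σ.1 a ∉ z := fun hh => ha ((hz' a).1 hh)
      simp [ha, h2, h a]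

lemma Wc_mul_Tr_flipOut (w : ℕ → ℝ) (σ : Mat S) (z : Ev S) (τ : S → Bool) :
    Wc S w σ z * Tr S σ (flipOut z.1 τ) = Wc S w σ z * Tr S σ τ := by
  by_cases hz : Cl σ.1 z.1
  · congr 1
    unfold Tr
    have := tr_flipOut σ z.1 hz τ
    by_cases h : ∀ a, τ (σ.1 a) = !τ a
    · rw [if_pos h, if_pos (this.2 h)]
    · rw [if_neg h, if_neg (fun hh => h (this.1 hh))]
  · unfold Wc
    rw [if_neg hz, zero_mul, zero_mul]

theorem KKT_marg1 (M : ℕ) (hS : Fintype.card S = 2 * M) (σ : Mat S) (b : S → Bool) :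
    ∑ zt ∈ univ.filter (fun zt : Ev S × (S → Bool) => zt.2 = b), KKT S M σ zt = Tr S σ b := by
  have h1 := WcH_isChan (S := S) M hS σ
  rw [Finset.sum_filter, Fintype.sum_prod_type]
  simp only [KKT, K12, KT2]
  have : ∀ z : Ev S, ∑ τ : S → Bool, (if τ = b then Wc S (wH M) σ z * Tr S σ τ else 0)
      = Wc S (wH M) σ z * Tr S σ b := by
    intro z
    rw [Finset.sum_ite_eq' univ b]
    simp
  simp_rw [this]
  rw [← Finset.sum_mul, h1.2, one_mul]

theorem KKT_marg2 (M : ℕ) (hS : Fintype.card S = 2 * M) (σ : Mat S) (b : S → Bool) :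
    ∑ zt ∈ univ.filter (fun zt : Ev S × (S → Bool) => flipOut zt.1.1 zt.2 = b), KKT S M σ zt
      = Tr S σ b := by
  have h1 := WcH_isChan (S := S) M hS σ
  rw [Finset.sum_filter, Fintype.sum_prod_type]
  simp only [KKT, K12, KT2]
  have : ∀ z : Ev S, ∑ τ : S → Bool,
      (if flipOut z.1 τ = b then Wc S (wH M) σ z * Tr S σ τ else 0)
      = Wc S (wH M) σ z * Tr S σ b := by
    intro z
    have e : ∀ τ : S → Bool, (flipOut z.1 τ = b) ↔ τ = flipOut z.1 b := by
      intro τ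
      constructor
      · rintro rfl; rw [flipOut_flipOut]
      · rintro rfl; rw [flipOut_flipOut]
    simp_rw [e]
    rw [Finset.sum_ite_eq' univ (flipOut z.1 b)]
    simp only [mem_univ, if_true]
    exact Wc_mul_Tr_flipOut _ σ z b
  simp_rw [this]
  rw [← Finset.sum_mul, h1.2, one_mul]

/-- `2 D(T) ≤ D(Z, T)` -/
theorem two_T (M : ℕ) (hS : Fintype.card S = 2 * M) (p : Mat S → ℝ) (hp : IsLaw p) :
    2 * kl (push (Tr S) p) (push (Tr S) (unif (Mat S)))
      ≤ kl (push (KKT S M) p) (push (KKT S M) (unif (Mat S))) := by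
  refine superadd (KKT S M) (KKT_isChan M hS) (Tr S) (fun zt => zt.2)
    (fun zt => flipOut zt.1.1 zt.2) (KKT_marg1 M hS) (KKT_marg2 M hS) ?_ p hp
  intro b1 b2
  rw [push_Tr_unif M hS, push_Tr_unif M hS]
  exact ind_T M hS b1 b2

theorem trivT (M : ℕ) : TS M (1 / 2) := by
  intro S _ _ hS p hp
  have h1 := two_T M hS p hp
  have h2 := SDPI_one (KKT S M) (KKT_isChan M hS) p hp
  linarith


/-- mass of the hypergeometric size law outside the window -/
noncomputable def dlT (M : ℕ) : ℝ :=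
  ∑ n ∈ (range (M + 1)).filter (fun n : ℕ => ¬ (2 * M ≤ 5 * n ∧ 5 * n ≤ 3 * M)), pH M n

theorem kl_unif_nonnegT64 (M : ℕ) (hS : Fintype.card S = 2 * M) (p : Mat S → ℝ) (hp : IsLaw p) :
    0 ≤ kl p (unif (Mat S)) := by
  have h1 := Ek_nonneg M hS p hp (2 * 0)
  have h2 := Ek_le M hS p hp 0 (Nat.zero_le _)
  simp only [mul_zero, Nat.choose_zero_right, Nat.cast_one, one_mul] at h1 h2
  linarith

/-- the divergence of the hypergeometric closed set against the one of the uniform closed set -/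
theorem klH_le (M : ℕ) (hM : 1 ≤ M) (hS : Fintype.card S = 2 * M) (p : Mat S → ℝ) (hp : IsLaw p) :
    kl (push (Wc S (wH M)) p) (push (Wc S (wH M)) (unif (Mat S)))
      ≤ 20 / 19 * kl (push (Wc S (wU (2 * M))) p) (push (Wc S (wU (2 * M))) (unif (Mat S)))
        + dlT M * kl p (unif (Mat S)) := by
  rw [kl_Wc M hS, kl_Wc M hS, dlT, Finset.mul_sum, Finset.sum_mul, Finset.sum_filter,
    ← Finset.sum_add_distrib]
  apply Finset.sum_le_sum
  intro a ha
  have ha' : a ≤ M := Nat.lt_succ_iff.1 (Finset.mem_range.1 ha)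
  have hE := Ek_nonneg M hS p hp (2 * a)
  by_cases hw : 2 * M ≤ 5 * a ∧ 5 * a ≤ 3 * M
  · rw [if_neg (not_not.2 hw), add_zero]
    have := wH_le_wU hM hw.1 hw.2
    calc wH M (2 * a) * Ek S p (2 * a) ≤ (20 / 19 * wU (2 * M) (2 * a)) * Ek S p (2 * a) :=
          mul_le_mul_of_nonneg_right this hE
      _ = _ := by ring
  · rw [if_pos hw]
    have h1 := Ek_le M hS p hp a ha'
    have h2 : wH M (2 * a) * Ek S p (2 * a)
        ≤ wH M (2 * a) * (((2 * M).choose (2 * a) : ℝ) * kl p (unif (Mat S))) :=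
      mul_le_mul_of_nonneg_left h1 (wH_nonneg M _)
    have h3 : wH M (2 * a) * (((2 * M).choose (2 * a) : ℝ) * kl p (unif (Mat S)))
        = pH M a * kl p (unif (Mat S)) := by
      rw [← choose_mul_wH ha']; ring
    have h4 : 0 ≤ 20 / 19 * (wU (2 * M) (2 * a) * Ek S p (2 * a)) :=
      mul_nonneg (by norm_num) (mul_nonneg (wU_nonneg _ _) hE)
    linarith

theorem wH_pos (M : ℕ) (k : ℕ) (hk : k ≤ 2 * M) : 0 < wH M k := by
  unfold wH
  have h1 : 0 < pH M (k / 2) := pH_pos (by omega)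
  have h2 : (0 : ℝ) < ((2 * M).choose k : ℝ) := Nat.cast_pos.mpr (Nat.choose_pos hk)
  exact div_pos h1 h2

/-- **STEP T.** -/
theorem stepT (M : ℕ) (hM : 2 ≤ M) (zt sg : ℝ) (_hzt : 0 ≤ zt) (hsg : 0 ≤ sg) (hZ : ZS M zt)
    (hT : ∀ n : ℕ, 2 * M ≤ 5 * n → 5 * n ≤ 3 * M → TS n sg) :
    TS M ((20 / 19 * zt + sg + 50 / M) / 2) := by
  intro S _ _ hS p hp
  have hD := kl_unif_nonnegT64 M hS p hp
  have h1 := two_T M hS p hp
  have hδ : ∀ σ : Mat S, ∑ x ∈ univ.filter (fun x : Ev S =>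
      ¬ (2 * M ≤ 5 * (x.1.card / 2) ∧ 5 * (x.1.card / 2) ≤ 3 * M)), Wc S (wH M) σ x = dlT M := by
    intro σ
    rw [Wc_sum_filter hS (wH M) σ (fun k => ¬ (2 * M ≤ 5 * (k / 2) ∧ 5 * (k / 2) ≤ 3 * M)), dlT]
    have e : ∀ n : ℕ, 2 * n / 2 = n := fun n => by omega
    simp only [e]
    apply Finset.sum_congr rfl
    intro n hn
    exact choose_mul_wH (Nat.lt_succ_iff.1 (Finset.mem_range.1 (Finset.mem_filter.1 hn).1))
  have hc : ∀ x : Ev S, (2 * M ≤ 5 * (x.1.card / 2) ∧ 5 * (x.1.card / 2) ≤ 3 * M) →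
      CondS (Wc S (wH M)) (KT2 S) x sg := by
    intro x hx
    have hle : x.1.card ≤ 2 * M := by rw [← hS]; exact Finset.card_le_univ _
    refine condS_T M hS (wH M) x (wH_pos M _ hle) sg (hT _ hx.1 hx.2) (hT _ ?_ ?_)
    · omega
    · omega
  have h2 := two_stage (Wc S (wH M)) (KT2 S) (WcH_isChan M hS)
    (fun _ σ τ => (Tr_isChan M hS σ).1 τ) (fun _ σ _ => (Tr_isChan M hS σ).2)
    (fun x : Ev S => 2 * M ≤ 5 * (x.1.card / 2) ∧ 5 * (x.1.card / 2) ≤ 3 * M) (dlT M) sg hsg hδ hc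
    p hp
  have h3 := klH_le M (by omega) hS p hp
  have h4 := hZ S hS p hp
  have h5 : dlT M ≤ 25 / (M : ℝ) := pH_window_tail hM
  have hDH : 0 ≤ kl (push (Wc S (wH M)) p) (push (Wc S (wH M)) (unif (Mat S))) := by
    rw [kl_Wc M hS]
    exact Finset.sum_nonneg (fun a _ => mul_nonneg (wH_nonneg M _) (Ek_nonneg M hS p hp _))
  set D := kl p (unif (Mat S))
  set DH := kl (push (Wc S (wH M)) p) (push (Wc S (wH M)) (unif (Mat S)))
  set DU := kl (push (Wc S (wU (2 * M))) p) (push (Wc S (wU (2 * M))) (unif (Mat S)))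
  set DT := kl (push (Tr S) p) (push (Tr S) (unif (Mat S)))
  have h6 : dlT M * D ≤ 25 / (M : ℝ) * D := mul_le_mul_of_nonneg_right h5 hD
  have h7 : 0 ≤ sg * DH := mul_nonneg hsg hDH
  have h8 : (20 / 19 * zt + sg + 50 / (M : ℝ)) / 2 * D
      = (20 / 19 * (zt * D) + sg * D + 2 * (25 / (M : ℝ) * D)) / 2 := by ring
  rw [h8]
  have h9 : kl (push (KKT S M) p) (push (KKT S M) (unif (Mat S))) ≤ DH + sg * (D - DH) + dlT M * D :=
    h2
  nlinarith

end Vale.Agent.P162.P2
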