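import Vale.Agent.P162.P2.PairSum
import Vale.Agent.P162.P2.TwoStage
import Vale.Agent.P162.P2.WcChan

namespace Vale.Agent.P162.P2

open Finset Vale.Agent.P162 Vale.Agent.P162.KL

variable {S : Type} [Fintype S] [DecidableEq S]

theorem kl_unif_nonneg {A : Type*} [Fintype A] (p : A → ℝ) (hp : IsLaw p) : 0 ≤ kl p (unif A) :=
  Tz.kl_unif_nonneg hp

/-- `two_stage` for the pair coupling with a GENERAL window `W` on the half sizes:
`Win x := W (|x|/2)`, `δ0 = ∑ n ∉ W, C(2M,2n) wNu (2n)` (`Wc_sum_filter`), `δ0 ≤ δ`,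
`condS_Z` (with `wNu_pos`), `KZ2_nonneg`, `KZ2_sum`, `Wc_isChan'` + `sum_choose_wNu`,
`kl_unif_nonneg`. -/
theorem pair_two_stage (M : ℕ) (hM : 1 ≤ M) (hS : Fintype.card S = 2 * M)
    (W : ℕ → Prop) [DecidablePred W] (g δ : ℝ) (hg : 0 ≤ g)
    (hZ : ∀ n, n ≤ M → W n → ZS n g ∧ ZS (M - n) g)
    (hδ : ∑ n ∈ (range (M + 1)).filter (fun n : ℕ => ¬ W n),
      ((2 * M).choose (2 * n) : ℝ) * wNu (2 * M) (2 * n) ≤ δ)
    (p : Mat S → ℝ) (hp : IsLaw p) :
    kl (push (K12 (Wc S (wNu (2 * M))) (KZ2 S)) p)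
        (push (K12 (Wc S (wNu (2 * M))) (KZ2 S)) (unif (Mat S))) ≤
      kl (push (Wc S (wNu (2 * M))) p) (push (Wc S (wNu (2 * M))) (unif (Mat S))) +
        g * (kl p (unif (Mat S)) -
          kl (push (Wc S (wNu (2 * M))) p) (push (Wc S (wNu (2 * M))) (unif (Mat S)))) +
        δ * kl p (unif (Mat S)) := by
  have hK1 : IsChan (Wc S (wNu (2 * M))) :=
    Wc_isChan M hS (wNu (2 * M)) (wNu_nonneg _) (sum_choose_wNu hM)
  have hfil : ∀ σ : Mat S, ∑ x ∈ univ.filter (fun x : Ev S => ¬ W (x.1.card / 2)),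
      Wc S (wNu (2 * M)) σ x =
      ∑ n ∈ (range (M + 1)).filter (fun n : ℕ => ¬ W n),
        ((2 * M).choose (2 * n) : ℝ) * wNu (2 * M) (2 * n) := by
    intro σ
    rw [Wc_sum_filter hS (wNu (2 * M)) σ (fun k => ¬ W (k / 2))]
    apply Finset.sum_congr _ (fun _ _ => rfl)
    ext n
    simp only [Finset.mem_filter]
    have : 2 * n / 2 = n := by omega
    rw [this]
  have h := two_stage (Wc S (wNu (2 * M))) (KZ2 S) hK1 (fun x σ y => KZ2_nonneg x σ y)
    (fun x σ hne => by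
      apply KZ2_sum M hS x σ
      by_contra hc
      apply hne
      unfold Wc
      rw [if_neg hc])
    (fun x : Ev S => W (x.1.card / 2)) _ g hg hfil
    (fun x hx => by
      have hle : x.1.card ≤ Fintype.card S := Finset.card_le_univ x.1
      have hz := hZ (x.1.card / 2) (by omega) hx
      exact condS_Z M hS (wNu (2 * M)) x (wNu_pos _ _) g hz.1 hz.2)
    p hp
  refine h.trans ?_
  have := mul_le_mul_of_nonneg_right hδ (kl_unif_nonneg p hp)
  linarith

end Vale.Agent.P162.P2
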