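import Vale.Agent.P162.P2.StepZB
import Vale.Agent.P162.P2.StepZC

namespace Vale.Agent.P162.P2

open Finset Vale.Agent.P162 Vale.Agent.P162.KL

/-- scalar end of STEP Z -/
theorem stepZ_scalar (M : ℕ) (hM : 33 ≤ M) (g δ a D : ℝ) (hg : 0 ≤ g)
    (h : (1 - 16 / (M : ℝ)) * (2 * a) ≤ a + g * (D - a) + δ * D) :
    (1 + 4 / (2 : ℝ) ^ (2 * M)) * a ≤
      ((1 + 4 / (2 : ℝ) ^ (2 * M)) * ((g + δ) / (1 - 32 / (M : ℝ) + g))) * D := by
  have hM0 : (33 : ℝ) ≤ M := by exact_mod_cast hM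
  have hMpos : (0 : ℝ) < M := by linarith
  have h32 : 32 / (M : ℝ) < 1 := by
    rw [div_lt_one hMpos]
    linarith
  have hc : 0 < 1 - 32 / (M : ℝ) + g := by linarith
  have he : (0 : ℝ) < 1 + 4 / (2 : ℝ) ^ (2 * M) := by positivity
  have e16 : 16 / (M : ℝ) * 2 = 32 / (M : ℝ) := by ring
  have h1 : a * (1 - 32 / (M : ℝ) + g) ≤ (g + δ) * D := by
    have e : a * (1 - 32 / (M : ℝ) + g) =
        (1 - 16 / (M : ℝ)) * (2 * a) - a + g * a := by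
      rw [← e16]
      ring
    rw [e]
    linarith
  have h2 : a ≤ (g + δ) / (1 - 32 / (M : ℝ) + g) * D := by
    rw [div_mul_eq_mul_div, le_div_iff₀ hc]
    exact h1
  calc (1 + 4 / (2 : ℝ) ^ (2 * M)) * a
      ≤ (1 + 4 / (2 : ℝ) ^ (2 * M)) * ((g + δ) / (1 - 32 / (M : ℝ) + g) * D) :=
        mul_le_mul_of_nonneg_left h2 he.le
    _ = _ := by ring

/-- STEP Z of board 298 for a GENERAL window `W` on the half sizes. -/
theorem stepZ_gen (M : ℕ) (hM : 33 ≤ M) (W : ℕ → Prop) [DecidablePred W] (g δ : ℝ) (hg : 0 ≤ g)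
    (hZ : ∀ n, n ≤ M → W n → ZS n g ∧ ZS (M - n) g)
    (hδ : ∑ n ∈ (range (M + 1)).filter (fun n : ℕ => ¬ W n),
      ((2 * M).choose (2 * n) : ℝ) * wNu (2 * M) (2 * n) ≤ δ) :
    ZS M ((1 + 4 / (2 : ℝ) ^ (2 * M)) * ((g + δ) / (1 - 32 / (M : ℝ) + g))) := by
  intro S _ _ hS p hp
  have h1 := pair_BL_ineq M (by omega) hS p hp
  have h2 := pair_two_stage M (by omega) hS W g δ hg hZ hδ p hp
  rw [kl_wU_wNu M hS p hp]
  exact stepZ_scalar M hM g δ _ _ hg (h1.trans h2)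

/-- comparison of the constants -/
theorem stepZ_const (M : ℕ) (hM : 33 ≤ M) (g : ℝ) (hg : 0 ≤ g) :
    (1 + 4 / (2 : ℝ) ^ (2 * M)) * ((g + 25 / (M : ℝ)) / (1 - 32 / (M : ℝ) + g)) ≤
      (1 + 32 / (M : ℝ)) * (g + 32 / (M : ℝ)) / (1 - 32 / (M : ℝ) + g) := by
  have hM0 : (33 : ℝ) ≤ M := by exact_mod_cast hM
  have hMpos : (0 : ℝ) < M := by linarith
  have h32 : 32 / (M : ℝ) < 1 := by
    rw [div_lt_one hMpos]
    linarith
  have hc : 0 < 1 - 32 / (M : ℝ) + g := by linarith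
  have hpow : (M : ℝ) ≤ (2 : ℝ) ^ (2 * M) := by
    have h1 : M < 2 ^ M := Nat.lt_two_pow_self
    have h2 : 2 ^ M ≤ 2 ^ (2 * M) := Nat.pow_le_pow_right (by norm_num) (by omega)
    exact_mod_cast (le_of_lt (lt_of_lt_of_le h1 h2))
  have he : 4 / (2 : ℝ) ^ (2 * M) ≤ 32 / (M : ℝ) := by
    calc 4 / (2 : ℝ) ^ (2 * M) ≤ 4 / (M : ℝ) := div_le_div_of_nonneg_left (by norm_num) hMpos hpow
      _ ≤ 32 / (M : ℝ) := div_le_div_of_nonneg_right (by norm_num) hMpos.le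
  have he0 : (0 : ℝ) ≤ 4 / (2 : ℝ) ^ (2 * M) := by positivity
  have h25 : 25 / (M : ℝ) ≤ 32 / (M : ℝ) := div_le_div_of_nonneg_right (by norm_num) hMpos.le
  have h25' : (0 : ℝ) ≤ 25 / (M : ℝ) := by positivity
  rw [← mul_div_assoc]
  apply div_le_div_of_nonneg_right _ hc.le
  apply mul_le_mul (by linarith) (by linarith) (by linarith) (by linarith)

/-- STEP Z of board 298 in the shape of `KL.assemble` (`K = 32`, `M1 = 33`). -/
theorem stepZ (M : ℕ) (hM : 33 ≤ M) (g : ℝ) (hg : 0 ≤ g)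
    (hZ : ∀ n, 2 * M ≤ 5 * n → 5 * n ≤ 3 * M → ZS n g) :
    ZS M ((1 + 32 / (M : ℝ)) * (g + 32 / (M : ℝ)) / (1 - 32 / (M : ℝ) + g)) := by
  have h := stepZ_gen M hM (fun n => 2 * M ≤ 5 * n ∧ 5 * n ≤ 3 * M) g (25 / (M : ℝ)) hg
    (fun n hn hw => ⟨hZ n hw.1 hw.2, hZ (M - n) (by omega) (by omega)⟩)
    (wNu_window_tail (by omega))
  intro S _ _ hS p hp
  refine (h S hS p hp).trans ?_
  exact mul_le_mul_of_nonneg_right (stepZ_const M hM g hg) (kl_unif_nonneg p hp)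

end Vale.Agent.P162.P2
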