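import Vale.Agent.P162.P2.Wrap4
import Vale.Agent.P162.P2.StepZ
import Vale.Agent.P162.P2.StepT

/-!
# P162 : the upper bound `t_mix(2^d) ≤ C d^(2.9)` for the Thorp shuffle: final assembly
-/

namespace Vale.Agent.P162.P2

open Finset Vale.Agent.P162 Vale.Agent.P162.KL

theorem stepZ_const50 (M : ℕ) (hM : 51 ≤ M) (g : ℝ) (hg : 0 ≤ g) :
    (1 + 32 / (M : ℝ)) * (g + 32 / (M : ℝ)) / (1 - 32 / (M : ℝ) + g) ≤
      (1 + 50 / (M : ℝ)) * (g + 50 / (M : ℝ)) / (1 - 50 / (M : ℝ) + g) := by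
  have hM' : (51 : ℝ) ≤ M := by exact_mod_cast hM
  have hMpos : (0 : ℝ) < M := by linarith
  have h50 : 50 / (M : ℝ) < 1 := by
    rw [div_lt_one hMpos]; linarith
  have h3250 : 32 / (M : ℝ) ≤ 50 / (M : ℝ) :=
    div_le_div_of_nonneg_right (by norm_num) hMpos.le
  have hp : 0 ≤ 32 / (M : ℝ) := by positivity
  have hden : 0 < 1 - 50 / (M : ℝ) + g := by linarith
  apply div_le_div₀
  · exact mul_nonneg (by linarith) (by linarith)
  · exact mul_le_mul (by linarith) (by linarith) (by linarith) (by linarith)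
  · exact hden
  · linarith

/-- **Upper bound for the mixing time of the Thorp shuffle of `2^(k+1)` cards.** -/
theorem thorp_upper : ∃ C : ℝ, ∀ k t : ℕ, C * ((k : ℝ) + 1) ^ (29 / 10 : ℝ) ≤ t →
    tvUnif (thorpPow (2 ^ k) t) ≤ 1 / 4 := by
  refine wrap4 50 (by norm_num) 51 (by norm_num) ?_ ?_ trivT
  · intro M hM g hg hZ
    exact ZS_mono4 M _ _ (stepZ M (by omega) g hg hZ) (stepZ_const50 M hM g hg)
  · intro M hM zt sg hzt hsg hZ hT
    exact stepT M (by omega) zt sg hzt hsg hZ hT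

end Vale.Agent.P162.P2
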