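import Vale.Agent.P162.P2.StepZ
import Vale.Agent.P162.P2.StepTFin
import Vale.Agent.P162.P2.Wrap4
import Vale.Agent.P162.KL.SizeGen
import Vale.Agent.P162.KL.AssembleGen
import Vale.Agent.P162.Top.FinalGen

/-!
# P162 : `t_mix (2 ^ d) ≤ C_ε d ^ (2 + ε)` for every `ε > 0`
Same proof as for the exponent `29/10`, with the window `[r M, (1 - r) M]`, `r → 1/2`.
-/

namespace Vale.Agent.P162.P2

open Finset Vale.Agent.P162 Vale.Agent.P162.KL

/-- the complement of the real window is a Chebyshev tail -/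
theorem windowR_subset (r : ℝ) (M : ℕ) [DecidablePred fun n : ℕ =>
      ¬ (r * (M : ℝ) ≤ (n : ℝ) ∧ (n : ℝ) ≤ (1 - r) * (M : ℝ))] :
    (range (M + 1)).filter (fun n : ℕ => ¬ (r * (M : ℝ) ≤ (n : ℝ) ∧ (n : ℝ) ≤ (1 - r) * (M : ℝ)))
      ⊆ (range (M + 1)).filter
        (fun a : ℕ => (1 / 2 - r) * (M : ℝ) < |(a : ℝ) - (M : ℝ) / 2|) := by
  intro n hn
  rw [Finset.mem_filter] at hn ⊢
  refine ⟨hn.1, ?_⟩
  have h := hn.2
  rw [not_and_or, not_le, not_le] at h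
  rcases h with h | h
  · rw [lt_abs]; right; linarith
  · rw [lt_abs]; left; linarith

theorem puR_tail (r : ℝ) (hr : r < 1 / 2) {M : ℕ} (hM : 2 ≤ M) [DecidablePred fun n : ℕ =>
      ¬ (r * (M : ℝ) ≤ (n : ℝ) ∧ (n : ℝ) ≤ (1 - r) * (M : ℝ))] :
    ∑ n ∈ (range (M + 1)).filter
        (fun n : ℕ => ¬ (r * (M : ℝ) ≤ (n : ℝ) ∧ (n : ℝ) ≤ (1 - r) * (M : ℝ))), pu M n
      ≤ 1 / (8 * (1 / 2 - r) ^ 2 * (M : ℝ)) :=
  le_trans (Finset.sum_le_sum_of_subset_of_nonneg (windowR_subset r M)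
    (fun a _ _ => pu_nonneg M a)) (pu_tail hM (dl := 1 / 2 - r) (by linarith))

theorem pHR_tail (r : ℝ) (hr : r < 1 / 2) {M : ℕ} (hM : 2 ≤ M) [DecidablePred fun n : ℕ =>
      ¬ (r * (M : ℝ) ≤ (n : ℝ) ∧ (n : ℝ) ≤ (1 - r) * (M : ℝ))] :
    ∑ n ∈ (range (M + 1)).filter
        (fun n : ℕ => ¬ (r * (M : ℝ) ≤ (n : ℝ) ∧ (n : ℝ) ≤ (1 - r) * (M : ℝ))), pH M n
      ≤ 1 / (4 * (1 / 2 - r) ^ 2 * (M : ℝ)) :=
  le_trans (Finset.sum_le_sum_of_subset_of_nonneg (windowR_subset r M)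
    (fun a _ _ => pH_nonneg M a)) (pH_tail hM (dl := 1 / 2 - r) (by linarith))

/-- comparison of the constants of STEP Z -/
theorem stepZ_constR (K δ : ℝ) (M : ℕ) (hK : 32 ≤ K) (hKM : K < M) (hδ0 : 0 ≤ δ)
    (hδ : δ ≤ K / (M : ℝ)) (g : ℝ) (hg : 0 ≤ g) :
    (1 + 4 / (2 : ℝ) ^ (2 * M)) * ((g + δ) / (1 - 32 / (M : ℝ) + g)) ≤
      (1 + K / (M : ℝ)) * (g + K / (M : ℝ)) / (1 - K / (M : ℝ) + g) := by
  have hM0 : (0 : ℝ) < M := by linarith
  have h1 : 32 / (M : ℝ) ≤ K / (M : ℝ) := div_le_div_of_nonneg_right hK hM0.le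
  have h2 : K / (M : ℝ) < 1 := by rw [div_lt_one hM0]; exact hKM
  have h3 : 0 ≤ 32 / (M : ℝ) := by positivity
  have hd1 : 0 < 1 - K / (M : ℝ) + g := by linarith
  have hd2 : 1 - K / (M : ℝ) + g ≤ 1 - 32 / (M : ℝ) + g := by linarith
  have hpow : (M : ℝ) ≤ (2 : ℝ) ^ (2 * M) := by
    have h : M < 2 ^ (2 * M) := lt_of_lt_of_le Nat.lt_two_pow_self
      (Nat.pow_le_pow_right (by norm_num) (by omega))
    exact_mod_cast h.le
  have h4 : 4 / (2 : ℝ) ^ (2 * M) ≤ K / (M : ℝ) := by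
    calc 4 / (2 : ℝ) ^ (2 * M) ≤ 4 / (M : ℝ) := div_le_div_of_nonneg_left (by norm_num) hM0 hpow
      _ ≤ K / (M : ℝ) := div_le_div_of_nonneg_right (by linarith) hM0.le
  have h40 : 0 ≤ 4 / (2 : ℝ) ^ (2 * M) := by positivity
  have h5 : (g + δ) / (1 - 32 / (M : ℝ) + g) ≤ (g + K / (M : ℝ)) / (1 - K / (M : ℝ) + g) :=
    div_le_div₀ (by linarith) (by linarith) hd1 hd2
  have h50 : 0 ≤ (g + δ) / (1 - 32 / (M : ℝ) + g) := div_nonneg (by linarith) (by linarith)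
  rw [mul_div_assoc]
  exact mul_le_mul (by linarith) h5 h50 (by linarith)

/-- STEP Z with the real window `[r M, (1 - r) M]`. -/
theorem stepZ_R (r K : ℝ) (hr : r < 1 / 2) (hK32 : 32 ≤ K)
    (hK : 1 / (4 * (1 / 2 - r) ^ 2) ≤ K) (M : ℕ) (hM : 33 ≤ M) (hKM : K < M) (g : ℝ) (hg : 0 ≤ g)
    (hZ : ∀ n : ℕ, r * (M : ℝ) ≤ (n : ℝ) → (n : ℝ) ≤ (1 - r) * (M : ℝ) → ZS n g) :
    ZS M ((1 + K / (M : ℝ)) * (g + K / (M : ℝ)) / (1 - K / (M : ℝ) + g)) := by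
  classical
  have hM0 : (0 : ℝ) < M := by exact_mod_cast (by omega : 0 < M)
  have hd : 0 < (1 / 2 - r) ^ 2 := by have : 0 < 1 / 2 - r := by linarith
                                      positivity
  have htail : ∑ n ∈ (range (M + 1)).filter
      (fun n : ℕ => ¬ (r * (M : ℝ) ≤ (n : ℝ) ∧ (n : ℝ) ≤ (1 - r) * (M : ℝ))),
      ((2 * M).choose (2 * n) : ℝ) * wNu (2 * M) (2 * n) ≤ 1 / (4 * (1 / 2 - r) ^ 2) / (M : ℝ) := by
    have h1 : ∑ n ∈ (range (M + 1)).filter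
        (fun n : ℕ => ¬ (r * (M : ℝ) ≤ (n : ℝ) ∧ (n : ℝ) ≤ (1 - r) * (M : ℝ))),
        ((2 * M).choose (2 * n) : ℝ) * wNu (2 * M) (2 * n) ≤
        ∑ n ∈ (range (M + 1)).filter
          (fun n : ℕ => ¬ (r * (M : ℝ) ≤ (n : ℝ) ∧ (n : ℝ) ≤ (1 - r) * (M : ℝ))), 2 * pu M n := by
      apply Finset.sum_le_sum
      intro n _
      rw [← choose_mul_wU (by omega) n]
      have := wNu_le (M := M) (by omega) (2 * n)
      have hc : (0 : ℝ) ≤ ((2 * M).choose (2 * n) : ℝ) := by positivity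
      nlinarith
    refine le_trans h1 ?_
    rw [← Finset.mul_sum]
    have := puR_tail r hr (M := M) (by omega)
    calc _ ≤ 2 * (1 / (8 * (1 / 2 - r) ^ 2 * (M : ℝ))) := by linarith
      _ = _ := by field_simp; ring
  have h := stepZ_gen M hM (fun n : ℕ => r * (M : ℝ) ≤ (n : ℝ) ∧ (n : ℝ) ≤ (1 - r) * (M : ℝ)) g
    (1 / (4 * (1 / 2 - r) ^ 2) / (M : ℝ)) hg
    (fun n hn hw => ⟨hZ n hw.1 hw.2, hZ (M - n)
      (by rw [Nat.cast_sub hn]; linarith [hw.2]) (by rw [Nat.cast_sub hn]; linarith [hw.1])⟩)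
    htail
  exact ZS_mono4 M _ _ h (stepZ_constR K _ M hK32 hKM (by positivity)
    (div_le_div_of_nonneg_right hK hM0.le) g hg)

/-- STEP T with the real window `[r M, (1 - r) M]`. -/
theorem stepT_R (r K : ℝ) (hr0 : 0 < r) (hr : r < 1 / 2)
    (hK : 1 / (2 * (1 / 2 - r) ^ 2) ≤ K) (M : ℕ) (hM : 2 ≤ M) (zt sg : ℝ) (hsg : 0 ≤ sg)
    (hZ : ZS M zt)
    (hT : ∀ n : ℕ, r * (M : ℝ) ≤ (n : ℝ) → (n : ℝ) ≤ (1 - r) * (M : ℝ) → TS n sg) :
    TS M ((Real.exp ((1 - 2 * r) ^ 2 / (2 * r)) * zt + sg + K / (M : ℝ)) / 2) := by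
  classical
  have hM0 : (0 : ℝ) < M := by exact_mod_cast (by omega : 0 < M)
  have hd : 0 < (1 / 2 - r) ^ 2 := by have : 0 < 1 / 2 - r := by linarith
                                      positivity
  have h := stepT_gen M (fun n : ℕ => r * (M : ℝ) ≤ (n : ℝ) ∧ (n : ℝ) ≤ (1 - r) * (M : ℝ))
    (Real.exp ((1 - 2 * r) ^ 2 / (2 * r))) zt sg (1 / (4 * (1 / 2 - r) ^ 2 * (M : ℝ)))
    (Real.exp_pos _).le hsg hZ
    (fun n hn hw => ⟨hT n hw.1 hw.2, hT (M - n)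
      (by rw [Nat.cast_sub hn]; linarith [hw.2]) (by rw [Nat.cast_sub hn]; linarith [hw.1])⟩)
    (fun n hn hw => by
      have hc : (0 : ℝ) < ((2 * M).choose (2 * n) : ℝ) := by
        exact_mod_cast Nat.choose_pos (by omega)
      have key := pH_le_pu_window r hr0 hr.le (M := M) (a := n) (by omega) hw.1 hw.2
      rw [← choose_mul_wH hn, ← choose_mul_wU (by omega) n] at key
      have : ((2 * M).choose (2 * n) : ℝ) * wH M (2 * n) ≤
          ((2 * M).choose (2 * n) : ℝ) *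
            (Real.exp ((1 - 2 * r) ^ 2 / (2 * r)) * wU (2 * M) (2 * n)) := by
        calc _ ≤ _ := key
          _ = _ := by ring
      exact le_of_mul_le_mul_left this hc)
    (by
      have h0 := pHR_tail r hr (M := M) hM
      refine le_trans (le_of_eq ?_) h0
      refine Finset.sum_congr rfl fun n hn => ?_
      exact choose_mul_wH (by
        have := Finset.mem_range.1 (Finset.mem_filter.1 hn).1
        omega))
  refine TS_mono4 M _ _ h ?_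
  have e : 2 * (1 / (4 * (1 / 2 - r) ^ 2 * (M : ℝ))) = 1 / (2 * (1 / 2 - r) ^ 2) / (M : ℝ) := by
    field_simp; ring
  have : 1 / (2 * (1 / 2 - r) ^ 2) / (M : ℝ) ≤ K / (M : ℝ) :=
    div_le_div_of_nonneg_right hK hM0.le
  linarith

/-- (B) for every constant `c > 1`. -/
theorem TS_harmonic (c : ℝ) (hc : 1 < c) :
    ∃ j0 : ℕ, ∀ j : ℕ, j0 ≤ j → TS (2 ^ j) (c / ((j : ℝ) + 1)) := by
  obtain ⟨r, hr0, hr, hwin⟩ := exists_window c hc
  obtain ⟨K, hKdef⟩ : ∃ K : ℝ, K = max 32 (1 / (2 * (1 / 2 - r) ^ 2)) := ⟨_, rfl⟩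
  have hd : 0 < (1 / 2 - r) ^ 2 := by have : 0 < 1 / 2 - r := by linarith
                                      positivity
  have hK32 : 32 ≤ K := by rw [hKdef]; exact le_max_left _ _
  have hK2 : 1 / (2 * (1 / 2 - r) ^ 2) ≤ K := by rw [hKdef]; exact le_max_right _ _
  have hK4 : 1 / (4 * (1 / 2 - r) ^ 2) ≤ K := by
    refine le_trans ?_ hK2
    apply one_div_le_one_div_of_le (by positivity)
    linarith
  obtain ⟨M1, hM1⟩ := exists_nat_gt K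
  have hM1' : 33 ≤ M1 := by
    have : (32 : ℝ) < M1 := lt_of_le_of_lt hK32 hM1
    exact_mod_cast this
  refine assemble_gen r K (Real.exp ((1 - 2 * r) ^ 2 / (2 * r))) c hr0 hr.le (by linarith)
    (Real.one_le_exp (by positivity)) hwin ZS TS ZS_mono4 ZS_closed4 TS_mono4 TS_closed4 ZS_one4
    trivT M1 hM1 ?_ ?_
  · intro M hM g hg hZ
    have hKM : K < M := lt_of_lt_of_le hM1 (by exact_mod_cast hM)
    exact stepZ_R r K hr hK32 hK4 M (by omega) hKM g hg hZ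
  · intro M hM zt sg _ hsg hZ hT
    exact stepT_R r K hr0 hr hK2 M (by omega) zt sg hsg hZ hT

/-- **Upper bound for the Thorp shuffle: exponent `2 + ε`.** -/
theorem thorp_upper_eps (ε : ℝ) (hε : 0 < ε) :
    ∃ C : ℝ, 0 < C ∧ ∀ k t : ℕ, C * ((k : ℝ) + 1) ^ (2 + ε) ≤ t →
      tvUnif (thorpPow (2 ^ k) t) ≤ 1 / 4 := by
  -- it is enough to treat `ε ≤ 1`
  obtain ⟨e, he⟩ : ∃ e : ℝ, e = min ε 1 := ⟨_, rfl⟩
  have he0 : 0 < e := by rw [he]; exact lt_min hε one_pos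
  have he1 : e ≤ 1 := by rw [he]; exact min_le_right _ _
  have heε : e ≤ ε := by rw [he]; exact min_le_left _ _
  obtain ⟨j0, hj0⟩ := TS_harmonic (1 + e / 2) (by linarith)
  obtain ⟨C, hC, h⟩ := Top.top_general (1 + e / 2) (1 + e) (by linarith) (by linarith)
    (by linarith) (by linarith)
    (fun M _ => SDPI_bitChan M (1 / 2) (by norm_num) (trivT M))
    ⟨j0, fun j hj => SDPI_bitChan (2 ^ j) _ (by positivity) (hj0 j hj)⟩
  refine ⟨C, hC, fun k t ht => h k t (le_trans ?_ ht)⟩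
  apply mul_le_mul_of_nonneg_left _ hC.le
  apply Real.rpow_le_rpow_of_exponent_le
  · have : (0 : ℝ) ≤ k := Nat.cast_nonneg k
    linarith
  · linarith

end Vale.Agent.P162.P2
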