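import Vale.Agent.P162.P2.Defs

/-!
# P162 (P2) : gluing matchings / even sets / colourings of `x` and of its complement
Definitions only.
-/

namespace Vale.Agent.P162.P2

open Finset Vale.Agent.P162 Vale.Agent.P162.KL

variable {S : Type} [Fintype S] [DecidableEq S]

/-- glue a matching of `x` and a matching of the complement -/
def joinMat (x : Finset S) (σ : Mat {a // a ∈ x} × Mat {a // a ∉ x}) : Mat S :=
  ⟨Equiv.Perm.subtypeCongr σ.1.1 σ.2.1, by
    constructor
    · intro a
      by_cases h : a ∈ x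
      · rw [Equiv.Perm.subtypeCongr.left_apply _ _ h,
          Equiv.Perm.subtypeCongr.left_apply _ _ (σ.1.1 ⟨a, h⟩).2]
        simp [σ.1.2.1]
      · rw [Equiv.Perm.subtypeCongr.right_apply _ _ h,
          Equiv.Perm.subtypeCongr.right_apply _ _ (σ.2.1 ⟨a, h⟩).2]
        simp [σ.2.2.1]
    · intro a
      by_cases h : a ∈ x
      · rw [Equiv.Perm.subtypeCongr.left_apply _ _ h]
        intro e
        exact σ.1.2.2 ⟨a, h⟩ (Subtype.ext e)
      · rw [Equiv.Perm.subtypeCongr.right_apply _ _ h]
        intro e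
        exact σ.2.2.2 ⟨a, h⟩ (Subtype.ext e)⟩

/-- glue a subset of `x` and a subset of the complement -/
def joinSet (x : Finset S) (y1 : Finset {a // a ∈ x}) (y2 : Finset {a // a ∉ x}) : Finset S :=
  y1.map (Function.Embedding.subtype _) ∪ y2.map (Function.Embedding.subtype _)

theorem joinSet_disj (x : Finset S) (y1 : Finset {a // a ∈ x}) (y2 : Finset {a // a ∉ x}) :
    Disjoint (y1.map (Function.Embedding.subtype (· ∈ x)))
      (y2.map (Function.Embedding.subtype (· ∉ x))) := by
  rw [Finset.disjoint_left]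
  intro a h1 h2
  obtain ⟨b, _, rfl⟩ := Finset.mem_map.1 h1
  obtain ⟨c, _, hc⟩ := Finset.mem_map.1 h2
  exact c.2 (by rw [show (c : S) = b from hc]; exact b.2)

theorem card_joinSet (x : Finset S) (y1 : Finset {a // a ∈ x}) (y2 : Finset {a // a ∉ x}) :
    (joinSet x y1 y2).card = y1.card + y2.card := by
  unfold joinSet
  rw [Finset.card_union_of_disjoint (joinSet_disj x y1 y2), Finset.card_map, Finset.card_map]

/-- glue an even subset of `x` and an even subset of the complement -/
def joinEv (x : Finset S) (y : Ev {a // a ∈ x} × Ev {a // a ∉ x}) : Ev S :=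
  ⟨joinSet x y.1.1 y.2.1, by rw [card_joinSet]; exact y.1.2.add y.2.2⟩

/-- restrict a colouring to `x` and to the complement -/
def splitCol (x : Finset S) (τ : S → Bool) : ({a // a ∈ x} → Bool) × ({a // a ∉ x} → Bool) :=
  (fun a => τ a.1, fun a => τ a.1)

/-- glue colourings -/
def joinCol (x : Finset S) (τ : ({a // a ∈ x} → Bool) × ({a // a ∉ x} → Bool)) : S → Bool :=
  fun a => if h : a ∈ x then τ.1 ⟨a, h⟩ else τ.2 ⟨a, h⟩

end Vale.Agent.P162.P2
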