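import Vale.Agent.P162.P2.JoinDefs
import Vale.Agent.P162.P2.MatCard

namespace Vale.Agent.P162.P2

open Finset Vale.Agent.P162 Vale.Agent.P162.KL

variable {S : Type} [Fintype S] [DecidableEq S]

theorem joinMat_apply_mem (x : Finset S) (σ : Mat {a // a ∈ x} × Mat {a // a ∉ x}) (a : S)
    (h : a ∈ x) : (joinMat x σ).1 a = (σ.1.1 ⟨a, h⟩ : S) :=
  Equiv.Perm.subtypeCongr.left_apply _ _ h

theorem joinMat_apply_not_mem (x : Finset S) (σ : Mat {a // a ∈ x} × Mat {a // a ∉ x}) (a : S)
    (h : a ∉ x) : (joinMat x σ).1 a = (σ.2.1 ⟨a, h⟩ : S) :=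
  Equiv.Perm.subtypeCongr.right_apply _ _ h

theorem joinMat_cl (x : Finset S) (σ : Mat {a // a ∈ x} × Mat {a // a ∉ x}) :
    Cl (joinMat x σ).1 x := by
  intro a h
  rw [joinMat_apply_mem x σ a h]
  exact (σ.1.1 ⟨a, h⟩).2

theorem joinMat_injective (x : Finset S) : Function.Injective (joinMat x) := by
  intro σ σ' h
  apply Prod.ext
  · apply Subtype.ext
    ext ⟨a, ha⟩
    rw [← joinMat_apply_mem x σ a ha, ← joinMat_apply_mem x σ' a ha, h]
  · apply Subtype.ext
    ext ⟨a, ha⟩
    rw [← joinMat_apply_not_mem x σ a ha, ← joinMat_apply_not_mem x σ' a ha, h]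

/-- every matching for which `x` is closed is glued from its restrictions -/
theorem joinMat_range (x : Finset S) (σ : Mat S) (h : Cl σ.1 x) : ∃ σ', joinMat x σ' = σ := by
  have h1 : ∀ a, σ.1 a ∈ x ↔ a ∈ x := by
    intro a
    constructor
    · intro ha
      have := h _ ha
      rwa [σ.2.1] at this
    · exact h a
  have h2 : ∀ a, σ.1 a ∉ x ↔ a ∉ x := fun a => not_congr (h1 a)
  refine ⟨(⟨σ.1.subtypePerm h1, ?_, ?_⟩, ⟨σ.1.subtypePerm h2, ?_, ?_⟩), ?_⟩
  · intro a
    apply Subtype.ext
    simp [Equiv.Perm.subtypePerm_apply, σ.2.1]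
  · intro a e
    exact σ.2.2 a.1 (congrArg Subtype.val e)
  · intro a
    apply Subtype.ext
    simp [Equiv.Perm.subtypePerm_apply, σ.2.1]
  · intro a e
    exact σ.2.2 a.1 (congrArg Subtype.val e)
  · apply Subtype.ext
    ext a
    by_cases ha : a ∈ x
    · rw [joinMat_apply_mem x _ a ha]
      rfl
    · rw [joinMat_apply_not_mem x _ a ha]
      rfl

/-- number of matchings for which `x` is closed -/
theorem card_closed (x : Finset S) :
    ((univ.filter (fun σ : Mat S => Cl σ.1 x)).card : ℝ) =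
      mc x.card * mc (Fintype.card S - x.card) := by
  have h1 : univ.filter (fun σ : Mat S => Cl σ.1 x) = univ.image (joinMat x) := by
    ext σ
    simp only [mem_filter, mem_univ, true_and, mem_image]
    constructor
    · intro h
      exact joinMat_range x σ h
    · rintro ⟨σ', rfl⟩
      exact joinMat_cl x σ'
  rw [h1, Finset.card_image_of_injective _ (joinMat_injective x), Finset.card_univ,
    Fintype.card_prod]
  push_cast
  rw [card_Mat, card_Mat, Fintype.card_coe]
  congr 2
  rw [Fintype.card_subtype_compl, Fintype.card_coe]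

end Vale.Agent.P162.P2
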