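import Vale.Agent.P162.P2.WcDefs

/-! # P162 (P2): elementary facts on the size weights `wU`, `wNu`, `evc` -/

namespace Vale.Agent.P162.P2

open Finset Vale.Agent.P162 Vale.Agent.P162.KL

theorem evc_pos (n : ℕ) : 0 < evc n := by
  unfold evc; split_ifs <;> positivity

theorem wNu_pos (N k : ℕ) : 0 < wNu N k := by
  unfold wNu; split_ifs <;> positivity

theorem evc_of_pos {n : ℕ} (h : 0 < n) : evc n = (2 : ℝ) ^ n / 2 := by
  unfold evc
  rw [if_neg h.ne']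
  obtain ⟨m, rfl⟩ : ∃ m, n = m + 1 := ⟨n - 1, by omega⟩
  rw [Nat.add_sub_cancel, pow_succ]
  ring

/-- off the trivial sizes `wU` is `(1 + 4 / 2^N)` times `wNu` -/
theorem wU_eq_wNu {M a : ℕ} (h0 : 0 < a) (h1 : a < M) :
    wU (2 * M) (2 * a) = (1 + 4 / (2 : ℝ) ^ (2 * M)) * wNu (2 * M) (2 * a) := by
  unfold wU wNu
  rw [evc_of_pos (by omega), if_neg (by omega)]
  have hT : (0 : ℝ) < (2 : ℝ) ^ (2 * M) := by positivity
  obtain ⟨T, hTd⟩ : ∃ T, T = (2 : ℝ) ^ (2 * M) := ⟨_, rfl⟩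
  rw [← hTd] at hT ⊢
  field_simp
  ring

/-- the number of second sets compatible with a first set of size `k` -/
theorem wNu_div_evc {M k : ℕ} (hM : 1 ≤ M) (hk : k ≤ 2 * M) :
    wNu (2 * M) k * (1 / evc k) * (1 / evc (2 * M - k)) =
      1 / ((2 : ℝ) ^ (2 * M) * (2 : ℝ) ^ (2 * M) / 8 + (2 : ℝ) ^ (2 * M) / 2) := by
  have hT : (0 : ℝ) < (2 : ℝ) ^ (2 * M) := by positivity
  rcases Nat.eq_zero_or_pos k with h0 | h0
  · subst h0
    unfold wNu
    have e0 : evc 0 = 1 := by simp [evc]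
    rw [if_pos (Or.inl rfl), Nat.sub_zero, e0, evc_of_pos (n := 2 * M) (by omega)]
    obtain ⟨T, hTd⟩ : ∃ T, T = (2 : ℝ) ^ (2 * M) := ⟨_, rfl⟩
    rw [← hTd] at hT ⊢
    field_simp
  · rcases hk.eq_or_lt with h1 | h1
    · subst h1
      unfold wNu
      have e0 : evc 0 = 1 := by simp [evc]
      rw [if_pos (Or.inr rfl), Nat.sub_self, e0, evc_of_pos (n := 2 * M) (by omega)]
      obtain ⟨T, hTd⟩ : ∃ T, T = (2 : ℝ) ^ (2 * M) := ⟨_, rfl⟩
      rw [← hTd] at hT ⊢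
      field_simp
    · unfold wNu
      rw [if_neg (by omega), evc_of_pos h0, evc_of_pos (n := 2 * M - k) (by omega)]
      have hsplit : (2 : ℝ) ^ (2 * M) = (2 : ℝ) ^ k * (2 : ℝ) ^ (2 * M - k) := by
        rw [← pow_add]
        congr 1
        omega
      have hA : (0 : ℝ) < (2 : ℝ) ^ k := by positivity
      have hB : (0 : ℝ) < (2 : ℝ) ^ (2 * M - k) := by positivity
      rw [hsplit]
      generalize (2 : ℝ) ^ k = A at hA ⊢
      generalize (2 : ℝ) ^ (2 * M - k) = B at hB ⊢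
      field_simp
      norm_num

theorem wNu_eq_nuw {S : Type} [Fintype S] [DecidableEq S] (x : Ev S) :
    wNu (Fintype.card S) x.1.card = nuw x := by
  unfold wNu nuw cntE TT
  have h : (x.1.card = 0 ∨ x.1.card = Fintype.card S) ↔ (x.1 = ∅ ∨ x.1 = univ) := by
    rw [Finset.card_eq_zero, Finset.card_eq_iff_eq_univ]
  by_cases hc : x.1 = ∅ ∨ x.1 = univ
  · rw [if_pos hc, if_pos (h.2 hc)]
  · rw [if_neg hc, if_neg (fun h' => hc (h.1 h'))]

end Vale.Agent.P162.P2
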