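import Vale.Agent.P162.P2.CondZT
import Vale.Agent.P162.P2.Weights

/-! # P162 (P2): the pair coupling `(Z1, Z2)` of board 298 as a two-stage channel -/

namespace Vale.Agent.P162.P2

open Finset Vale.Agent.P162 Vale.Agent.P162.KL

variable {S : Type} [Fintype S] [DecidableEq S]

theorem KZ2_nonneg (x : Ev S) (σ : Mat S) (y : Ev S) : 0 ≤ KZ2 S x σ y := by
  unfold KZ2
  have h := fun n => mc_nonneg n
  have h' := fun n => (evc_pos n).le
  split_ifs
  · apply mul_nonneg <;>
      exact div_nonneg (mul_nonneg (h _) (div_nonneg zero_le_one (h' _))) (mul_nonneg (h _) (h _))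
  · exact le_rfl

/-- factorisation of the second stage along the decomposition `x`, complement of `x` -/
theorem KZ2_join (M : ℕ) (hS : Fintype.card S = 2 * M) (x : Ev S)
    (σ : Mat {a // a ∈ x.1} × Mat {a // a ∉ x.1}) (y : Ev {a // a ∈ x.1} × Ev {a // a ∉ x.1}) :
    KZ2 S x (joinMat x.1 σ) (joinEv x.1 y) =
      Wc {a // a ∈ x.1} (wU (2 * (x.1.card / 2))) σ.1 y.1 *
        Wc {a // a ∉ x.1} (wU (2 * (M - x.1.card / 2))) σ.2 y.2 := by
  have hle : x.1.card ≤ Fintype.card S := Finset.card_le_univ x.1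
  have e1 : 2 * (x.1.card / 2) = x.1.card := Nat.two_mul_div_two_of_even x.2
  have e2 : 2 * (M - x.1.card / 2) = Fintype.card S - x.1.card := by omega
  have k1 : (x.1 ∩ (joinEv x.1 y).1).card = y.1.1.card := card_inter_joinSet x.1 y.1.1 y.2.1
  have k2 : ((joinEv x.1 y).1 \ x.1).card = y.2.1.card := card_sdiff_joinSet x.1 y.1.1 y.2.1
  have k3 := cl_join_iff x.1 σ y.1.1 y.2.1
  have k4 : Even (x.1 ∩ (joinEv x.1 y).1).card := even_inter_joinEv x.1 y
  unfold KZ2 Wc
  simp only [k1, k2, card_in86, card_out86, e1, e2, wU]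
  by_cases g1 : Cl σ.1.1 y.1.1
  · by_cases g2 : Cl σ.2.1 y.2.1
    · rw [if_pos g1, if_pos g2, if_pos]
      exact ⟨by rw [← k1]; exact k4, k3.2 ⟨g1, g2⟩⟩
    · rw [if_neg g2, mul_zero, if_neg]
      rintro ⟨_, g3⟩
      exact g2 (k3.1 g3).2
  · rw [if_neg g1, zero_mul, if_neg]
    rintro ⟨_, g3⟩
    exact g1 (k3.1 g3).1


/-- the second stage is a channel on the fibre: write `σ = joinMat x σ'` (`joinMat_range`), the sum
over `y` is a sum over `joinEv x y'` (`joinEv_injective`, `joinEv_range`; off the range `KZ2 = 0`),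
there `KZ2 = prodChan (Wc (wU)) (Wc (wU))` (see the proof of `condS_Z` in CondZT), and both
`Wc (wU)` are channels (`Wc_isChan`, `sum_wU86`). -/
theorem KZ2_sum (M : ℕ) (hS : Fintype.card S = 2 * M) (x : Ev S) (σ : Mat S) (h : Cl σ.1 x.1) :
    ∑ y, KZ2 S x σ y = 1 := by
  obtain ⟨σ', rfl⟩ := joinMat_range x.1 σ h
  have hle : x.1.card ≤ Fintype.card S := Finset.card_le_univ x.1
  have e1 : 2 * (x.1.card / 2) = x.1.card := Nat.two_mul_div_two_of_even x.2
  have e2 : 2 * (M - x.1.card / 2) = Fintype.card S - x.1.card := by omega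
  have c1 : Fintype.card {a // a ∈ x.1} = 2 * (x.1.card / 2) := by rw [card_in86, e1]
  have c2 : Fintype.card {a // a ∉ x.1} = 2 * (M - x.1.card / 2) := by rw [card_out86, e2]
  have i1 := Wc_isChan (S := {a // a ∈ x.1}) _ c1 (wU (2 * (x.1.card / 2))) (wU_nonneg86 _)
    (sum_wU86 _)
  have i2 := Wc_isChan (S := {a // a ∉ x.1}) _ c2 (wU (2 * (M - x.1.card / 2))) (wU_nonneg86 _)
    (sum_wU86 _)
  have h1 := Fintype.sum_of_injective (joinEv x.1) (joinEv_injective x.1)
    (fun y : Ev {a // a ∈ x.1} × Ev {a // a ∉ x.1} =>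
      Wc {a // a ∈ x.1} (wU (2 * (x.1.card / 2))) σ'.1 y.1 *
        Wc {a // a ∉ x.1} (wU (2 * (M - x.1.card / 2))) σ'.2 y.2)
    (fun y => KZ2 S x (joinMat x.1 σ') y)
    (fun y hy => by
      unfold KZ2
      rw [if_neg]
      rintro ⟨g, _⟩
      exact hy (joinEv_range x.1 y g))
    (fun y => (KZ2_join M hS x σ' y).symm)
  rw [← h1, Fintype.sum_prod_type]
  simp only [← Finset.mul_sum]
  rw [(i2 σ'.2).2]
  simp only [mul_one]
  exact (i1 σ'.1).2


end Vale.Agent.P162.P2
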