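import Vale.Agent.P162.P2.WcBasic
import Vale.Agent.P162.P2.Weights

namespace Vale.Agent.P162.P2

open Finset Vale.Agent.P162 Vale.Agent.P162.KL

variable {S : Type} [Fintype S] [DecidableEq S]

private lemma ps_cl_sdiff (σ : Mat S) (x y : Finset S) (hx : Cl σ.1 x) (hy : Cl σ.1 y) :
    Cl σ.1 (y \ x) := by
  intro a ha
  rw [Finset.mem_sdiff] at ha ⊢
  refine ⟨hy a ha.1, fun h => ha.2 ?_⟩
  have := hx _ h
  rwa [σ.2.1] at this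

private lemma ps_cl_of (σ : Mat S) (x y : Finset S) (h1 : Cl σ.1 (x ∩ y)) (h2 : Cl σ.1 (y \ x)) :
    Cl σ.1 y := by
  intro a ha
  by_cases hax : a ∈ x
  · exact (Finset.mem_inter.1 (h1 a (Finset.mem_inter.2 ⟨hax, ha⟩))).2
  · exact (Finset.mem_sdiff.1 (h2 a (Finset.mem_sdiff.2 ⟨ha, hax⟩))).1

private lemma ps_val (M : ℕ) (hM : 1 ≤ M) (hS : Fintype.card S = 2 * M) (σ : Mat S) (x y : Ev S) :
    K12 (Wc S (wNu (2 * M))) (KZ2 S) σ (x, y) =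
      if Cl σ.1 x.1 ∧ Cl σ.1 y.1 ∧ Cl σ.1 (x.1 ∩ y.1) ∧ Even (x.1 ∩ y.1).card then
        mc (2 * M) * (1 / ((2 : ℝ) ^ (2 * M) * (2 : ℝ) ^ (2 * M) / 8 + (2 : ℝ) ^ (2 * M) / 2)) /
          (mc (x.1 ∩ y.1).card * (mc (x.1 \ y.1).card * mc (y.1 \ x.1).card) *
            mc (2 * M - (x.1 ∪ y.1).card))
      else 0 := by
  unfold K12 Wc KZ2
  simp only
  by_cases hc : Cl σ.1 x.1 ∧ Cl σ.1 y.1 ∧ Cl σ.1 (x.1 ∩ y.1) ∧ Even (x.1 ∩ y.1).card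
  · obtain ⟨h1, h2, h3, h4⟩ := hc
    rw [if_pos h1, if_pos ⟨h4, h3, ps_cl_sdiff σ x.1 y.1 h1 h2⟩, if_pos ⟨h1, h2, h3, h4⟩, hS]
    have hxle : x.1.card ≤ 2 * M := by
      rw [← hS]; exact Finset.card_le_univ _
    have c1 : x.1.card - (x.1 ∩ y.1).card = (x.1 \ y.1).card := by
      have := Finset.card_sdiff_add_card_inter x.1 y.1
      omega
    have c2 : 2 * M - x.1.card - (y.1 \ x.1).card = 2 * M - (x.1 ∪ y.1).card := by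
      have := Finset.card_sdiff_add_card y.1 x.1
      rw [Finset.union_comm] at this
      omega
    rw [c1, c2]
    have hw := wNu_div_evc hM hxle
    have p1 : 0 < mc x.1.card := mc_pos_of_even x.2
    have p2 : 0 < mc (2 * M - x.1.card) := by
      apply mc_pos_of_even
      obtain ⟨r, hr⟩ := x.2
      exact ⟨M - r, by omega⟩
    rw [← hw]
    field_simp
  · rw [if_neg hc]
    by_cases h1 : Cl σ.1 x.1
    · by_cases h2 : Even (x.1 ∩ y.1).card ∧ Cl σ.1 (x.1 ∩ y.1) ∧ Cl σ.1 (y.1 \ x.1)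
      · exact absurd ⟨h1, ps_cl_of σ x.1 y.1 h2.2.1 h2.2.2, h2.2.1, h2.1⟩ hc
      · rw [if_neg h2, mul_zero]
    · rw [if_neg h1, zero_mul]

/-- SYMMETRY of the pair kernel: for `x, y` even,
`Wc (wNu) σ x * KZ2 x σ y = [4 cells closed, |x ∩ y| even] * mc N / (cntE * ∏ mc (cells))`
(`wNu_div_evc`; the factors `mc |x|`, `mc (N - |x|)` cancel, they are positive by
`mc_pos_of_even`;
`Cl σ x ∧ Cl σ (x ∩ y) ∧ Cl σ (y \ x) ↔ Cl σ y ∧ Cl σ (y ∩ x) ∧ Cl σ (x \ y)` for an involution;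
`|x| - |x ∩ y| = |x \ y|`, `N - |x| - |y \ x| = N - |y| - |x \ y|`). -/
theorem pair_symm (M : ℕ) (hM : 1 ≤ M) (hS : Fintype.card S = 2 * M) (σ : Mat S) (x y : Ev S) :
    K12 (Wc S (wNu (2 * M))) (KZ2 S) σ (x, y) = K12 (Wc S (wNu (2 * M))) (KZ2 S) σ (y, x) := by
  rw [ps_val M hM hS σ x y, ps_val M hM hS σ y x, Finset.inter_comm y.1 x.1,
    Finset.union_comm y.1 x.1, mul_comm (mc (y.1 \ x.1).card) (mc (x.1 \ y.1).card)]
  by_cases hc : Cl σ.1 x.1 ∧ Cl σ.1 y.1 ∧ Cl σ.1 (x.1 ∩ y.1) ∧ Even (x.1 ∩ y.1).card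
  · rw [if_pos hc, if_pos ⟨hc.2.1, hc.1, hc.2.2⟩]
  · rw [if_neg hc, if_neg (fun h => hc ⟨h.2.1, h.1, h.2.2⟩)]

end Vale.Agent.P162.P2
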