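import Vale.Agent.P162.P2.WcBasic
import Vale.Agent.P162.P2.Weights

namespace Vale.Agent.P162.P2

open Finset Vale.Agent.P162 Vale.Agent.P162.KL

variable {S : Type} [Fintype S] [DecidableEq S]

private lemma cl_cells (σ : Mat S) (x y : Finset S) :
    (Cl σ.1 x ∧ Cl σ.1 (x ∩ y) ∧ Cl σ.1 (y \ x)) ↔ (Cl σ.1 x ∧ Cl σ.1 y) := by
  constructor
  · rintro ⟨h1, h2, h3⟩
    refine ⟨h1, ?_⟩
    intro a ha
    by_cases hx : a ∈ x
    · exact (Finset.mem_inter.1 (h2 a (Finset.mem_inter.2 ⟨hx, ha⟩))).2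
    · exact (Finset.mem_sdiff.1 (h3 a (Finset.mem_sdiff.2 ⟨ha, hx⟩))).1
  · rintro ⟨h1, h2⟩
    have h1' := (cl_iff σ x).1 h1
    refine ⟨h1, ?_, ?_⟩
    · intro a ha
      have := Finset.mem_inter.1 ha
      exact Finset.mem_inter.2 ⟨h1 a this.1, h2 a this.2⟩
    · intro a ha
      have := Finset.mem_sdiff.1 ha
      exact Finset.mem_sdiff.2 ⟨h2 a this.1, fun h => this.2 ((h1' a).1 h)⟩

/-- reference law of the pair = `Rw` of PairLaw.  Direct count: the summand is
`[Cl σ x ∧ Cl σ y] * [|x ∩ y| even] * const`, `sum_Mat_cl2` (WcCount) counts the matchings for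
which the four cells are closed, `card_Mat_eq_mc`, `mc_pos_of_even`, `wNu_div_evc`;
`|x| - |x ∩ y| = |x \ y|`, `N - |x| - |y \ x| = N - |x ∪ y|`. -/
theorem push_pair_unif (M : ℕ) (hM : 1 ≤ M) (hS : Fintype.card S = 2 * M) (x y : Ev S) :
    push (K12 (Wc S (wNu (2 * M))) (KZ2 S)) (unif (Mat S)) (x, y) = Rw (x, y) := by
  unfold push K12 unif Rw
  simp only
  by_cases hev : Even (x.1 ∩ y.1).card
  · rw [if_pos hev]
    have hN : Even (Fintype.card S) := by rw [hS]; exact even_two_mul M
    have i1 := Finset.card_sdiff_add_card_inter x.1 y.1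
    have i2 := Finset.card_sdiff_add_card_inter y.1 x.1
    rw [Finset.inter_comm] at i2
    have i3 : (x.1 ∪ y.1).card = x.1.card + (y.1 \ x.1).card := by
      rw [← Finset.card_union_of_disjoint Finset.disjoint_sdiff, Finset.union_sdiff_self_eq_union]
    have i4 : (x.1 ∪ y.1).card ≤ Fintype.card S := Finset.card_le_univ _
    have c1 : x.1.card - (x.1 ∩ y.1).card = (x.1 \ y.1).card := by omega
    have c3 : Fintype.card S - x.1.card - (y.1 \ x.1).card =
        Fintype.card S - (x.1 ∪ y.1).card := by omega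
    have hx := x.2
    have hy := y.2
    have e1 : Even (x.1 \ y.1).card := by
      rw [← c1]
      exact (Nat.even_sub (by omega)).2 ⟨fun _ => hev, fun _ => hx⟩
    have e2 : Even (y.1 \ x.1).card := by
      have : (y.1 \ x.1).card = y.1.card - (x.1 ∩ y.1).card := by omega
      rw [this]
      exact (Nat.even_sub (by omega)).2 ⟨fun _ => hev, fun _ => hy⟩
    have e3 : Even (Fintype.card S - (x.1 ∪ y.1).card) := by
      refine (Nat.even_sub i4).2 ⟨fun _ => ?_, fun _ => hN⟩
      rw [i3]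
      exact hx.add e2
    have e4 : Even (Fintype.card S - x.1.card) :=
      (Nat.even_sub (Finset.card_le_univ _)).2 ⟨fun _ => hx, fun _ => hN⟩
    have pa := mc_pos_of_even hev
    have pb := mc_pos_of_even e1
    have pc := mc_pos_of_even e2
    have pd := mc_pos_of_even e3
    have px := mc_pos_of_even hx
    have pxc := mc_pos_of_even e4
    have pN := mc_pos_of_even hN
    have key : ∀ σ : Mat S, 1 / (Fintype.card (Mat S) : ℝ) *
        (Wc S (wNu (2 * M)) σ x * KZ2 S x σ y) =
        (wNu (2 * M) x.1.card * (1 / evc x.1.card) * (1 / evc (Fintype.card S - x.1.card)) /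
          (mc (x.1 ∩ y.1).card * mc (x.1 \ y.1).card *
            (mc (y.1 \ x.1).card * mc (Fintype.card S - (x.1 ∪ y.1).card)))) *
          (if Cl σ.1 x.1 ∧ Cl σ.1 y.1 then (1 : ℝ) else 0) := by
      intro σ
      rw [card_Mat_eq_mc]
      unfold Wc KZ2
      rw [c1, c3]
      by_cases h : Cl σ.1 x.1 ∧ Cl σ.1 y.1
      · have h' := (cl_cells σ x.1 y.1).2 h
        rw [if_pos h, if_pos h'.1, if_pos ⟨hev, h'.2⟩]
        field_simp
      · rw [if_neg h]
        by_cases h1 : Cl σ.1 x.1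
        · have h2 : ¬ (Even (x.1 ∩ y.1).card ∧ Cl σ.1 (x.1 ∩ y.1) ∧ Cl σ.1 (y.1 \ x.1)) := by
            intro h3
            exact h ((cl_cells σ x.1 y.1).1 ⟨h1, h3.2⟩)
          rw [if_neg h2]
          simp
        · rw [if_neg h1]
          simp
    rw [Finset.sum_congr rfl (fun σ _ => key σ), ← Finset.mul_sum, sum_Mat_cl2,
      Finset.inter_comm y.1 x.1]
    have hk : x.1.card ≤ 2 * M := by rw [← hS]; exact Finset.card_le_univ _
    have hw := wNu_div_evc hM hk
    unfold cntE TT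
    rw [hS] at *
    rw [div_mul_cancel₀ _ (by positivity), hw]
  · rw [if_neg hev]
    apply Finset.sum_eq_zero
    intro σ _
    unfold KZ2
    rw [if_neg (fun h => hev h.1)]
    simp

end Vale.Agent.P162.P2
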