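import Vale.Agent.P162.P2.CondZT
import Vale.Agent.P162.P2.WcKl
import Vale.Agent.P162.P2.WcChan
import Vale.Agent.P162.P2.TwoStage
import Vale.Agent.P162.P2.Super
import Vale.Agent.P162.Comb.TwoTr

/-!
# P162 (P2) : STEP T (two exactly independent transversals)

First stage: a closed set `z` with the hypergeometric size law; second stage: a uniform
transversal `τ`.  The pair `(τ, flipOut z τ)` consists of two transversals which are independent
under the uniform matching.
-/

namespace Vale.Agent.P162.P2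

open Finset Vale.Agent.P162 Vale.Agent.P162.KL

variable {S : Type} [Fintype S] [DecidableEq S]

theorem KKT_isChan (M : ℕ) (hS : Fintype.card S = 2 * M) :
    IsChan (K12 (Wc S (wH M)) (KT2 S)) := by
  intro σ
  have h1 := Wc_isChan' hS (wH M) (wH_nonneg M) (sum_choose_wH M) σ
  have h2 := Tr_isChan M hS σ
  refine ⟨fun zt => mul_nonneg (h1.1 _) (h2.1 _), ?_⟩
  rw [Fintype.sum_prod_type]
  simp only [K12, KT2]
  rw [← Finset.sum_mul_sum, h1.2, h2.2, one_mul]

theorem flipOut_flipOut (z : Finset S) (τ : S → Bool) : flipOut z (flipOut z τ) = τ := by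
  funext a
  unfold flipOut
  by_cases h : a ∈ z <;> simp [h]

theorem flipOut_eq_iff (z : Finset S) (τ b : S → Bool) : flipOut z τ = b ↔ τ = flipOut z b := by
  constructor
  · intro h
    rw [← h, flipOut_flipOut]
  · intro h
    rw [h, flipOut_flipOut]

theorem cross_flipOut (σ : Mat S) (z : Finset S) (hz : Cl σ.1 z) (b : S → Bool) :
    (∀ a, flipOut z b (σ.1 a) = !flipOut z b a) ↔ ∀ a, b (σ.1 a) = !b a := by
  have hz' := (cl_iff_isCl σ z).1 hz
  constructor
  · intro h a
    have h1 := h a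
    unfold flipOut at h1
    by_cases ha : a ∈ z
    · rw [if_pos ((hz' a).2 ha), if_pos ha] at h1
      exact h1
    · rw [if_neg (fun hc => ha ((hz' a).1 hc)), if_neg ha] at h1
      simpa using h1
  · intro h a
    have h1 := h a
    unfold flipOut
    by_cases ha : a ∈ z
    · rw [if_pos ((hz' a).2 ha), if_pos ha]
      exact h1
    · rw [if_neg (fun hc => ha ((hz' a).1 hc)), if_neg ha, h1]

theorem Tr_flipOut (σ : Mat S) (z : Finset S) (hz : Cl σ.1 z) (b : S → Bool) :
    Tr S σ (flipOut z b) = Tr S σ b := by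
  unfold Tr
  simp only [cross_flipOut σ z hz b]

theorem KKT_marg1 (M : ℕ) (hS : Fintype.card S = 2 * M) (σ : Mat S) (b : S → Bool) :
    ∑ zt ∈ univ.filter (fun zt : Ev S × (S → Bool) => zt.2 = b),
      K12 (Wc S (wH M)) (KT2 S) σ zt = Tr S σ b := by
  have h1 := Wc_isChan' hS (wH M) (wH_nonneg M) (sum_choose_wH M) σ
  rw [Finset.sum_filter, Fintype.sum_prod_type]
  simp only [K12, KT2]
  have : ∀ z : Ev S, ∑ τ : S → Bool, (if τ = b then Wc S (wH M) σ z * Tr S σ τ else 0)
      = Wc S (wH M) σ z * Tr S σ b := by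
    intro z
    rw [Finset.sum_ite_eq' univ b]
    simp
  rw [Finset.sum_congr rfl (fun z _ => this z), ← Finset.sum_mul, h1.2, one_mul]

theorem KKT_marg2 (M : ℕ) (hS : Fintype.card S = 2 * M) (σ : Mat S) (b : S → Bool) :
    ∑ zt ∈ univ.filter (fun zt : Ev S × (S → Bool) => flipOut zt.1.1 zt.2 = b),
      K12 (Wc S (wH M)) (KT2 S) σ zt = Tr S σ b := by
  have h1 := Wc_isChan' hS (wH M) (wH_nonneg M) (sum_choose_wH M) σ
  rw [Finset.sum_filter, Fintype.sum_prod_type]
  simp only [K12, KT2]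
  have : ∀ z : Ev S, ∑ τ : S → Bool,
      (if flipOut z.1 τ = b then Wc S (wH M) σ z * Tr S σ τ else 0)
      = Wc S (wH M) σ z * Tr S σ b := by
    intro z
    simp only [flipOut_eq_iff]
    rw [Finset.sum_ite_eq' univ (flipOut z.1 b)]
    simp only [Finset.mem_univ, if_true]
    by_cases hz : Cl σ.1 z.1
    · rw [Tr_flipOut σ z.1 hz]
    · have : Wc S (wH M) σ z = 0 := by
        unfold Wc
        rw [if_neg hz]
      rw [this, zero_mul, zero_mul]
  rw [Finset.sum_congr rfl (fun z _ => this z), ← Finset.sum_mul, h1.2, one_mul]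

/-- the set where two colourings agree -/
def agree (b1 b2 : S → Bool) : Finset S := univ.filter (fun a => b1 a = b2 a)

theorem flipOut_eq_iff_agree (z : Finset S) (b1 b2 : S → Bool) :
    flipOut z b1 = b2 ↔ z = agree b1 b2 := by
  constructor
  · intro h
    ext a
    have h1 := congrFun h a
    unfold flipOut at h1
    simp only [agree, mem_filter, mem_univ, true_and]
    by_cases ha : a ∈ z
    · rw [if_pos ha] at h1
      exact ⟨fun _ => h1, fun _ => ha⟩
    · rw [if_neg ha] at h1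
      constructor
      · intro h'
        exact absurd h' ha
      · intro h'
        rw [h'] at h1
        cases hb : b2 a <;> simp [hb] at h1
  · intro h
    subst h
    funext a
    unfold flipOut agree
    simp only [mem_filter, mem_univ, true_and]
    by_cases ha : b1 a = b2 a
    · rw [if_pos ha, ha]
    · rw [if_neg ha]
      cases h1 : b1 a <;> cases h2 : b2 a <;> simp_all

theorem cl_cross_iff (σ : Mat S) (b1 b2 : S → Bool) :
    (Cl σ.1 (agree b1 b2) ∧ ∀ a, b1 (σ.1 a) = !b1 a) ↔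
      ((∀ a, b1 (σ.1 a) = !b1 a) ∧ ∀ a, b2 (σ.1 a) = !b2 a) := by
  constructor
  · rintro ⟨hc, h1⟩
    refine ⟨h1, ?_⟩
    have hb2 : flipOut (agree b1 b2) b1 = b2 := (flipOut_eq_iff_agree _ _ _).2 rfl
    have h3 := (cross_flipOut σ _ hc b1).2 h1
    rw [hb2] at h3
    exact h3
  · rintro ⟨h1, h2⟩
    refine ⟨?_, h1⟩
    intro a ha
    simp only [agree, mem_filter, mem_univ, true_and] at ha ⊢
    rw [h1, h2, ha]

/-- number of matchings crossing both colourings -/
noncomputable def Ncr (b1 b2 : S → Bool) : ℝ :=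
  ∑ σ : Mat S, if ((∀ a, b1 (σ.1 a) = !b1 a) ∧ ∀ a, b2 (σ.1 a) = !b2 a) then (1 : ℝ) else 0

theorem push_KKT_unif (M : ℕ) (hS : Fintype.card S = 2 * M) (b1 b2 : S → Bool) (z : Ev S)
    (hz : z.1 = agree b1 b2) :
    push (K12 (Wc S (wH M)) (KT2 S)) (unif (Mat S)) (z, b1) =
      (1 / mc (2 * M)) * (cW86 S (wH M) z * (1 / 2 ^ M)) * Ncr b1 b2 := by
  unfold push Ncr
  rw [Finset.mul_sum]
  apply Finset.sum_congr rfl
  intro σ _
  have hu : unif (Mat S) σ = 1 / mc (2 * M) := by
    unfold unif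
    rw [card_Mat, hS]
  have hM : Fintype.card S / 2 = M := by omega
  rw [hu]
  simp only [K12, KT2]
  unfold Wc Tr cW86
  rw [hM]
  by_cases h : ((∀ a, b1 (σ.1 a) = !b1 a) ∧ ∀ a, b2 (σ.1 a) = !b2 a)
  · have h' := (cl_cross_iff σ b1 b2).2 h
    rw [if_pos h, if_pos (by rw [hz]; exact h'.1), if_pos h'.2]
    ring
  · rw [if_neg h]
    by_cases hc : Cl σ.1 z.1
    · have h2 : ¬ ∀ a, b1 (σ.1 a) = !b1 a := by
        intro h1
        exact h ((cl_cross_iff σ b1 b2).1 ⟨by rw [← hz]; exact hc, h1⟩)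
      rw [if_neg h2]
      ring
    · rw [if_neg hc]
      ring

theorem card_agree (M : ℕ) (hS : Fintype.card S = 2 * M) (b1 b2 : S → Bool)
    (h1 : (univ.filter (fun a => b1 a = true)).card = M)
    (h2 : (univ.filter (fun a => b2 a = true)).card = M) :
    (agree b1 b2).card = 2 * (univ.filter (fun a => b1 a = true ∧ b2 a = true)).card ∧
      (univ.filter (fun a => b1 a = true ∧ b2 a = true)).card
        + (univ.filter (fun a => b1 a = true ∧ b2 a = false)).card = M := by
  have e1 : ∀ a : S, (if b1 a = b2 a then 1 else 0) + (if b1 a = true then 1 else 0)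
      + (if b2 a = true then 1 else 0)
      = 2 * (if (b1 a = true ∧ b2 a = true) then 1 else 0) + 1 := by
    intro a
    cases b1 a <;> cases b2 a <;> simp
  have e2 : ∀ a : S, (if (b1 a = true ∧ b2 a = true) then 1 else 0)
      + (if (b1 a = true ∧ b2 a = false) then 1 else 0) = (if b1 a = true then 1 else 0) := by
    intro a
    cases b1 a <;> cases b2 a <;> simp
  have s1 := Finset.sum_congr (rfl : (univ : Finset S) = univ) (fun a _ => e1 a)
  have s2 := Finset.sum_congr (rfl : (univ : Finset S) = univ) (fun a _ => e2 a)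
  rw [Finset.sum_add_distrib, Finset.sum_add_distrib, Finset.sum_add_distrib, ← Finset.mul_sum,
    ← Finset.card_filter, ← Finset.card_filter, ← Finset.card_filter, ← Finset.card_filter,
    h1, h2] at s1
  rw [Finset.sum_add_distrib, ← Finset.card_filter, ← Finset.card_filter, ← Finset.card_filter,
    h1] at s2
  simp only [Finset.sum_const, Finset.card_univ, hS, smul_eq_mul, mul_one] at s1
  refine ⟨?_, s2⟩
  unfold agree
  omega

theorem Ncr_bal (b1 b2 : S → Bool)
    (h1 : 2 * (univ.filter (fun a => b1 a = true)).card = Fintype.card S)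
    (h2 : 2 * (univ.filter (fun a => b2 a = true)).card = Fintype.card S) :
    Ncr b1 b2 = (((univ.filter (fun a => b1 a = true ∧ b2 a = true)).card).factorial : ℝ)
        * (((univ.filter (fun a => b1 a = true ∧ b2 a = false)).card).factorial : ℝ) := by
  unfold Ncr
  rw [sum_Mat (fun μ => if ((∀ a, b1 (μ a) = !b1 a) ∧ ∀ a, b2 (μ a) = !b2 a) then (1 : ℝ) else 0),
    ← Finset.sum_filter, Finset.filter_filter, Finset.sum_const, nsmul_eq_mul, mul_one,
    ← Nat.cast_mul, ← card_mat_tr2_bool b1 b2 h1 h2]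

theorem Ncr_unbal (M : ℕ) (hS : Fintype.card S = 2 * M) (b1 b2 : S → Bool)
    (h : ¬ ((univ.filter (fun a => b1 a = true)).card = M ∧
      (univ.filter (fun a => b2 a = true)).card = M)) : Ncr b1 b2 = 0 := by
  unfold Ncr
  apply Finset.sum_eq_zero
  intro σ _
  rw [if_neg]
  rintro ⟨c1, c2⟩
  apply h
  constructor
  · by_contra hb
    have hc := cross_count M hS b1
    rw [if_neg hb] at hc
    have : (univ.filter (fun σ : Mat S => ∀ a, b1 (σ.1 a) = !b1 a)).card = 0 := by
      exact_mod_cast hc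
    rw [Finset.card_eq_zero] at this
    have hm : σ ∈ univ.filter (fun σ : Mat S => ∀ a, b1 (σ.1 a) = !b1 a) := by
      simp only [mem_filter, mem_univ, true_and]
      exact c1
    rw [this] at hm
    simp at hm
  · by_contra hb
    have hc := cross_count M hS b2
    rw [if_neg hb] at hc
    have : (univ.filter (fun σ : Mat S => ∀ a, b2 (σ.1 a) = !b2 a)).card = 0 := by
      exact_mod_cast hc
    rw [Finset.card_eq_zero] at this
    have hm : σ ∈ univ.filter (fun σ : Mat S => ∀ a, b2 (σ.1 a) = !b2 a) := by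
      simp only [mem_filter, mem_univ, true_and]
      exact c2
    rw [this] at hm
    simp at hm

theorem arith_T (M t u : ℕ) (htu : t + u = M) :
    (1 / mc (2 * M)) * ((mc (2 * M) * wH M (2 * t) / (mc (2 * t) * mc (2 * M - 2 * t)))
        * (1 / 2 ^ M)) * ((t.factorial : ℝ) * (u.factorial : ℝ))
      = (1 / ((2 * M).choose M : ℝ)) * (1 / ((2 * M).choose M : ℝ)) := by
  have e0 : 2 * M - 2 * t = 2 * u := by omega
  have e1 : 2 * t / 2 = t := by omega
  rw [e0]
  unfold wH pH
  rw [e1]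
  have r1 : (M.choose t : ℝ) * (t.factorial : ℝ) * (u.factorial : ℝ) = (M.factorial : ℝ) := by
    have h := Nat.choose_mul_factorial_mul_factorial (show t ≤ M by omega)
    have e : M - t = u := by omega
    rw [e] at h
    exact_mod_cast h
  have r2 : ((2 * M).choose (2 * t) : ℝ) * ((2 * t).factorial : ℝ) * ((2 * u).factorial : ℝ)
      = ((2 * M).factorial : ℝ) := by
    have h := Nat.choose_mul_factorial_mul_factorial (show 2 * t ≤ 2 * M by omega)
    rw [e0] at h
    exact_mod_cast h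
  have r3 : ((2 * M).choose M : ℝ) * (M.factorial : ℝ) * (M.factorial : ℝ)
      = ((2 * M).factorial : ℝ) := by
    have h := Nat.choose_mul_factorial_mul_factorial (show M ≤ 2 * M by omega)
    have e : 2 * M - M = M := by omega
    rw [e] at h
    exact_mod_cast h
  have r4 := mc_formula t
  have r5 := mc_formula u
  have r6 : (2 : ℝ) ^ M = 2 ^ t * 2 ^ u := by rw [← pow_add, htu]
  have p0 := mc_pos M
  have p1 := mc_pos t
  have p2 := mc_pos u
  have pC : (0 : ℝ) < ((2 * M).choose M : ℝ) := by exact_mod_cast Nat.choose_pos (by omega)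
  have pB : (0 : ℝ) < ((2 * M).choose (2 * t) : ℝ) := by exact_mod_cast Nat.choose_pos (by omega)
  have pT : (0 : ℝ) < (t.factorial : ℝ) := by positivity
  have pU : (0 : ℝ) < (u.factorial : ℝ) := by positivity
  have pa1 : (0 : ℝ) < (2 : ℝ) ^ t := by positivity
  have pa2 : (0 : ℝ) < (2 : ℝ) ^ u := by positivity
  rw [r6]
  generalize (M.choose t : ℝ) = A at *
  generalize (t.factorial : ℝ) = T at *
  generalize (u.factorial : ℝ) = U at *
  generalize (M.factorial : ℝ) = F at *
  generalize ((2 * M).choose (2 * t) : ℝ) = B at *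
  generalize ((2 * t).factorial : ℝ) = P at *
  generalize ((2 * u).factorial : ℝ) = Q at *
  generalize ((2 * M).factorial : ℝ) = G at *
  generalize ((2 * M).choose M : ℝ) = C at *
  generalize mc (2 * M) = m0 at *
  generalize mc (2 * t) = m1 at *
  generalize mc (2 * u) = m2 at *
  generalize (2 : ℝ) ^ t = a1 at *
  generalize (2 : ℝ) ^ u = a2 at *
  have key : A ^ 2 * T * U * C = B * m1 * m2 * (a1 * a2) := by
    have hTU : T * U ≠ 0 := (mul_pos pT pU).ne'
    apply mul_right_cancel₀ hTU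
    calc A ^ 2 * T * U * C * (T * U) = (A * T * U) ^ 2 * C := by ring
      _ = C * F * F := by rw [r1]; ring
      _ = B * P * Q := by rw [r3, r2]
      _ = B * (m1 * (a1 * T)) * (m2 * (a2 * U)) := by rw [r4, r5]
      _ = B * m1 * m2 * (a1 * a2) * (T * U) := by ring
  field_simp
  linear_combination key
theorem KKT_ind (M : ℕ) (hS : Fintype.card S = 2 * M) (b1 b2 : S → Bool) :
    ∑ zt ∈ univ.filter (fun zt : Ev S × (S → Bool) => zt.2 = b1 ∧ flipOut zt.1.1 zt.2 = b2),
      push (K12 (Wc S (wH M)) (KT2 S)) (unif (Mat S)) zt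
      = push (Tr S) (unif (Mat S)) b1 * push (Tr S) (unif (Mat S)) b2 := by
  rw [Finset.sum_filter, Fintype.sum_prod_type]
  have hin : ∀ z : Ev S, ∑ τ : S → Bool, (if (τ = b1 ∧ flipOut z.1 τ = b2) then
        push (K12 (Wc S (wH M)) (KT2 S)) (unif (Mat S)) (z, τ) else 0)
      = if z.1 = agree b1 b2 then
          (1 / mc (2 * M)) * (cW86 S (wH M) z * (1 / 2 ^ M)) * Ncr b1 b2 else 0 := by
    intro z
    rw [Finset.sum_eq_single b1]
    · by_cases hz : z.1 = agree b1 b2
      · rw [if_pos hz, if_pos ⟨rfl, (flipOut_eq_iff_agree _ _ _).2 hz⟩,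
          push_KKT_unif M hS b1 b2 z hz]
      · rw [if_neg hz, if_neg]
        rintro ⟨_, h⟩
        exact hz ((flipOut_eq_iff_agree _ _ _).1 h)
    · intro τ _ hτ
      rw [if_neg]
      rintro ⟨h, _⟩
      exact hτ h
    · intro h
      exact absurd (mem_univ _) h
  simp only []
  rw [Finset.sum_congr rfl (fun z _ => hin z)]
  rw [push_Tr_unif M hS b1, push_Tr_unif M hS b2]
  by_cases hb : ((univ.filter (fun a => b1 a = true)).card = M ∧
      (univ.filter (fun a => b2 a = true)).card = M)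
  · obtain ⟨h1, h2⟩ := hb
    rw [if_pos h1, if_pos h2]
    obtain ⟨ha, htu⟩ := card_agree M hS b1 b2 h1 h2
    have hev : Even (agree b1 b2).card := by
      rw [ha]
      exact even_two_mul _
    rw [Finset.sum_eq_single (⟨agree b1 b2, hev⟩ : Ev S)]
    · rw [if_pos rfl, Ncr_bal b1 b2 (by omega) (by omega)]
      unfold cW86
      simp only []
      rw [hS, ha]
      exact arith_T M _ _ htu
    · intro z _ hz
      rw [if_neg]
      intro h
      exact hz (Subtype.ext h)
    · intro h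
      exact absurd (mem_univ _) h
  · rw [Ncr_unbal M hS b1 b2 hb]
    simp only [mul_zero, ite_self, Finset.sum_const_zero]
    rw [not_and_or] at hb
    rcases hb with h | h
    · rw [if_neg h, zero_mul]
    · rw [if_neg h, mul_zero]

/-- two exactly independent transversals -/
theorem two_T_le (M : ℕ) (hS : Fintype.card S = 2 * M) (p : Mat S → ℝ) (hp : IsLaw p) :
    2 * kl (push (Tr S) p) (push (Tr S) (unif (Mat S))) ≤
      kl (push (K12 (Wc S (wH M)) (KT2 S)) p) (push (K12 (Wc S (wH M)) (KT2 S)) (unif (Mat S))) :=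
  superadd (K12 (Wc S (wH M)) (KT2 S)) (KKT_isChan M hS) (Tr S) (fun zt => zt.2)
    (fun zt => flipOut zt.1.1 zt.2) (KKT_marg1 M hS) (KKT_marg2 M hS) (KKT_ind M hS) p hp

/-- **The constant `1/2` for every size.** -/
theorem trivT (M : ℕ) : TS M (1 / 2) := by
  intro S _ _ hS p hp
  have h1 := two_T_le M hS p hp
  have h2 := SDPI_one _ (KKT_isChan M hS) p hp
  linarith

/-- mass of the hypergeometric law outside the window -/
noncomputable def dlT (M : ℕ) : ℝ :=
  ∑ n ∈ (range (M + 1)).filter (fun n : ℕ => ¬ (2 * M ≤ 5 * n ∧ 5 * n ≤ 3 * M)), pH M n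

theorem dlT_nonneg (M : ℕ) : 0 ≤ dlT M := Finset.sum_nonneg (fun n _ => pH_nonneg M n)

theorem wH_pos {M k : ℕ} (hk : k ≤ 2 * M) : 0 < wH M k := by
  unfold wH
  have h1 : 0 < pH M (k / 2) := pH_pos (by omega)
  have h2 : (0 : ℝ) < ((2 * M).choose k : ℝ) := by exact_mod_cast Nat.choose_pos hk
  positivity

theorem off_window_T (M : ℕ) (hS : Fintype.card S = 2 * M) (σ : Mat S) :
    ∑ x ∈ univ.filter (fun x : Ev S =>
        ¬ (2 * M ≤ 5 * (x.1.card / 2) ∧ 5 * (x.1.card / 2) ≤ 3 * M)), Wc S (wH M) σ x = dlT M := by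
  rw [Wc_sum_filter hS (wH M) σ (fun k => ¬ (2 * M ≤ 5 * (k / 2) ∧ 5 * (k / 2) ≤ 3 * M))]
  unfold dlT
  have e : ∀ n : ℕ, 2 * n / 2 = n := fun n => by omega
  simp only [e]
  apply Finset.sum_congr rfl
  intro n hn
  exact choose_mul_wH (Nat.lt_succ_iff.1 (Finset.mem_range.1 (Finset.mem_filter.1 hn).1))

/-- the hypergeometric closed set against the uniform even closed set -/
theorem D1_le (M : ℕ) (hM : 1 ≤ M) (hS : Fintype.card S = 2 * M) (p : Mat S → ℝ) (hp : IsLaw p) :
    kl (push (Wc S (wH M)) p) (push (Wc S (wH M)) (unif (Mat S))) ≤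
      20 / 19 * kl (push (Wc S (wU (2 * M))) p) (push (Wc S (wU (2 * M))) (unif (Mat S)))
        + dlT M * kl p (unif (Mat S)) := by
  rw [kl_Wc M hS, kl_Wc M hS, Finset.mul_sum]
  unfold dlT
  rw [Finset.sum_mul, Finset.sum_filter, ← Finset.sum_add_distrib]
  apply Finset.sum_le_sum
  intro a ha
  have ha' : a ≤ M := Nat.lt_succ_iff.1 (Finset.mem_range.1 ha)
  have hE := Ek_nonneg M hS p hp (2 * a)
  by_cases hw : (2 * M ≤ 5 * a ∧ 5 * a ≤ 3 * M)
  · rw [if_neg (not_not.2 hw), add_zero, ← mul_assoc]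
    exact mul_le_mul_of_nonneg_right (wH_le_wU hM hw.1 hw.2) hE
  · rw [if_pos hw]
    have h1 := Ek_le M hS p hp a ha'
    have h2 : wH M (2 * a) * Ek S p (2 * a) ≤ pH M a * kl p (unif (Mat S)) := by
      rw [← choose_mul_wH ha']
      calc wH M (2 * a) * Ek S p (2 * a)
          ≤ wH M (2 * a) * (((2 * M).choose (2 * a) : ℝ) * kl p (unif (Mat S))) :=
            mul_le_mul_of_nonneg_left h1 (wH_nonneg M _)
        _ = ((2 * M).choose (2 * a) : ℝ) * wH M (2 * a) * kl p (unif (Mat S)) := by ring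
    have h3 : 0 ≤ 20 / 19 * (wU (2 * M) (2 * a) * Ek S p (2 * a)) :=
      mul_nonneg (by norm_num) (mul_nonneg (wU_nonneg _ _) hE)
    linarith

theorem D1_nonneg (M : ℕ) (hS : Fintype.card S = 2 * M) (p : Mat S → ℝ) (hp : IsLaw p) :
    0 ≤ kl (push (Wc S (wH M)) p) (push (Wc S (wH M)) (unif (Mat S))) := by
  rw [kl_Wc M hS]
  exact Finset.sum_nonneg (fun a _ => mul_nonneg (wH_nonneg M _) (Ek_nonneg M hS p hp _))

/-- **STEP T.** -/
theorem stepT (M : ℕ) (hM : 2 ≤ M) (zt sg : ℝ) (hsg : 0 ≤ sg) (hZ : ZS M zt)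
    (hT : ∀ n, 2 * M ≤ 5 * n → 5 * n ≤ 3 * M → TS n sg) :
    TS M ((20 / 19 * zt + sg + 50 / (M : ℝ)) / 2) := by
  intro S _ _ hS p hp
  have hD : 0 ≤ kl p (unif (Mat S)) := KL.Tz.kl_unif_nonneg hp
  have h1 := two_T_le M hS p hp
  have h2 := two_stage (Wc S (wH M)) (KT2 S)
    (Wc_isChan' hS (wH M) (wH_nonneg M) (sum_choose_wH M))
    (fun _ σ τ => (Tr_isChan M hS σ).1 τ) (fun _ σ _ => (Tr_isChan M hS σ).2)
    (fun x : Ev S => 2 * M ≤ 5 * (x.1.card / 2) ∧ 5 * (x.1.card / 2) ≤ 3 * M)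
    (dlT M) sg hsg (off_window_T M hS)
    (fun x hx => condS_T M hS (wH M) x
      (wH_pos (by rw [← hS]; exact Finset.card_le_univ x.1)) sg
      (hT _ hx.1 hx.2) (hT _ (by omega) (by omega))) p hp
  have h3 := D1_le M (by omega) hS p hp
  have h4 := hZ S hS p hp
  have h5 := D1_nonneg M hS p hp
  have h6 := pH_window_tail hM
  have h7 : dlT M ≤ 25 / (M : ℝ) := h6
  have h8 : dlT M * kl p (unif (Mat S)) ≤ 25 / (M : ℝ) * kl p (unif (Mat S)) :=
    mul_le_mul_of_nonneg_right h7 hD
  have h9 : 0 ≤ sg * kl (push (Wc S (wH M)) p) (push (Wc S (wH M)) (unif (Mat S))) :=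
    mul_nonneg hsg h5
  have e : (20 / 19 * zt + sg + 50 / (M : ℝ)) / 2 * kl p (unif (Mat S))
      = (20 / 19 * (zt * kl p (unif (Mat S))) + sg * kl p (unif (Mat S))
        + 2 * (25 / (M : ℝ) * kl p (unif (Mat S)))) / 2 := by ring
  rw [e]
  nlinarith [h1, h2, h3, h4, h8, h9]

/-- STEP T with any error constant `K ≥ 50` (the shape consumed by `KL.assemble`). -/
theorem stepT_K (K : ℝ) (hK : 50 ≤ K) (M : ℕ) (hM : 2 ≤ M) (zt sg : ℝ) (hsg : 0 ≤ sg)
    (hZ : ZS M zt) (hT : ∀ n, 2 * M ≤ 5 * n → 5 * n ≤ 3 * M → TS n sg) :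
    TS M ((20 / 19 * zt + sg + K / (M : ℝ)) / 2) := by
  intro S _ _ hS
  refine KL.Tz.SDPI_mono (stepT M hM zt sg hsg hZ hT S hS) ?_
  have hM0 : (0 : ℝ) < M := by exact_mod_cast (by omega : 0 < M)
  have : 50 / (M : ℝ) ≤ K / (M : ℝ) := div_le_div_of_nonneg_right hK hM0.le
  linarith

end Vale.Agent.P162.P2
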