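import Vale.Agent.P162.P2.WcKl
import Vale.Agent.P162.P2.Weights

namespace Vale.Agent.P162.P2

open Finset Vale.Agent.P162 Vale.Agent.P162.KL

variable {S : Type} [Fintype S] [DecidableEq S]

/-- `kl_Wc` for both weights; the terms `a = 0`, `a = M` vanish (`Ek_zero`, `Ek_top`), the others
are proportional (`wU_eq_wNu`). -/
theorem kl_wU_wNu (M : ℕ) (hS : Fintype.card S = 2 * M) (p : Mat S → ℝ) (hp : IsLaw p) :
    kl (push (Wc S (wU (2 * M))) p) (push (Wc S (wU (2 * M))) (unif (Mat S))) =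
      (1 + 4 / (2 : ℝ) ^ (2 * M)) *
        kl (push (Wc S (wNu (2 * M))) p) (push (Wc S (wNu (2 * M))) (unif (Mat S))) := by
  rw [kl_Wc M hS, kl_Wc M hS, Finset.mul_sum]
  refine Finset.sum_congr rfl fun a ha => ?_
  have haM : a ≤ M := by
    have := Finset.mem_range.1 ha
    omega
  rcases Nat.eq_zero_or_pos a with h0 | h0
  · subst h0
    rw [Nat.mul_zero, Ek_zero p hp]
    ring
  rcases Nat.lt_or_ge a M with h1 | h1
  · rw [wU_eq_wNu h0 h1]
    ring
  · have : a = M := le_antisymm haM h1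
    subst this
    rw [Ek_top a hS p hp]
    ring

/-- `push_Wc`, `Fd_unif`, `wNu_eq_nuw` -/
theorem push_wNu_unif (M : ℕ) (hS : Fintype.card S = 2 * M) :
    push (Wc S (wNu (2 * M))) (unif (Mat S)) = nuw := by
  funext x
  rw [push_Wc, Fd_unif M hS, mul_one, ← hS, wNu_eq_nuw]

end Vale.Agent.P162.P2
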