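import Vale.Agent.P162.P2.StepZA
import Vale.Agent.P162.P2.PairSum
import Vale.Agent.P162.P2.PairUnif
import Vale.Agent.P162.P2.PairSymm
import Vale.Agent.P162.P2.WcChan
import Vale.Agent.P162.KL.BLPair

namespace Vale.Agent.P162.P2

open Finset Vale.Agent.P162 Vale.Agent.P162.KL

variable {S : Type} [Fintype S] [DecidableEq S]

/-- first marginal of the pair kernel (`KZ2_sum`; if `Wc σ x ≠ 0` then `Cl σ x`) -/
theorem pair_marg1 (M : ℕ) (hS : Fintype.card S = 2 * M) (σ : Mat S) (x : Ev S) :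
    ∑ y, K12 (Wc S (wNu (2 * M))) (KZ2 S) σ (x, y) = Wc S (wNu (2 * M)) σ x := by
  unfold K12
  simp only
  rw [← Finset.mul_sum]
  by_cases h : Cl σ.1 x.1
  · rw [KZ2_sum M hS x σ h, mul_one]
  · have : Wc S (wNu (2 * M)) σ x = 0 := by
      unfold Wc
      rw [if_neg h]
    rw [this, zero_mul]

theorem K12_pair_nonneg (M : ℕ) (σ : Mat S) (xy : Ev S × Ev S) :
    0 ≤ K12 (Wc S (wNu (2 * M))) (KZ2 S) σ xy := by
  unfold K12
  exact mul_nonneg (Wc_nonneg _ (fun k => (wNu_pos _ k).le) σ _) (KZ2_nonneg _ σ _)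

/-- LEMMA BL applied to the pair coupling: `BL_pair` with `Q x y = push K12 p (x, y)`,
`q1 = q2 = push K1 p` (`pair_marg1`, `pair_symm`), `Rw = push K12 unif` (`push_pair_unif`),
`nuw = push K1 unif` (`push_wNu_unif`); absolute continuity: if `push K12 unif (x,y) = 0` then all
`K12 σ (x,y) = 0` (nonnegative summands), so `push K12 p (x,y) = 0`. -/
theorem pair_BL_ineq (M : ℕ) (hM : 32 ≤ M) (hS : Fintype.card S = 2 * M) (p : Mat S → ℝ)
    (hp : IsLaw p) :
    (1 - 16 / (M : ℝ)) *
        (2 * kl (push (Wc S (wNu (2 * M))) p) (push (Wc S (wNu (2 * M))) (unif (Mat S)))) ≤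
      kl (push (K12 (Wc S (wNu (2 * M))) (KZ2 S)) p)
        (push (K12 (Wc S (wNu (2 * M))) (KZ2 S)) (unif (Mat S))) := by
  have hM1 : 1 ≤ M := by omega
  have hMpos : (0 : ℝ) < (M : ℝ) := by exact_mod_cast (by omega : 0 < M)
  set K1 := Wc S (wNu (2 * M)) with hK1
  set KK := K12 K1 (KZ2 S) with hKK
  have hKK0 : ∀ σ xy, 0 ≤ KK σ xy := fun σ xy => K12_pair_nonneg M σ xy
  have hmarg1 : ∀ x, push K1 p x = ∑ y, push KK p (x, y) := by
    intro x
    unfold push
    rw [Finset.sum_comm]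
    refine Finset.sum_congr rfl (fun σ _ => ?_)
    rw [← Finset.mul_sum, pair_marg1 M hS σ x]
  have hmarg2 : ∀ y, push K1 p y = ∑ x, push KK p (x, y) := by
    intro y
    rw [hmarg1 y]
    refine Finset.sum_congr rfl (fun x _ => ?_)
    unfold push
    refine Finset.sum_congr rfl (fun σ _ => ?_)
    have h := pair_symm M hM1 hS σ y x
    change KK σ (y, x) = KK σ (x, y) at h
    rw [h]
  have hchan : IsChan K1 :=
    Wc_isChan M hS _ (fun k => (wNu_pos _ k).le) (sum_choose_wNu hM1)
  have hsum : ∑ x, ∑ y, push KK p (x, y) = 1 := by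
    have : ∀ x, ∑ y, push KK p (x, y) = push K1 p x := fun x => (hmarg1 x).symm
    simp_rw [this]
    unfold push
    rw [Finset.sum_comm]
    have h2 : ∀ σ, ∑ x, p σ * K1 σ x = p σ := by
      intro σ
      rw [← Finset.mul_sum, (hchan σ).2, mul_one]
    simp_rw [h2]
    exact hp.2
  have hcard : (0 : ℝ) < (Fintype.card (Mat S) : ℝ) := by
    have hne : Nonempty (Mat S) := by
      by_contra hcon
      rw [not_nonempty_iff] at hcon
      have := hp.2
      simp at this
    exact_mod_cast Fintype.card_pos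
  have hac : ∀ x y, Rw (x, y) = 0 → push KK p (x, y) = 0 := by
    intro x y h
    rw [← push_pair_unif M hM1 hS x y] at h
    unfold push at h ⊢
    have h0 : ∀ σ ∈ (Finset.univ : Finset (Mat S)), 0 ≤ unif (Mat S) σ * KK σ (x, y) := by
      intro σ _
      exact mul_nonneg (by unfold unif; positivity) (hKK0 σ _)
    have h1 := (Finset.sum_eq_zero_iff_of_nonneg h0).1 h
    refine Finset.sum_eq_zero (fun σ hσ => ?_)
    have h2 := h1 σ hσ
    have h3 : KK σ (x, y) = 0 := by
      rcases mul_eq_zero.1 h2 with h4 | h4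
      · exfalso
        unfold unif at h4
        have : (1 : ℝ) / (Fintype.card (Mat S) : ℝ) ≠ 0 := by positivity
        exact this h4
      · exact h4
    rw [h3, mul_zero]
  have hQ0 : ∀ x y, 0 ≤ push KK p (x, y) := by
    intro x y
    unfold push
    exact Finset.sum_nonneg (fun σ _ => mul_nonneg (hp.1 σ) (hKK0 σ _))
  have hEven : Even (Fintype.card S) := by rw [hS]; exact even_two_mul M
  have main := BL_pair (S := S) hEven (by rw [hS]; omega) (fun x y => push KK p (x, y))
    (push K1 p) (push K1 p) hQ0 hac hmarg1 hmarg2 hsum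
  have hnu : push K1 (unif (Mat S)) = nuw := push_wNu_unif M hS
  have hR : push KK (unif (Mat S)) = Rw := by
    funext xy
    obtain ⟨x, y⟩ := xy
    exact push_pair_unif M hM1 hS x y
  rw [hnu, hR]
  have hkl : kl (push KK p) Rw = ∑ x, ∑ y, push KK p (x, y) * Real.log (push KK p (x, y) / Rw (x, y)) := by
    unfold kl
    rw [Fintype.sum_prod_type]
  rw [hkl]
  have hc : (32 : ℝ) / (Fintype.card S : ℝ) = 16 / (M : ℝ) := by
    rw [hS]
    push_cast
    field_simp
    ring
  rw [hc] at main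
  calc (1 - 16 / (M : ℝ)) * (2 * kl (push K1 p) nuw)
      = (1 - 16 / (M : ℝ)) * (kl (push K1 p) nuw + kl (push K1 p) nuw) := by ring
    _ ≤ _ := main

end Vale.Agent.P162.P2
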