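import Vale.Agent.P162.P2.WcKl
import Vale.Agent.P162.P2.TrChan
import Vale.Agent.P162.P2.JoinSet
import Vale.Agent.P162.P2.JoinMat

/-!
# P162 (P2), STEP T : the two transversals `τ` and `flipOut z τ` are exactly independent
-/

namespace Vale.Agent.P162.P2

open Finset Vale.Agent.P162 Vale.Agent.P162.KL

variable {S : Type} [Fintype S] [DecidableEq S]

theorem flipOut_flipOut (z : Finset S) (τ : S → Bool) : flipOut z (flipOut z τ) = τ := by
  funext a
  unfold flipOut
  split_ifs <;> simp

theorem flipOut_eq_iff (z : Finset S) (τ b : S → Bool) : flipOut z τ = b ↔ τ = flipOut z b := by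
  constructor
  · rintro rfl
    rw [flipOut_flipOut]
  · rintro rfl
    rw [flipOut_flipOut]

theorem cl_mem_iff (σ : Mat S) {z : Finset S} (h : Cl σ.1 z) (a : S) : σ.1 a ∈ z ↔ a ∈ z := by
  constructor
  · intro ha
    have := h _ ha
    rwa [σ.2.1] at this
  · exact h a

/-- flipping outside a closed set preserves transversality -/
theorem trans_flipOut (σ : Mat S) (z : Finset S) (h : Cl σ.1 z) (τ : S → Bool) :
    (∀ a, flipOut z τ (σ.1 a) = !flipOut z τ a) ↔ (∀ a, τ (σ.1 a) = !τ a) := by
  unfold flipOut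
  constructor
  · intro H a
    have h1 := H a
    simp only [cl_mem_iff σ h a] at h1
    by_cases ha : a ∈ z
    · simpa [ha] using h1
    · simpa [ha] using h1
  · intro H a
    simp only [cl_mem_iff σ h a]
    by_cases ha : a ∈ z
    · simp [ha, H a]
    · simp [ha, H a]

theorem Tr_flipOut (σ : Mat S) (z : Finset S) (h : Cl σ.1 z) (τ : S → Bool) :
    Tr S σ (flipOut z τ) = Tr S σ τ := by
  unfold Tr
  simp only [trans_flipOut σ z h]

/-- the agreement set of two colourings -/
def agr (b1 b2 : S → Bool) : Finset S := univ.filter (fun a => b1 a = b2 a)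

theorem flipOut_eq_agr (z : Finset S) (b1 b2 : S → Bool) : flipOut z b1 = b2 ↔ z = agr b1 b2 := by
  constructor
  · intro h
    ext a
    have h1 := congrFun h a
    unfold flipOut at h1
    simp only [agr, mem_filter, mem_univ, true_and]
    by_cases ha : a ∈ z
    · simp only [ha, if_true] at h1
      simp [ha, h1]
    · simp only [ha, if_false] at h1
      simp only [ha, false_iff]
      intro h2
      rw [h2] at h1
      cases h3 : b2 a <;> simp [h3] at h1
  · rintro rfl
    funext a
    unfold flipOut agr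
    simp only [mem_filter, mem_univ, true_and]
    by_cases h : b1 a = b2 a
    · simp [h]
    · simp only [h, if_false]
      cases h1 : b1 a <;> cases h2 : b2 a <;> simp_all

theorem choose_mul_wH' {M n : ℕ} (hn : n ≤ M) :
    ((2 * M).choose (2 * n) : ℝ) * wH M (2 * n) = pH M n := by
  unfold wH
  have h : (0 : ℝ) < ((2 * M).choose (2 * n) : ℝ) := by
    exact_mod_cast Nat.choose_pos (by omega)
  have e : 2 * n / 2 = n := by omega
  rw [e]
  field_simp

theorem sum_wH (M : ℕ) : ∑ a ∈ range (M + 1), ((2 * M).choose (2 * a) : ℝ) * wH M (2 * a) = 1 := by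
  rw [← sum_pH M]
  apply Finset.sum_congr rfl
  intro a ha
  exact choose_mul_wH' (by have := Finset.mem_range.1 ha; omega)

theorem wH_nonneg (M k : ℕ) : 0 ≤ wH M k := by
  unfold wH
  exact div_nonneg (pH_nonneg _ _) (by positivity)

theorem WcH_isChan (M : ℕ) (hS : Fintype.card S = 2 * M) : IsChan (Wc S (wH M)) :=
  Wc_isChan M hS (wH M) (wH_nonneg M) (sum_wH M)

/-- the first copy -/
theorem T_h1 (M : ℕ) (hS : Fintype.card S = 2 * M) (σ : Mat S) (b : S → Bool) :
    ∑ zt ∈ univ.filter (fun zt : Ev S × (S → Bool) => zt.2 = b),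
      K12 (Wc S (wH M)) (KT2 S) σ zt = Tr S σ b := by
  rw [Finset.sum_filter, Fintype.sum_prod_type]
  simp only [Finset.sum_ite_eq', Finset.mem_univ, if_true]
  unfold K12 KT2
  simp only
  rw [← Finset.sum_mul, (WcH_isChan M hS σ).2, one_mul]

/-- the second copy -/
theorem T_h2 (M : ℕ) (hS : Fintype.card S = 2 * M) (σ : Mat S) (b : S → Bool) :
    ∑ zt ∈ univ.filter (fun zt : Ev S × (S → Bool) => flipOut zt.1.1 zt.2 = b),
      K12 (Wc S (wH M)) (KT2 S) σ zt = Tr S σ b := by
  rw [Finset.sum_filter, Fintype.sum_prod_type]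
  simp only [flipOut_eq_iff, Finset.sum_ite_eq', Finset.mem_univ, if_true]
  unfold K12 KT2
  simp only
  have : ∀ z : Ev S, Wc S (wH M) σ z * Tr S σ (flipOut z.1 b) = Wc S (wH M) σ z * Tr S σ b := by
    intro z
    by_cases h : Cl σ.1 z.1
    · rw [Tr_flipOut σ z.1 h]
    · unfold Wc
      rw [if_neg h, zero_mul, zero_mul]
  simp only [this]
  rw [← Finset.sum_mul, (WcH_isChan M hS σ).2, one_mul]

theorem card_filter_subtype (P : S → Prop) [DecidablePred P] [Fintype {a // P a}] (q : S → Prop)
    [DecidablePred q] :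
    (univ.filter (fun a : {a // P a} => q a.1)).card
      = (univ.filter (fun a : S => P a ∧ q a)).card := by
  apply Finset.card_bij (fun a _ => a.1)
  · intro a ha
    simp only [mem_filter, mem_univ, true_and] at ha ⊢
    exact ⟨a.2, ha⟩
  · intro a _ b _ h
    exact Subtype.ext h
  · intro a ha
    simp only [mem_filter, mem_univ, true_and] at ha
    exact ⟨⟨a, ha.1⟩, by simp [ha.2], rfl⟩

/-- number of matchings for which `z` is closed and `b` is a transversal -/
theorem count_cl_trans (M : ℕ) (hS : Fintype.card S = 2 * M) (z : Finset S) (n : ℕ)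
    (hz : z.card = 2 * n) (b : S → Bool) :
    ((univ.filter (fun σ : Mat S => Cl σ.1 z ∧ ∀ a, b (σ.1 a) = !b a)).card : ℝ) =
      if ((univ.filter (fun a => a ∈ z ∧ b a = true)).card = n ∧
          (univ.filter (fun a => a ∉ z ∧ b a = true)).card = M - n) then
        (n.factorial : ℝ) * ((M - n).factorial : ℝ) else 0 := by
  have hle : z.card ≤ Fintype.card S := Finset.card_le_univ z
  have h1 : univ.filter (fun σ : Mat S => Cl σ.1 z ∧ ∀ a, b (σ.1 a) = !b a)
      = ((univ.filter (fun σ : Mat {a // a ∈ z} => ∀ a, b (σ.1 a).1 = !b a.1)) ×ˢ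
          (univ.filter (fun σ : Mat {a // a ∉ z} => ∀ a, b (σ.1 a).1 = !b a.1))).image
          (joinMat z) := by
    ext σ
    simp only [mem_filter, mem_univ, true_and, mem_image, mem_product]
    constructor
    · rintro ⟨hcl, htr⟩
      obtain ⟨σ', rfl⟩ := joinMat_range z σ hcl
      refine ⟨σ', ⟨?_, ?_⟩, rfl⟩
      · intro a
        have := htr a.1
        rwa [joinMat_apply_mem z σ' a.1 a.2] at this
      · intro a
        have := htr a.1
        rwa [joinMat_apply_not_mem z σ' a.1 a.2] at this
    · rintro ⟨σ', ⟨h1, h2⟩, rfl⟩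
      refine ⟨joinMat_cl z σ', ?_⟩
      intro a
      by_cases ha : a ∈ z
      · rw [joinMat_apply_mem z σ' a ha]
        exact h1 ⟨a, ha⟩
      · rw [joinMat_apply_not_mem z σ' a ha]
        exact h2 ⟨a, ha⟩
  rw [h1, Finset.card_image_of_injective _ (joinMat_injective z), Finset.card_product]
  push_cast
  have c1 : Fintype.card {a // a ∈ z} = 2 * n := by rw [Fintype.card_coe, hz]
  have c2 : Fintype.card {a // a ∉ z} = 2 * (M - n) := by
    rw [Fintype.card_subtype_compl, Fintype.card_coe, hS, hz]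
    omega
  have k1 : (univ.filter (fun a : {a // a ∈ z} => b a.1 = true)).card
      = (univ.filter (fun a => a ∈ z ∧ b a = true)).card :=
    card_filter_subtype (fun a => a ∈ z) (fun a => b a = true)
  have k2 : (univ.filter (fun a : {a // a ∉ z} => b a.1 = true)).card
      = (univ.filter (fun a => a ∉ z ∧ b a = true)).card :=
    card_filter_subtype (fun a => a ∉ z) (fun a => b a = true)
  rw [cross_count n c1 (fun a => b a.1), cross_count (M - n) c2 (fun a => b a.1), k1, k2]
  by_cases e1 : (univ.filter (fun a => a ∈ z ∧ b a = true)).card = n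
  · by_cases e2 : (univ.filter (fun a => a ∉ z ∧ b a = true)).card = M - n
    · simp [e1, e2]
    · simp [e1, e2]
  · simp [e1]

/-- the value of the joint weight on a compatible pair -/
theorem val_eq (M n : ℕ) (hn : n ≤ M) :
    (n.factorial : ℝ) * ((M - n).factorial : ℝ) *
        (wH M (2 * n) / (mc (2 * n) * mc (2 * M - 2 * n)) / 2 ^ M)
      = 1 / ((2 * M).choose M : ℝ) * (1 / ((2 * M).choose M : ℝ)) := by
  have hA := choose_mul_mc hn
  have hB := mc_formula M
  have hC0 := choose_mul_wH' hn
  have hD : (M.choose n : ℝ) * (n.factorial : ℝ) * ((M - n).factorial : ℝ) = (M.factorial : ℝ) := by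
    exact_mod_cast Nat.choose_mul_factorial_mul_factorial hn
  have hE : ((2 * M).choose M : ℝ) * (M.factorial : ℝ) * (M.factorial : ℝ)
      = ((2 * M).factorial : ℝ) := by
    have h := Nat.choose_mul_factorial_mul_factorial (show M ≤ 2 * M by omega)
    have e : 2 * M - M = M := by omega
    rw [e] at h
    exact_mod_cast h
  have hCC : (0 : ℝ) < ((2 * M).choose M : ℝ) := by
    exact_mod_cast Nat.choose_pos (by omega)
  have hc2 : (0 : ℝ) < ((2 * M).choose (2 * n) : ℝ) := by
    exact_mod_cast Nat.choose_pos (by omega)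
  have hm1 : 0 < mc (2 * n) := mc_pos n
  have hm2 : 0 < mc (2 * M - 2 * n) := by
    have e : 2 * M - 2 * n = 2 * (M - n) := by omega
    rw [e]
    exact mc_pos _
  have hF : (0 : ℝ) < (M.factorial : ℝ) := by positivity
  have hC : ((2 * M).choose (2 * n) : ℝ) * wH M (2 * n) * ((2 * M).choose M : ℝ)
      = (M.choose n : ℝ) ^ 2 := by
    rw [hC0]
    unfold pH
    field_simp
  have hBE : mc (2 * M) * 2 ^ M = ((2 * M).choose M : ℝ) * (M.factorial : ℝ) := by
    have : mc (2 * M) * 2 ^ M * (M.factorial : ℝ)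
        = ((2 * M).choose M : ℝ) * (M.factorial : ℝ) * (M.factorial : ℝ) := by
      rw [hE, ← hB]
      ring
    exact mul_right_cancel₀ hF.ne' this
  have key : (n.factorial : ℝ) * ((M - n).factorial : ℝ) * wH M (2 * n) *
      ((2 * M).choose M : ℝ) * ((2 * M).choose M : ℝ) * ((2 * M).choose (2 * n) : ℝ)
      = mc (2 * n) * mc (2 * M - 2 * n) * 2 ^ M * ((2 * M).choose (2 * n) : ℝ) := by
    linear_combination ((n.factorial : ℝ) * ((M - n).factorial : ℝ) * ((2 * M).choose M : ℝ)) * hC
      + ((M.choose n : ℝ) * ((2 * M).choose M : ℝ)) * hD - (M.choose n : ℝ) * hBE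
      + (2 : ℝ) ^ M * hA
  have key2 := mul_right_cancel₀ hc2.ne' key
  have hP : (0 : ℝ) < 2 ^ M := by positivity
  rw [div_div, mul_div_assoc', div_eq_iff (by positivity), ← key2]
  field_simp

theorem card_split (p q r : S → Prop) [DecidablePred p] [DecidablePred q] [DecidablePred r]
    (h : ∀ a, (if p a then 1 else 0 : ℕ) = (if q a then 1 else 0) + (if r a then 1 else 0)) :
    (univ.filter p).card = (univ.filter q).card + (univ.filter r).card := by
  simp only [Finset.card_filter]
  rw [← Finset.sum_add_distrib]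
  exact Finset.sum_congr rfl (fun a _ => h a)

theorem mem_agr (b1 b2 : S → Bool) (a : S) : a ∈ agr b1 b2 ↔ b1 a = b2 a := by
  simp [agr]

/-- the four cell counts -/
theorem cells (M : ℕ) (hS : Fintype.card S = 2 * M) (b1 b2 : S → Bool) :
    ∃ n11 n10 n01 n00 : ℕ,
      (univ.filter (fun a => a ∈ agr b1 b2 ∧ b1 a = true)).card = n11 ∧
      (univ.filter (fun a => a ∉ agr b1 b2 ∧ b1 a = true)).card = n10 ∧
      (univ.filter (fun a => b1 a = true)).card = n11 + n10 ∧
      (univ.filter (fun a => b2 a = true)).card = n11 + n01 ∧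
      (agr b1 b2).card = n11 + n00 ∧ 2 * M = n11 + n10 + (n01 + n00) := by
  refine ⟨_, _, (univ.filter (fun a => a ∉ agr b1 b2 ∧ b1 a = false)).card,
    (univ.filter (fun a => a ∈ agr b1 b2 ∧ b1 a = false)).card, rfl, rfl, ?_, ?_, ?_, ?_⟩
  · apply card_split
    intro a
    simp only [mem_agr]
    cases h1 : b1 a <;> cases h2 : b2 a <;> simp
  · apply card_split
    intro a
    simp only [mem_agr]
    cases h1 : b1 a <;> cases h2 : b2 a <;> simp
  · have : (agr b1 b2).card = (univ.filter (fun a => a ∈ agr b1 b2)).card := by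
      congr 1
      ext a
      simp
    rw [this]
    apply card_split
    intro a
    simp only [mem_agr]
    cases h1 : b1 a <;> cases h2 : b2 a <;> simp
  · have e0 : 2 * M = (univ.filter (fun _ : S => True)).card := by
      rw [← hS]
      simp
    have e1 : (univ.filter (fun _ : S => True)).card
        = (univ.filter (fun a => b1 a = true)).card + (univ.filter (fun a => b1 a = false)).card := by
      apply card_split
      intro a
      cases h1 : b1 a <;> simp
    have e2 : (univ.filter (fun a => b1 a = true)).card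
        = (univ.filter (fun a => a ∈ agr b1 b2 ∧ b1 a = true)).card
          + (univ.filter (fun a => a ∉ agr b1 b2 ∧ b1 a = true)).card := by
      apply card_split
      intro a
      simp only [mem_agr]
      cases h1 : b1 a <;> cases h2 : b2 a <;> simp
    have e3 : (univ.filter (fun a => b1 a = false)).card
        = (univ.filter (fun a => a ∉ agr b1 b2 ∧ b1 a = false)).card
          + (univ.filter (fun a => a ∈ agr b1 b2 ∧ b1 a = false)).card := by
      apply card_split
      intro a
      simp only [mem_agr]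
      cases h1 : b1 a <;> cases h2 : b2 a <;> simp
    rw [e0, e1, e2, e3]

/-- the joint weight of (closed set, transversal) under the uniform matching -/
theorem push_KK_unif (M : ℕ) (hS : Fintype.card S = 2 * M) (z : Ev S) (n : ℕ)
    (hz : z.1.card = 2 * n) (b : S → Bool) :
    push (K12 (Wc S (wH M)) (KT2 S)) (unif (Mat S)) (z, b) =
      ((univ.filter (fun σ : Mat S => Cl σ.1 z.1 ∧ ∀ a, b (σ.1 a) = !b a)).card : ℝ) *
        (wH M (2 * n) / (mc (2 * n) * mc (2 * M - 2 * n)) / 2 ^ M) := by
  have hm : 0 < mc (2 * M) := mc_pos M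
  have hM2 : 2 * M / 2 = M := by omega
  unfold push K12 KT2 Wc Tr unif
  simp only
  rw [card_Mat, hS, hz, hM2]
  have : ∀ σ : Mat S, 1 / mc (2 * M) * ((if Cl σ.1 z.1 then
      mc (2 * M) * wH M (2 * n) / (mc (2 * n) * mc (2 * M - 2 * n)) else 0) *
      (if ∀ a, b (σ.1 a) = !b a then 1 / 2 ^ M else 0))
      = if (Cl σ.1 z.1 ∧ ∀ a, b (σ.1 a) = !b a) then
        (wH M (2 * n) / (mc (2 * n) * mc (2 * M - 2 * n)) / 2 ^ M) else 0 := by
    intro σ
    by_cases h1 : Cl σ.1 z.1
    · by_cases h2 : ∀ a, b (σ.1 a) = !b a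
      · rw [if_pos h1, if_pos h2, if_pos ⟨h1, h2⟩]
        field_simp
      · have h3 : ¬ (Cl σ.1 z.1 ∧ ∀ a, b (σ.1 a) = !b a) := fun h => h2 h.2
        rw [if_neg h2, if_neg h3]
        simp
    · have h3 : ¬ (Cl σ.1 z.1 ∧ ∀ a, b (σ.1 a) = !b a) := fun h => h1 h.1
      rw [if_neg h1, if_neg h3]
      simp
  simp only [this]
  rw [← Finset.sum_filter, Finset.sum_const, nsmul_eq_mul]

/-- EXACT INDEPENDENCE of the two transversals under the uniform matching -/
theorem T_hind (M : ℕ) (hS : Fintype.card S = 2 * M) (b1 b2 : S → Bool) :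
    ∑ zt ∈ univ.filter (fun zt : Ev S × (S → Bool) => zt.2 = b1 ∧ flipOut zt.1.1 zt.2 = b2),
      push (K12 (Wc S (wH M)) (KT2 S)) (unif (Mat S)) zt =
    push (Tr S) (unif (Mat S)) b1 * push (Tr S) (unif (Mat S)) b2 := by
  obtain ⟨n11, n10, n01, n00, c1, c2, c3, c4, c5, c6⟩ := cells M hS b1 b2
  rw [push_Tr_unif M hS, push_Tr_unif M hS, c3, c4]
  rw [Finset.sum_filter, Fintype.sum_prod_type]
  simp only [ite_and, Finset.sum_ite_eq', Finset.mem_univ, if_true, flipOut_eq_agr]
  by_cases hev : Even (agr b1 b2).card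
  · have hz : ∀ z : Ev S, z.1 = agr b1 b2 ↔ z = ⟨agr b1 b2, hev⟩ := fun z =>
      ⟨fun h => Subtype.ext h, fun h => congrArg Subtype.val h⟩
    simp only [hz, Finset.sum_ite_eq', Finset.mem_univ, if_true]
    obtain ⟨n, hn⟩ := hev
    have hn' : (agr b1 b2).card = 2 * n := by omega
    rw [push_KK_unif M hS _ n hn', count_cl_trans M hS _ n hn', c1, c2]
    by_cases hb : n11 + n10 = M ∧ n11 + n01 = M
    · have h1 : n11 = n ∧ n10 = M - n := by omega
      rw [if_pos h1, if_pos hb.1, if_pos hb.2]
      exact val_eq M n (by omega)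
    · have h1 : ¬ (n11 = n ∧ n10 = M - n) := by omega
      rw [if_neg h1, zero_mul]
      by_cases h2 : n11 + n10 = M
      · have h3 : ¬ (n11 + n01 = M) := fun h => hb ⟨h2, h⟩
        rw [if_neg h3, mul_zero]
      · rw [if_neg h2, zero_mul]
  · have hz : ∀ z : Ev S, ¬ z.1 = agr b1 b2 := fun z h => hev (h ▸ z.2)
    simp only [hz, if_false, Finset.sum_const_zero]
    have hodd : ¬ (n11 + n10 = M ∧ n11 + n01 = M) := by
      intro hb
      apply hev
      rw [c5]
      exact ⟨n11, by omega⟩
    by_cases h2 : n11 + n10 = M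
    · have h3 : ¬ (n11 + n01 = M) := fun h => hodd ⟨h2, h⟩
      rw [if_neg h3, mul_zero]
    · rw [if_neg h2, zero_mul]

end Vale.Agent.P162.P2
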