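import Vale.Agent.P162.P2.Wrap4
import Vale.Agent.P162.P2.StepZ
import Vale.Agent.P162.Eps.StepT

namespace Vale.Agent.P162.P2

open Finset Vale.Agent.P162 Vale.Agent.P162.KL

theorem stepZ50 (M : ℕ) (hM : 51 ≤ M) (g : ℝ) (hg : 0 ≤ g)
    (hZ : ∀ n, 2 * M ≤ 5 * n → 5 * n ≤ 3 * M → ZS n g) :
    ZS M ((1 + (50 : ℝ) / (M : ℝ)) * (g + (50 : ℝ) / (M : ℝ)) / (1 - (50 : ℝ) / (M : ℝ) + g)) := by
  refine ZS_mono4 M _ _ (stepZ M (by omega) g hg hZ) ?_
  have hMR : (51 : ℝ) ≤ M := by exact_mod_cast hM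
  have hMpos : (0 : ℝ) < M := by linarith
  have h50 : 50 / (M : ℝ) < 1 := by rw [div_lt_one hMpos]; linarith
  have h1 : 32 / (M : ℝ) ≤ 50 / (M : ℝ) := by
    apply div_le_div_of_nonneg_right (by norm_num) hMpos.le
  have h0 : 0 ≤ 32 / (M : ℝ) := by positivity
  apply div_le_div₀
  · have : 0 ≤ 50 / (M : ℝ) := by positivity
    positivity
  · apply mul_le_mul (by linarith) (by linarith) (by linarith) (by linarith)
  · linarith
  · linarith

theorem thorp_upper : ∃ C : ℝ, ∀ k t : ℕ, C * ((k : ℝ) + 1) ^ (29 / 10 : ℝ) ≤ t →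
      tvUnif (thorpPow (2 ^ k) t) ≤ 1 / 4 :=
  wrap4 50 (by norm_num) 51 (by norm_num)
    (fun M hM g hg hZ => stepZ50 M hM g hg hZ)
    (fun M hM zt sg hzt hsg hZ hT => stepT_two_fifths M (by omega) zt sg hzt hsg hZ hT)
    TS_half

end Vale.Agent.P162.P2
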