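import Vale.Agent.P162.P2.JoinDefs

/-! # P162 (P2): densities of the channels `Wc`, second stages.  Definitions only. -/

namespace Vale.Agent.P162.P2

open Finset Vale.Agent.P162 Vale.Agent.P162.KL

variable (S : Type) [Fintype S] [DecidableEq S]

/-- output density of all the channels `Wc S w` at `x`: the average of `p / unif` over the
matchings for which `x` is closed -/
noncomputable def Fd (p : Mat S → ℝ) (x : Ev S) : ℝ :=
  mc (Fintype.card S) * (∑ σ : Mat S, if Cl σ.1 x.1 then p σ else 0) /
    (mc x.1.card * mc (Fintype.card S - x.1.card))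

/-- entropy of the density on the sets of size `k` (not normalised) -/
noncomputable def Ek (p : Mat S → ℝ) (k : ℕ) : ℝ :=
  ∑ x ∈ univ.filter (fun x : Ev S => x.1.card = k), Fd S p x * Real.log (Fd S p x)

/-- second stage of the pair coupling: given the first closed set `x`, the second set `y` is
(uniform even closed subset of `x`) ∪ (uniform even closed subset of the complement) -/
noncomputable def KZ2 (x : Ev S) (σ : Mat S) (y : Ev S) : ℝ :=
  if Even (x.1 ∩ y.1).card ∧ Cl σ.1 (x.1 ∩ y.1) ∧ Cl σ.1 (y.1 \ x.1) then
    (mc x.1.card * (1 / evc x.1.card) /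
        (mc (x.1 ∩ y.1).card * mc (x.1.card - (x.1 ∩ y.1).card))) *
      (mc (Fintype.card S - x.1.card) * (1 / evc (Fintype.card S - x.1.card)) /
        (mc (y.1 \ x.1).card * mc (Fintype.card S - x.1.card - (y.1 \ x.1).card)))
  else 0

/-- second stage of the transversal coupling: a transversal, whatever the closed set `z` is -/
noncomputable def KT2 (_z : Ev S) (σ : Mat S) (τ : S → Bool) : ℝ := Tr S σ τ

variable {S}

/-- the second transversal: keep `τ` on `z`, flip it outside -/
def flipOut (z : Finset S) (τ : S → Bool) : S → Bool := fun a => if a ∈ z then τ a else !τ a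

end Vale.Agent.P162.P2
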